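import Vale.Agent.P328.Model

namespace Vale.Agent.P328

/-- Contingency tables with row sums `r` and column sums `c` (an entry of row `i` is at most
`r i`, so the bound on the entries is no restriction). -/
def Omega {m n : ℕ} (r : Fin m → ℕ) (c : Fin n → ℕ) : Finset (Fin m → Fin n → ℕ) :=
  (Fintype.piFinset fun i => Fintype.piFinset fun _ => Finset.range (r i + 1)).filter
    fun X => (∀ i, ∑ j, X i j = r i) ∧ ∀ j, ∑ i, X i j = c j

/-- Input length: dimensions plus the number of bits of the margins. -/
def len {m n : ℕ} (r : Fin m → ℕ) (c : Fin n → ℕ) : ℕ :=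
  m + n + ∑ i, Nat.size (r i) + ∑ j, Nat.size (c j)

/-- What the program is given: the margins in binary, the accuracy `k` in unary (a list of `k`
zeros), and the random bits. -/
def input {m n l : ℕ} (r : Fin m → ℕ) (c : Fin n → ℕ) (k : ℕ) (ω : Fin l → Fin 2) : Val :=
  .pair (.pair (Val.ofNats (List.ofFn r))
      (.pair (Val.ofNats (List.ofFn c)) (Val.ofNats (List.replicate k 0))))
    (Val.ofNats (List.ofFn fun i => (ω i : ℕ)))

/-- A table as the list of its rows. -/
def table {m n : ℕ} (X : Fin m → Fin n → ℕ) : Val :=
  Val.ofList (List.ofFn fun i => Val.ofNats (List.ofFn (X i)))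

end Vale.Agent.P328
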