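import Vale.Agent.P328.Correct
import Vale.Agent.P328.Spec

namespace Vale.Agent.P328

open Finset

lemma tv {X : Type} {s : Finset X} {a : X → ℝ} {ε : ℝ} (h0 : ∑ x ∈ s, a x = 0)
    (h : ∀ A ⊆ s, |∑ x ∈ A, a x| ≤ ε) : 1 / 2 * ∑ x ∈ s, |a x| ≤ ε := by
  have e : ∀ x, |a x| = 2 * (if 0 < a x then a x else 0) - a x := fun x => by
    split_ifs with h
    · rw [abs_of_pos h]; ring
    · rw [abs_of_nonpos (not_lt.1 h)]; ring
  have := (le_abs_self _).trans (h _ (Finset.filter_subset (fun x => 0 < a x) s))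
  simp only [e, Finset.sum_sub_distrib, h0, ← Finset.mul_sum, ← Finset.sum_filter]
  linarith

lemma ofList_inj : Function.Injective Val.ofList := by
  intro l l' h
  induction l generalizing l' with
  | nil => cases l' <;> simp_all [Val.ofList]
  | cons a l ih =>
    cases l' with
    | nil => simp [Val.ofList] at h
    | cons b l' =>
      simp only [Val.ofList, Val.pair.injEq] at h
      rw [h.1, ih h.2]

lemma table_inj {m n : ℕ} : Function.Injective (table (m := m) (n := n)) := fun _ _ h =>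
  funext fun i => List.ofFn_injective (List.map_injective_iff.2 (fun _ _ => Val.num.inj)
    (ofList_inj (congrFun (List.ofFn_injective (ofList_inj h)) i)))

lemma sz_ofFn {m : ℕ} (r : Fin m → ℕ) : sz (List.ofFn r) = ∑ i, Nat.size (r i) + 2 * m + 1 := by
  induction m with
  | zero => simp [sz_nil]
  | succ m ih => rw [List.ofFn_succ, sz_cons, ih, Fin.sum_univ_succ, sz_nat]; omega

lemma sz_rep (k : ℕ) : sz (List.replicate k (0 : ℕ)) = 2 * k + 1 := by
  induction k with
  | zero => rfl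
  | succ k ih => rw [List.replicate_succ, sz_cons, ih, sz_nat, Nat.size_zero]; omega

lemma toNum_eq {l : ℕ} (ω : Fin l → Fin 2) :
    toNum (List.ofFn fun i => (ω i : ℕ)) = finFunctionFinEquiv ω := by
  rw [toNum, sumR, finFunctionFinEquiv_apply, List.length_ofFn, Finset.sum_range]
  exact Finset.sum_congr rfl fun i _ => by simp [min_eq_left i.2.le]

lemma mem_Omega {m n : ℕ} {r : Fin m → ℕ} {c : Fin n → ℕ} {X : Fin m → Fin n → ℕ} :
    X ∈ Omega r c ↔ (∀ i, ∑ j, X i j = r i) ∧ ∀ j, ∑ i, X i j = c j := by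
  simp only [Omega, Finset.mem_filter, Fintype.mem_piFinset, Finset.mem_range, and_iff_right_iff_imp]
  exact fun h i j => Nat.lt_succ_of_le (h.1 i ▸ Finset.single_le_sum (f := X i)
    (fun _ _ => Nat.zero_le _) (mem_univ j))

theorem law (x : Inp) {m n : ℕ} (hm : x.m = m) (hn : x.n = n) (r : Fin m → ℕ) (c : Fin n → ℕ)
    (hr : ∀ i, r i = x.r i) (hc : ∀ j, c j = x.c j) (m0 : 1 ≤ m) (n0 : 1 ≤ n)
    (hs : ∑ i, r i = ∑ j, c j) {l : ℕ} (hl : x.bits ≤ l) :
    (∀ R, ∃ X ∈ Omega r c, Enc.enc (x.main R) = table X) ∧ (1 / 2 : ℝ) * ∑ X ∈ Omega r c,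
      |({ω : Fin l → Fin 2 | Enc.enc (x.main (finFunctionFinEquiv ω)) = table X}.ncard : ℝ) / 2 ^ l -
        1 / (Omega r c).card| ≤ (1 / 2) ^ x.k := by
  subst hm hn
  obtain rfl := funext hr
  obtain rfl := funext hc
  have hx : x.Good := ⟨m0, n0, hs⟩
  obtain ⟨u, hu⟩ : ∃ u : (Fin x.m → Fin x.n → ℕ) → Fin x.m × Fin x.n → ℤ,
    u = fun X c => (X c.1 c.2 : ℤ) := ⟨_, rfl⟩
  have ui : Function.Injective u := fun X Y h => funext fun i => funext fun j => by
    have := congrFun h (i, j)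
    simpa [hu] using this
  have e1 : ∀ R, Enc.enc (x.main R) = table fun i j => (x.fin R (i, j)).toNat := fun R => by
    rw [Inp.main_eq]
    change Val.ofList _ = _
    rw [List.map_ofFn]; rfl
  have e2 : ∀ T ∈ (Inp.par hx).Ω, u (fun i j => (T (i, j)).toNat) = T := fun T hT => by
    funext c
    rw [hu]
    exact Int.toNat_of_nonneg (((Inp.par hx).mem_Ω.1 hT).2.2 c)
  have e3 : ∀ X, u X ∈ (Inp.par hx).Ω ↔ X ∈ Omega (fun i : Fin x.m => x.r i)
      fun j : Fin x.n => x.c j := fun X => by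
    rw [mem_Omega]
    constructor
    · intro h
      have a := ((Inp.par hx).mem_S.1 ((Inp.par hx).Ω_sub 0 h)).1
      have b := Mem.col (K := -u X) (Inp.par hx).sum_z ⟨a.1, a.2, by simp⟩
      rw [hu] at a b
      exact ⟨fun i => by exact_mod_cast (show (∑ j, X i j : ℤ) = x.r i from a.1 i),
        fun j => by exact_mod_cast (show (∑ i, X i j : ℤ) = x.c j from b j)⟩
    · intro h
      rw [Par.mem_Ω, hu]
      exact ⟨fun i => (by exact_mod_cast h.1 i : (∑ j, X i j : ℤ) = x.r i),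
        fun j _ => (by exact_mod_cast h.2 j : (∑ i, X i j : ℤ) = x.c j), fun _ => by positivity⟩
  have e4 : (Inp.par hx).Ω = (Omega (fun i : Fin x.m => x.r i) fun j : Fin x.n => x.c j).image u := by
    ext T
    rw [Finset.mem_image]
    exact ⟨fun h => ⟨_, (e3 _).1 ((e2 T h).symm ▸ h), e2 T h⟩, fun ⟨X, h, e⟩ => e ▸ (e3 X).2 h⟩
  have e5 : ∀ X, ({ω : Fin l → Fin 2 | Enc.enc (x.main (finFunctionFinEquiv ω)) = table X}.ncard : ℝ)
      = ∑ R ∈ range (2 ^ l), if x.fin R = u X then 1 else 0 := fun X => by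
    rw [Finset.sum_range, ← Equiv.sum_comp finFunctionFinEquiv, ← Finset.natCast_card_filter,
      ← Set.ncard_coe_finset]
    congr 2
    ext ω
    simp only [e1, table_inj.eq_iff, Set.mem_setOf_eq, Finset.coe_filter, mem_univ, true_and]
    rw [← ui.eq_iff, e2 _ (Inp.fin_mem hx _)]
  have e6 : ∀ A : Finset (Fin x.m → Fin x.n → ℕ), ∑ X ∈ A, (({ω : Fin l → Fin 2 |
      Enc.enc (x.main (finFunctionFinEquiv ω)) = table X}.ncard : ℝ) / 2 ^ l -
      1 / (Omega (fun i : Fin x.m => x.r i) fun j : Fin x.n => x.c j).card) =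
      (∑ R ∈ range (2 ^ l), if x.fin R ∈ A.image u then 1 else 0) / (2 ^ l : ℝ) -
      (A.image u).card / (Inp.par hx).Ω.card := fun A => by
    simp only [e5]
    rw [Finset.sum_sub_distrib, ← Finset.sum_div, Finset.sum_comm, Finset.sum_const, nsmul_eq_mul,
      mul_one_div, e4, Finset.card_image_of_injective _ ui, Finset.card_image_of_injective _ ui]
    congr 2
    refine Finset.sum_congr rfl fun R _ => ?_
    rw [← Finset.sum_image (f := fun T => if x.fin R = T then (1 : ℝ) else 0) ui.injOn,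
      Finset.sum_ite_eq]
  refine ⟨fun R => ⟨_, (e3 _).1 ((e2 _ (Inp.fin_mem hx R)).symm ▸ Inp.fin_mem hx R), e1 R⟩,
    tv ?_ fun A hA => ?_⟩
  · have : (0 : ℝ) < (Inp.par hx).Ω.card := by
      exact_mod_cast Finset.card_pos.2 ⟨_, Inp.T0_mem hx⟩
    rw [e6, ← e4, div_self this.ne']
    simp [Inp.fin_mem hx]
  · rw [e6]
    exact Inp.fin_prob hx hl (e4 ▸ Finset.image_subset_image hA)

end Vale.Agent.P328
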