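import Vale.Agent.P328.Mix

namespace Vale.Agent.P328

open Finset Real

lemma decay {M t j : ℕ} (hM : 1 ≤ M) (h : M * j ≤ t) {x : ℝ} (x0 : 0 ≤ x) (hx : x ≤ 1 - 1 / M) :
    x ^ t ≤ (1 / 2) ^ j := by
  have m : (1 : ℝ) ≤ M := by exact_mod_cast hM
  have a : (1 - 1 / M : ℝ) ^ M ≤ 1 / 2 := (one_sub_div_pow_le_exp_neg m).trans (by
    rw [exp_neg, one_div]
    exact inv_anti₀ two_pos (by linarith [add_one_le_exp (1 : ℝ)]))
  have b : (0 : ℝ) ≤ 1 / M := by positivity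
  calc x ^ t ≤ x ^ (M * j) := pow_le_pow_of_le_one x0 (by linarith) h
    _ ≤ (1 - 1 / M) ^ (M * j) := pow_le_pow_left₀ x0 hx _
    _ ≤ _ := by rw [pow_mul]; exact pow_le_pow_left₀ (pow_nonneg (x0.trans hx) _) a _

lemma retry {β : Type} {C : ℕ} (hC : 0 < C) (tr : ℕ → β) (ok : β → Prop) [DecidablePred ok]
    (g : β → ℝ) (n : ℕ) : ∃ c, |c| ≤ n * |(∑ ω ∈ range C, if ok (tr ω) then g (tr ω) else 0) / C| ∧
      ∀ y, (Av C fun y ω => if ok (tr ω) then tr ω else y)^[n] g y =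
        c + (1 - (∑ ω ∈ range C, if ok (tr ω) then 1 else 0) / C) ^ n * g y := by
  obtain ⟨s, hs⟩ : ∃ s : ℝ, s = (∑ ω ∈ range C, if ok (tr ω) then 1 else 0) / C := ⟨_, rfl⟩
  obtain ⟨u, hu⟩ : ∃ u : ℝ, u = (∑ ω ∈ range C, if ok (tr ω) then g (tr ω) else 0) / C := ⟨_, rfl⟩
  have s0 : 0 ≤ s := hs ▸ div_nonneg (Finset.sum_nonneg fun _ _ => by positivity) (by positivity)
  have s1 : s ≤ 1 := hs ▸ (div_le_one (by positivity)).2 ((Finset.sum_le_sum (g := fun _ => (1 : ℝ))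
    fun _ _ => by split_ifs <;> norm_num).trans (by simp))
  rw [← hs, ← hu]
  induction n with
  | zero => exact ⟨0, by simp, by simp⟩
  | succ n ih =>
    obtain ⟨c, h1, h2⟩ := ih
    refine ⟨c + (1 - s) ^ n * u, (abs_add_le _ _).trans ?_, fun y => ?_⟩
    · rw [abs_mul, abs_of_nonneg (pow_nonneg (sub_nonneg.2 s1) _)]
      have := mul_le_of_le_one_left (abs_nonneg u) (pow_le_one₀ (n := n) (sub_nonneg.2 s1)
        (by linarith : 1 - s ≤ 1))
      push_cast; linarith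
    · rw [Function.iterate_succ_apply', Av]
      simp only [h2]
      have : ∀ ω, g (if ok (tr ω) then tr ω else y) = (if ok (tr ω) then g (tr ω) else 0) + g y -
          (if ok (tr ω) then 1 else 0) * g y := fun ω => by split_ifs <;> simp
      simp only [this, Finset.sum_add_distrib, ← Finset.mul_sum, Finset.sum_sub_distrib,
        ← Finset.sum_mul, Finset.sum_const, Finset.card_range, nsmul_eq_mul]
      rw [pow_succ]
      generalize (1 - s) ^ n = w
      rw [hs, hu]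
      field_simp
      ring

namespace Par

variable {I J : Type} [Fintype I] [DecidableEq I] [Fintype J] [DecidableEq J] (P : Par I J)

/-- random offset -/
def dart (ix : I × J → ℕ) (H R : ℕ) (c : I × J) : ℤ := (R / H ^ ix c % P.hh c : ℕ)

lemma hh_pos (c : I × J) : 0 < P.hh c := by have := P.h_pos c; unfold hh; split_ifs <;> omega

lemma dart_mem (ix : I × J → ℕ) (H R : ℕ) : P.dart ix H R ∈ P.box := P.mem_box.2 fun c => by
  have := Nat.mod_lt (R / H ^ ix c) (P.hh_pos c)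
  unfold dart; omega

lemma dart_sum {ix : I × J → ℕ} (h1 : Function.Injective ix) (h2 : ∀ c, ix c < P.Q) {H : ℕ}
    (hH : 0 < H) (hd : ∀ c, P.hh c ∣ H) (F : (I × J → ℤ) → ℝ) :
    (∑ R ∈ range (H ^ P.Q), F (P.dart ix H R)) / (H ^ P.Q : ℕ) = (∑ v ∈ P.box, F v) / P.box.card := by
  obtain ⟨Φ, hΦ⟩ : ∃ Φ : (Fin P.Q → Fin H) → I × J → ℤ,
    Φ = fun d c => (((d ⟨ix c, h2 c⟩ : ℕ) % P.hh c : ℕ) : ℤ) := ⟨_, rfl⟩
  have e : ∀ R : Fin (H ^ P.Q), P.dart ix H R = Φ (finFunctionFinEquiv.symm R) := fun R => by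
    funext c
    simp only [hΦ, dart, finFunctionFinEquiv_symm_apply_val, Nat.mod_mod_of_dvd _ (hd c)]
  have cnt : ∀ c, ∀ w : ℤ, 0 ≤ w → w < P.hh c → ((univ.filter fun x : Fin H =>
      (((x : ℕ) % P.hh c : ℕ) : ℤ) = w).card : ℝ) = (H / P.hh c : ℕ) := by
    intro c w w0 w1
    obtain ⟨X, hX⟩ := hd c
    rw [Finset.natCast_card_filter, Fin.sum_univ_eq_sum_range (fun x => if ((x % P.hh c : ℕ) : ℤ) = w then (1 : ℝ) else 0), hX,
      split (P.hh c) X fun a _ => if (a : ℤ) = w then (1 : ℝ) else 0,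
      Finset.sum_eq_single w.toNat (fun b _ hb => by rw [Finset.sum_eq_zero fun _ _ => if_neg (by omega)])
      (fun h => absurd (Finset.mem_range.2 (by omega)) h), Nat.mul_div_cancel_left _ (P.hh_pos c)]
    simp [Int.toNat_of_nonneg w0]
  have fb : ∀ v ∈ P.box, (univ.filter fun d => Φ d = v).card = (univ.filter fun d => Φ d = 0).card := by
    have : ∀ v, (univ.filter fun d => Φ d = v) = Fintype.piFinset fun a : Fin P.Q =>
        univ.filter fun x : Fin H => ∀ c, ix c = a → (((x : ℕ) % P.hh c : ℕ) : ℤ) = v c := by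
      intro v
      ext d
      simp only [hΦ, Finset.mem_filter, mem_univ, true_and, Fintype.mem_piFinset, funext_iff]
      exact ⟨fun h a c e => by rw [← h c]; congr 4; exact Fin.ext e.symm, fun h c => h _ c rfl⟩
    intro v hv
    rw [this, this, Fintype.card_piFinset, Fintype.card_piFinset]
    refine Finset.prod_congr rfl fun a _ => ?_
    by_cases h : ∃ c, ix c = a
    · obtain ⟨c, hc⟩ := h
      have k : ∀ v ∈ P.box, ((univ.filter fun x : Fin H => ∀ c, ix c = a →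
          (((x : ℕ) % P.hh c : ℕ) : ℤ) = v c).card : ℝ) = (H / P.hh c : ℕ) := fun v hv => by
        rw [← cnt c (v c) (P.mem_box.1 hv c).1 (P.mem_box.1 hv c).2]
        congr 2
        ext x
        simp only [← hc, h1.eq_iff, forall_eq, Finset.mem_filter]
      exact_mod_cast (k v hv).trans (k 0 P.zero_box).symm
    · push Not at h
      simp [h]
  have main : ∀ F : (I × J → ℤ) → ℝ, ∑ R ∈ range (H ^ P.Q), F (P.dart ix H R) =
      (univ.filter fun d => Φ d = 0).card * ∑ v ∈ P.box, F v := by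
    intro F
    rw [Finset.sum_range, Finset.sum_congr rfl fun R _ => by rw [e R],
      Equiv.sum_comp finFunctionFinEquiv.symm fun d => F (Φ d), Finset.mul_sum,
      ← Finset.sum_fiberwise_of_maps_to (t := P.box) (g := Φ) fun d _ => by
        rw [← finFunctionFinEquiv.symm_apply_apply d, ← e]; exact P.dart_mem _ _ _]
    refine Finset.sum_congr rfl fun v hv => ?_
    rw [Finset.sum_congr rfl fun d hd => by rw [(Finset.mem_filter.1 hd).2], Finset.sum_const,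
      fb v hv, nsmul_eq_mul]
  have one := main fun _ => 1
  simp only [Finset.sum_const, Finset.card_range, nsmul_eq_mul, mul_one] at one
  have bp := P.box_pos
  have : (0 : ℝ) < (H ^ P.Q : ℕ) := by positivity
  rw [main, div_eq_div_iff this.ne' bp.ne', one]
  ring

lemma lift_sum {A : Finset (I × J → ℤ)} (hA : A ⊆ P.Ω) :
    ∑ y ∈ P.Y, P.ν y * ∑ v ∈ P.box, (if P.lift y v ∈ A then 1 else 0) = A.card := by
  simp only [Finset.mul_sum, mul_ite, mul_one, mul_zero]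
  rw [← Finset.sum_product', ← Finset.sum_filter, Finset.card_eq_sum_ones]
  push_cast
  have k : ∀ p ∈ (P.Y ×ˢ P.box).filter fun p => P.lift p.1 p.2 ∈ A,
      P.q (P.lift p.1 p.2) = p.1 ∧ P.rem (P.lift p.1 p.2) = p.2 := fun p hp => by
    have := Finset.mem_product.1 (Finset.mem_filter.1 hp).1
    exact P.q_lift (P.mem_Y.1 this.1).1 this.2
  have l : ∀ T ∈ A, P.lift (P.q T) (P.rem T) = T := fun T hT =>
    P.lift_q (P.mem_S.1 (P.Ω_sub 0 (hA hT))).1
  refine Finset.sum_nbij' (fun p => P.lift p.1 p.2) (fun T => (P.q T, P.rem T))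
    (fun p hp => (Finset.mem_filter.1 hp).2) (fun T hT => Finset.mem_filter.2 ⟨Finset.mem_product.2
      ⟨(P.q_valid (hA hT)).1, P.rem_mem _⟩, (l T hT).symm ▸ hT⟩)
    (fun p hp => Prod.ext (k p hp).1 (k p hp).2) l fun p hp => ?_
  rw [← (k p hp).1, (P.q_valid (hA (Finset.mem_filter.1 hp).2)).2]

/-- one trial -/
noncomputable def trial (ix : I × J → ℕ) (H t : ℕ) (y0 : I × J → ℤ) (ω : ℕ) : I × J → ℤ :=
  P.lift ((eat P.B (P.step ix))^[t] (y0, ω)).1 (P.dart ix H ((eat P.B (P.step ix))^[t] (y0, ω)).2)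

/-- keep the trial when it is a table -/
noncomputable def keep (ix : I × J → ℕ) (H t : ℕ) (y0 T : I × J → ℤ) (ω : ℕ) : I × J → ℤ :=
  if P.trial ix H t y0 ω ∈ P.Ω then P.trial ix H t y0 ω else T

lemma trial_prob (hp : 1 ≤ P.p) {ix : I × J → ℕ} (h1 : Function.Injective ix)
    (h2 : ∀ c, ix c < P.Q) {H : ℕ} (hH : 0 < H) (hd : ∀ c, P.hh c ∣ H) {T0 : I × J → ℤ}
    (h0 : T0 ∈ P.Ω) (t : ℕ) {A : Finset (I × J → ℤ)} (hA : A ⊆ P.Ω) :
    ((∑ ω ∈ range (P.B ^ t * H ^ P.Q), if P.trial ix H t (P.q T0) ω ∈ A then 1 else 0) /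
      (P.B ^ t * H ^ P.Q : ℕ) - A.card / (P.box.card * ∑ y ∈ P.Y, P.ν y)) ^ 2 ≤
      (∑ y ∈ P.Y, P.ν y) * (64 * P.Q ^ 2 / 2 ^ P.p + (1 - 1 / (4 * P.Q * P.M0)) ^ t) := by
  have bp := P.box_pos
  have a := eat_sum P.B_pos (P.step ix) (pow_pos hH P.Q)
    (fun p => if P.lift p.1 (P.dart ix H p.2) ∈ A then 1 else 0) t (P.q T0)
  have b : ∀ y, _ = _ := fun y => P.dart_sum h1 h2 hH hd fun v => if P.lift y v ∈ A then 1 else 0
  simp only [b] at a
  have d := P.mixing hp h1 h2 (φ := fun y => (∑ v ∈ P.box, if P.lift y v ∈ A then 1 else 0) /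
    P.box.card) (fun y => ⟨div_nonneg (Finset.sum_nonneg fun _ _ => by positivity) bp.le,
      (div_le_one bp).2 ((Finset.sum_le_sum (g := fun _ => (1 : ℝ))
      fun _ _ => by split_ifs <;> norm_num).trans (by simp))⟩) (P.q_valid h0).1 (P.q_valid h0).2 t
  simp only [← mul_div_assoc, ← Finset.sum_div, P.lift_sum hA, div_div, ← a] at d
  exact d

lemma keep_mem (ix : I × J → ℕ) (H t : ℕ) (y0 : I × J → ℤ) (C n : ℕ) {p : (I × J → ℤ) × ℕ}
    (h : p.1 ∈ P.Ω) : ((eat C (P.keep ix H t y0))^[n] p).1 ∈ P.Ω := by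
  induction n with
  | zero => exact h
  | succ n ih =>
    rw [Function.iterate_succ_apply']
    simp only [eat, keep]
    split_ifs <;> assumption

theorem sample {ix : I × J → ℕ} (h1 : Function.Injective ix) (h2 : ∀ c, ix c < P.Q) {H : ℕ}
    (hH : 0 < H) (hd : ∀ c, P.hh c ∣ H) {T0 : I × J → ℤ} (h0 : T0 ∈ P.Ω) {k lam t X : ℕ}
    (hΩ : P.Ω.card ≤ 2 ^ lam) (hp : P.Q ^ 2 * 2 ^ (lam + 4 * k + 25) ≤ 2 ^ P.p)
    (ht : 4 * P.Q * P.M0 * (lam + 4 * k + 19) ≤ t) (hX : 0 < X) {A : Finset (I × J → ℤ)}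
    (hA : A ⊆ P.Ω) :
    |(∑ R ∈ range ((P.B ^ t * H ^ P.Q) ^ (32 * (k + 1)) * X), if ((eat (P.B ^ t * H ^ P.Q)
      (P.keep ix H t (P.q T0)))^[32 * (k + 1)] (T0, R)).1 ∈ A then 1 else 0) /
      (((P.B ^ t * H ^ P.Q) ^ (32 * (k + 1)) * X : ℕ) : ℝ) - A.card / P.Ω.card| ≤ (1 / 2) ^ k := by
  have q := P.Q_pos
  have hp1 : 1 ≤ P.p := by
    by_contra h
    rw [show P.p = 0 by omega, pow_add] at hp
    have : 0 < P.Q ^ 2 * 2 ^ (lam + 4 * k) := by positivity
    nlinarith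
  have bp : (1 : ℝ) ≤ P.box.card := by exact_mod_cast Finset.card_pos.2 ⟨_, P.zero_box⟩
  have op : (0 : ℝ) < P.Ω.card := by exact_mod_cast Finset.card_pos.2 ⟨_, h0⟩
  have hC : 0 < P.B ^ t * H ^ P.Q := mul_pos (pow_pos P.B_pos _) (pow_pos hH _)
  have zu := P.Z_upper
  have tp := fun A hA => P.trial_prob hp1 h1 h2 hH hd h0 t (A := A) hA
  have z0 : 0 < ∑ y ∈ P.Y, P.ν y := Finset.sum_pos (fun y _ => P.ν_pos y) ⟨_, (P.q_valid h0).1⟩
  generalize ∑ y ∈ P.Y, P.ν y = Z at *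
  have m : 1 ≤ 4 * P.Q * P.M0 := by
    unfold M0; nlinarith [Nat.zero_le (144 * 4 ^ P.k0 * P.Q * P.R ^ 2)]
  have g : Z * (64 * P.Q ^ 2 / 2 ^ P.p + (1 - 1 / (4 * P.Q * P.M0)) ^ t) ≤
      ((1 / 2) ^ (2 * k + 7)) ^ 2 := by
    have a1 : Z ≤ 16 * 2 ^ lam := by
      have : (P.Ω.card : ℝ) ≤ 2 ^ lam := by exact_mod_cast hΩ
      nlinarith
    have a2 : (64 * P.Q ^ 2 / 2 ^ P.p : ℝ) ≤ (1 / 2) ^ (lam + 4 * k + 19) := by
      have : (P.Q ^ 2 * 2 ^ (lam + 4 * k + 25) : ℝ) ≤ 2 ^ P.p := by exact_mod_cast hp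
      rw [one_div_pow, div_le_div_iff₀ (by positivity) (by positivity), one_mul]
      exact le_of_eq_of_le (by ring) this
    have m' : (1 : ℝ) ≤ (4 * P.Q * P.M0 : ℕ) := by exact_mod_cast m
    have a3 := decay m ht (sub_nonneg.2 ((div_le_one (by linarith)).2 m')) le_rfl
    have a4 : (0 : ℝ) ≤ (1 - 1 / (4 * P.Q * P.M0 : ℕ)) ^ t :=
      pow_nonneg (sub_nonneg.2 ((div_le_one (by linarith)).2 m')) _
    push_cast at a3 a4
    refine (mul_le_mul a1 (add_le_add a2 a3) (by positivity) (by positivity)).trans_eq ?_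
    simp only [one_div_pow]
    field_simp
    ring
  replace tp := fun A hA => abs_le_of_sq_le_sq' ((tp A hA).trans g) (by positivity)
  obtain ⟨c, c1, c2⟩ := retry hC (P.trial ix H t (P.q T0)) (· ∈ P.Ω)
    (fun T => (if T ∈ A then 1 else 0) - A.card / P.Ω.card) (32 * (k + 1))
  have a := eat_sum hC (P.keep ix H t (P.q T0)) hX (fun p => if p.1 ∈ A then 1 else 0)
    (32 * (k + 1)) T0
  rw [a, show (fun y => (∑ b ∈ range X, if (y, b).1 ∈ A then 1 else 0) / (X : ℝ)) =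
    fun T => if T ∈ A then 1 else 0 from funext fun y => by
      have : (X : ℝ) ≠ 0 := by positivity
      by_cases e : y ∈ A <;> simp [e, this]]
  have b := congrFun (Av_sub hC (P.keep ix H t (P.q T0)) (A.card / P.Ω.card) (32 * (k + 1))
    fun T => if T ∈ A then 1 else 0) T0
  rw [← b]
  refine (congrArg _ (c2 T0)).trans_le ((abs_add_le _ _).trans ?_)
  have u0 : (0 : ℝ) ≤ A.card / P.Ω.card := by positivity
  have u1 : (A.card / P.Ω.card : ℝ) ≤ 1 :=
    (div_le_one op).2 (by exact_mod_cast Finset.card_le_card hA)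
  have e : ∀ ω, (if P.trial ix H t (P.q T0) ω ∈ P.Ω then (if P.trial ix H t (P.q T0) ω ∈ A then 1
      else 0) - A.card / P.Ω.card else 0 : ℝ) = (if P.trial ix H t (P.q T0) ω ∈ A then 1 else 0) -
      A.card / P.Ω.card * (if P.trial ix H t (P.q T0) ω ∈ P.Ω then 1 else 0) := fun ω => by
    by_cases e : P.trial ix H t (P.q T0) ω ∈ P.Ω
    · simp [e]
    · simp [e, mt (@hA _) e]
  simp only [e, Finset.sum_sub_distrib, ← Finset.mul_sum, sub_div, mul_div_assoc] at c1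
  have t1 := tp A hA
  have t2 := tp P.Ω subset_rfl
  have s1 : (∑ ω ∈ range (P.B ^ t * H ^ P.Q), if P.trial ix H t (P.q T0) ω ∈ P.Ω then 1 else 0) /
      ((P.B ^ t * H ^ P.Q : ℕ) : ℝ) ≤ 1 := (div_le_one (by positivity)).2 ((Finset.sum_le_sum
        (g := fun _ => (1 : ℝ)) fun _ _ => by split_ifs <;> norm_num).trans (by simp))
  generalize (∑ ω ∈ range (P.B ^ t * H ^ P.Q), if P.trial ix H t (P.q T0) ω ∈ P.Ω then 1 else 0) /
      ((P.B ^ t * H ^ P.Q : ℕ) : ℝ) = s at *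
  generalize (∑ ω ∈ range (P.B ^ t * H ^ P.Q), if P.trial ix H t (P.q T0) ω ∈ A then 1 else 0) /
      ((P.B ^ t * H ^ P.Q : ℕ) : ℝ) = s' at *
  have e1 : (A.card / (P.box.card * Z) : ℝ) = A.card / P.Ω.card * (P.Ω.card / (P.box.card * Z)) := by
    field_simp
  have e2 : (1 / 16 : ℝ) ≤ P.Ω.card / (P.box.card * Z) := by
    rw [div_le_div_iff₀ (by norm_num) (by positivity)]; linarith
  rw [e1] at t1
  generalize (P.Ω.card / (P.box.card * Z) : ℝ) = σ at *
  generalize (A.card / P.Ω.card : ℝ) = u at *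
  have g1 : ((1 / 2) ^ (2 * k + 7) : ℝ) ≤ (1 / 2) ^ 7 :=
    pow_le_pow_of_le_one (by norm_num) (by norm_num) (by omega)
  have g2 : ((32 * (k + 1) : ℕ) : ℝ) * (2 * (1 / 2) ^ (2 * k + 7)) ≤ (1 / 2) ^ (k + 1) := by
    have : ((k + 1 : ℕ) : ℝ) ≤ 2 ^ k := by exact_mod_cast Nat.lt_two_pow_self
    simp only [one_div_pow]
    rw [Nat.cast_mul, mul_one_div, ← mul_div_assoc, div_le_div_iff₀ (by positivity) (by positivity)]
    calc _ = (k + 1 : ℕ) * (128 * 2 ^ k : ℝ) := by push_cast; ring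
      _ ≤ 2 ^ k * (128 * 2 ^ k) := by gcongr
      _ = _ := by ring
  have g3 : |s' - u * s| ≤ 2 * (1 / 2) ^ (2 * k + 7) := by
    rw [abs_le]
    constructor <;> nlinarith [mul_le_mul_of_nonneg_left t2.1 u0, mul_le_mul_of_nonneg_left t2.2 u0,
      mul_le_of_le_one_left (show (0 : ℝ) ≤ (1 / 2) ^ (2 * k + 7) by positivity) u1]
  have g4 := decay (M := 32) (j := k + 1) (by norm_num) le_rfl (sub_nonneg.2 s1) (by
    push_cast; linarith [t2.1])
  have g5 : |(if T0 ∈ A then 1 else 0) - u| ≤ 1 := by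
    rw [abs_le]; split_ifs <;> constructor <;> linarith
  rw [abs_mul, abs_of_nonneg (pow_nonneg (sub_nonneg.2 s1) _)]
  have g6 := mul_le_mul g4 g5 (abs_nonneg _) (by positivity)
  have g7 := c1.trans ((mul_le_mul_of_nonneg_left g3 (by positivity)).trans g2)
  rw [pow_succ] at g6 g7
  linarith

end Par

end Vale.Agent.P328
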