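import Vale.Agent.P328.PT2
import Vale.Agent.P328.Trial

namespace Vale.Agent.P328

variable {α β : Type} [Enc α] [Enc β]

lemma PT.eat {B n : α → ℕ} {st : α → β → ℕ → β} {s : α → β × ℕ} (hB : PT B) (hB0 : ∀ a, 0 < B a)
    (hn : PT n) (hn' : PB n) (hs : PT s) (hst : PT fun p : α × β × ℕ => st p.1 p.2.1 p.2.2)
    {t : α × ℕ → ℕ} (ht : PB t) (h : ∀ a y ω, P328.sz (st a y ω) ≤ P328.sz y + t (a, ω)) :
    PT fun a => (eat (B a) (st a))^[n a] (s a) := by
  obtain ⟨q, hq⟩ := ht
  have hb : PB fun a => q.eval (P328.sz (a, B a)) :=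
    PB.comp (t := fun p : α × ℕ => q.eval (P328.sz p)) ⟨q, fun _ => le_rfl⟩ (PT.id.pair hB)
  have h1 : PT fun p : α × β × ℕ => st p.1 p.2.1 (p.2.2 % B p.1) :=
    PT.comp (f := fun p : α × β × ℕ => (p.1, p.2.1, p.2.2 % B p.1)) hst (by fun_prop)
  refine PT.iter hn hn' hs (PT.pair h1 (by fun_prop)) hb fun a b => ?_
  obtain ⟨y, R⟩ := b
  have h2 := h a y (R % B a)
  have h3 := (hq (a, R % B a)).trans (eval_mono q (show _ ≤ P328.sz (a, B a) by
    have := sz_mono (Nat.mod_lt R (hB0 a)).le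
    simp only [sz_pair]; omega))
  have := sz_mono (Nat.div_le_self R (B a))
  simp only [sz_pair, P328.eat] at *; omega

@[fun_prop] lemma PB.min {s t : α → ℕ} (ht : PB t) : PB fun a => min (s a) (t a) :=
  ht.mono fun _ => Nat.min_le_right _ _

/-- row sums, column sums, accuracy in unary -/
abbrev Inp := List ℕ × List ℕ × List ℕ

/-- position of a maximum -/
def amax (l : List ℕ) : ℕ := rep l.length (fun i b => if l.getD b 0 < l.getD i 0 then i else b) 0

@[fun_prop] lemma PT.amax {l : α → List ℕ} (hl : PT l) : PT fun a => amax (l a) :=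
  PT.rep (f := fun a i b => if (l a).getD b 0 < (l a).getD i 0 then i else b) (by fun_prop)
    (by fun_prop) (by fun_prop) (by fun_prop) (t := fun p => P328.sz p.2) (by fun_prop)
    fun a i b => by simp only; split_ifs <;> omega

namespace Inp

variable (x : Inp)

def m : ℕ := x.1.length
def n : ℕ := x.2.1.length
def k : ℕ := x.2.2.length
def r (i : ℕ) : ℕ := x.1.getD i 0
def c (j : ℕ) : ℕ := x.2.1.getD j 0
def a : ℕ := Nat.size (x.m * x.n)
def Q : ℕ := 2 ^ x.a
def k0 : ℕ := 2 * x.a + 2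
def D : ℕ := 5 * x.Q ^ 6 * x.k0
def w (s : ℕ) : ℕ := Nat.size (s / x.D) - 1
def hf (s : ℕ) : ℕ := 2 ^ x.w s
def N : ℕ := sumR x.m x.r
def lam : ℕ := Nat.size x.N * x.Q
def p : ℕ := 2 * x.a + (x.lam + 4 * x.k + 25)
def PP : ℕ := x.Q ^ 3 * x.p + 2 * x.Q
def M0 : ℕ := 16 * x.Q ^ 2 + 144 * (16 * x.Q ^ 4) * x.Q * (3 * x.D + x.Q * x.PP) ^ 2
def W : ℕ := x.Q ^ 2 * x.k0
def B : ℕ := 4 * (x.Q * 2 ^ x.W)
def t : ℕ := 4 * x.Q * x.M0 * (x.lam + 4 * x.k + 19)
def H : ℕ := x.hf x.N
def C : ℕ := x.B ^ x.t * x.H ^ x.Q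
def bits : ℕ := ((2 + (x.a + x.W)) * x.t + x.w x.N * x.Q) * (32 * (x.k + 1))
def is : ℕ := amax x.1
def js : ℕ := amax x.2.1
def h (e : ℕ) : ℕ := x.hf (min (x.r (e / x.n)) (x.c (e % x.n)))
def g (e : ℕ) : ℤ := x.Q * (x.h e - 1)
def free (e : ℕ) : Prop := ¬ e / x.n = x.is ∧ ¬ e % x.n = x.js
instance (e : ℕ) : Decidable (x.free e) := by unfold free; infer_instance
def t1 (l : List ℤ) (i j : ℕ) : ℤ :=
  if i = x.is then x.c j - sumZ x.m fun i' => if i' = x.is then 0 else l.getD (j + x.n * i') 0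
  else l.getD (j + x.n * i) 0
def tab (l : List ℤ) : List ℤ := mapR (x.m * x.n) fun e =>
  if e % x.n = x.js then x.r (e / x.n) - sumZ x.n fun j => if j = x.js then 0 else x.t1 l (e / x.n) j
  else x.t1 l (e / x.n) (e % x.n)
def up (y : List ℤ) : List ℤ := x.tab (mapR (x.m * x.n) fun e => x.h e * y.getD e 0)
def inY (y : List ℤ) : Prop := allR (x.m * x.n) fun e => (x.free e ∨ y.getD e 0 = 0) ∧
  (e % x.n = x.js ∨ -(x.PP * x.h e + x.g e) ≤ (x.up y).getD e 0)
instance (y : List ℤ) : Decidable (x.inY y) := by unfold inY; infer_instance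
def E (y : List ℤ) : ℕ := (sumR (x.m * x.n) fun e =>
  (if x.h e = 1 then x.k0 * (x.Q ^ 2 * x.H) else x.H / x.h e) *
    (-((x.up y).getD e 0 + x.g e)).toNat) / (x.Q ^ 2 * x.H)
def prop (y : List ℤ) (s a : ℕ) : List ℤ := mapR (x.m * x.n) fun e =>
  y.getD e 0 + if e = a then (if s = 0 then 1 else if s = 1 then -1 else 0) else 0
def mv (y y' : List ℤ) (v : ℕ) : List ℤ :=
  if x.inY y' ∧ v < 2 ^ (x.W - (x.E y' - x.E y)) then y' else y
def step (y : List ℤ) (ω : ℕ) : List ℤ := x.mv y (x.prop y (ω % 4) (ω / 4 % x.Q)) (ω / 4 / x.Q)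
def F (i j : ℕ) : ℤ := (min (sumR (min i x.m) x.r) (sumR (min j x.n) x.c) : ℕ)
def nw (e : ℕ) : ℤ := x.F (e / x.n + 1) (e % x.n + 1) - x.F (e / x.n) (e % x.n + 1) -
  (x.F (e / x.n + 1) (e % x.n) - x.F (e / x.n) (e % x.n))
def T0 : List ℤ := mapR (x.m * x.n) x.nw
def y0 : List ℤ := mapR (x.m * x.n) fun e => if x.free e then ((x.nw e).toNat / x.h e : ℕ) else 0
def lift (s : List ℤ × ℕ) : List ℤ := x.tab (mapR (x.m * x.n) fun e => x.h e * s.1.getD e 0 +
  (s.2 / x.H ^ min e x.Q % (if x.free e then x.h e else 1) : ℕ))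
def trial (ω : ℕ) : List ℤ := x.lift ((eat x.B x.step)^[x.t] (x.y0, ω))
def keep (T : List ℤ) (ω : ℕ) : List ℤ :=
  if allR (x.m * x.n) fun e => 0 ≤ (x.trial ω).getD e 0 then x.trial ω else T
def out (T : List ℤ) : List (List ℕ) := mapR x.m fun i => mapR x.n fun j => (T.getD (j + x.n * i) 0).toNat
def main (R : ℕ) : List (List ℕ) := x.out ((eat x.C x.keep)^[32 * (x.k + 1)] (x.T0, R)).1

end Inp

/-- value of a bit string -/
def toNum (b : List ℕ) : ℕ := sumR b.length fun i => b.getD i 0 * 2 ^ min i b.length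

open Inp

variable {x : α → Inp} {i j : α → ℕ} {l l' : α → List ℤ}

@[fun_prop] lemma pt_m (hx : PT x) : PT fun a => (x a).m := by unfold m; fun_prop
@[fun_prop] lemma pt_n (hx : PT x) : PT fun a => (x a).n := by unfold n; fun_prop
@[fun_prop] lemma pt_k (hx : PT x) : PT fun a => (x a).k := by unfold k; fun_prop
@[fun_prop] lemma pb_m (hx : PT x) : PB fun a => (x a).m := by unfold m; fun_prop
@[fun_prop] lemma pb_n (hx : PT x) : PB fun a => (x a).n := by unfold n; fun_prop
@[fun_prop] lemma pb_k (hx : PT x) : PB fun a => (x a).k := by unfold k; fun_prop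
@[fun_prop] lemma pt_r (hx : PT x) (hi : PT i) : PT fun a => (x a).r (i a) := by unfold r; fun_prop
@[fun_prop] lemma pt_c (hx : PT x) (hi : PT i) : PT fun a => (x a).c (i a) := by unfold c; fun_prop
@[fun_prop] lemma pt_a (hx : PT x) : PT fun a => (x a).a := by unfold Inp.a; fun_prop
@[fun_prop] lemma pb_a (hx : PT x) : PB fun a => (x a).a := by unfold Inp.a; fun_prop
@[fun_prop] lemma pt_Q (hx : PT x) : PT fun a => (x a).Q := by unfold Q; fun_prop

lemma two_pow_size (s : ℕ) : 2 ^ Nat.size s ≤ 2 * s + 1 := by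
  rcases Nat.eq_zero_or_pos s with rfl | h
  · simp
  · obtain ⟨k, hk⟩ := Nat.exists_eq_add_one_of_ne_zero (Nat.size_pos.2 h).ne'
    have := Nat.lt_size.1 (show k < Nat.size s by omega)
    rw [hk, pow_succ]; omega

@[fun_prop] lemma pb_Q (hx : PT x) : PB fun a => (x a).Q :=
  PB.mono (t := fun a => 2 * ((x a).m * (x a).n) + 1) (by fun_prop) fun _ => two_pow_size _
@[fun_prop] lemma pt_k0 (hx : PT x) : PT fun a => (x a).k0 := by unfold k0; fun_prop
@[fun_prop] lemma pb_k0 (hx : PT x) : PB fun a => (x a).k0 := by unfold k0; fun_prop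
@[fun_prop] lemma pt_D (hx : PT x) : PT fun a => (x a).D := by unfold D; fun_prop
@[fun_prop] lemma pb_D (hx : PT x) : PB fun a => (x a).D := by unfold D; fun_prop
@[fun_prop] lemma pt_w (hx : PT x) (hi : PT i) : PT fun a => (x a).w (i a) := by unfold w; fun_prop
@[fun_prop] lemma pb_w (hx : PT x) (hi : PT i) : PB fun a => (x a).w (i a) := by unfold w; fun_prop
@[fun_prop] lemma pt_hf (hx : PT x) (hi : PT i) : PT fun a => (x a).hf (i a) := by
  unfold hf; fun_prop
@[fun_prop] lemma pt_N (hx : PT x) : PT fun a => (x a).N := by unfold N; fun_prop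
@[fun_prop] lemma pt_lam (hx : PT x) : PT fun a => (x a).lam := by unfold lam; fun_prop
@[fun_prop] lemma pb_lam (hx : PT x) : PB fun a => (x a).lam := by unfold lam; fun_prop
@[fun_prop] lemma pt_p (hx : PT x) : PT fun a => (x a).p := by unfold p; fun_prop
@[fun_prop] lemma pb_p (hx : PT x) : PB fun a => (x a).p := by unfold p; fun_prop
@[fun_prop] lemma pt_PP (hx : PT x) : PT fun a => (x a).PP := by unfold PP; fun_prop
@[fun_prop] lemma pb_PP (hx : PT x) : PB fun a => (x a).PP := by unfold PP; fun_prop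
@[fun_prop] lemma pt_M0 (hx : PT x) : PT fun a => (x a).M0 := by unfold M0; fun_prop
@[fun_prop] lemma pb_M0 (hx : PT x) : PB fun a => (x a).M0 := by unfold M0; fun_prop
@[fun_prop] lemma pt_W (hx : PT x) : PT fun a => (x a).W := by unfold W; fun_prop
@[fun_prop] lemma pb_W (hx : PT x) : PB fun a => (x a).W := by unfold W; fun_prop
@[fun_prop] lemma pt_B (hx : PT x) : PT fun a => (x a).B := by unfold B; fun_prop
@[fun_prop] lemma pt_t (hx : PT x) : PT fun a => (x a).t := by unfold t; fun_prop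
@[fun_prop] lemma pb_t (hx : PT x) : PB fun a => (x a).t := by unfold t; fun_prop
@[fun_prop] lemma pt_H (hx : PT x) : PT fun a => (x a).H := by unfold H; fun_prop
@[fun_prop] lemma pt_C (hx : PT x) : PT fun a => (x a).C := by unfold C; fun_prop
lemma pb_bits : PB bits := by unfold bits; fun_prop
@[fun_prop] lemma pt_is (hx : PT x) : PT fun a => (x a).is := by unfold is; fun_prop
@[fun_prop] lemma pt_js (hx : PT x) : PT fun a => (x a).js := by unfold js; fun_prop
@[fun_prop] lemma pt_h (hx : PT x) (hi : PT i) : PT fun a => (x a).h (i a) := by unfold h; fun_prop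
@[fun_prop] lemma pt_g (hx : PT x) (hi : PT i) : PT fun a => (x a).g (i a) := by unfold g; fun_prop
@[fun_prop] lemma pd_free (hx : PT x) (hi : PT i) : PD fun a => (x a).free (i a) := by
  unfold free; fun_prop
@[fun_prop] lemma pt_t1 (hx : PT x) (hl : PT l) (hi : PT i) (hj : PT j) :
    PT fun a => (x a).t1 (l a) (i a) (j a) := by unfold t1; fun_prop
@[fun_prop] lemma pt_tab (hx : PT x) (hl : PT l) : PT fun a => (x a).tab (l a) := by
  unfold tab; fun_prop
@[fun_prop] lemma pt_up (hx : PT x) (hl : PT l) : PT fun a => (x a).up (l a) := by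
  unfold up; fun_prop
@[fun_prop] lemma pd_inY (hx : PT x) (hl : PT l) : PD fun a => (x a).inY (l a) := by
  unfold inY; fun_prop
@[fun_prop] lemma pt_E (hx : PT x) (hl : PT l) : PT fun a => (x a).E (l a) := by
  unfold E; fun_prop
@[fun_prop] lemma pt_prop (hx : PT x) (hl : PT l) (hi : PT i) (hj : PT j) :
    PT fun a => (x a).prop (l a) (i a) (j a) := by unfold prop; fun_prop
@[fun_prop] lemma pt_mv (hx : PT x) (hl : PT l) (hl' : PT l') (hi : PT i) :
    PT fun a => (x a).mv (l a) (l' a) (i a) := by unfold mv; fun_prop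
@[fun_prop] lemma pt_step (hx : PT x) (hl : PT l) (hi : PT i) :
    PT fun a => (x a).step (l a) (i a) := by unfold step; fun_prop
@[fun_prop] lemma pt_F (hx : PT x) (hi : PT i) (hj : PT j) :
    PT fun a => (x a).F (i a) (j a) := by unfold F; fun_prop
@[fun_prop] lemma pt_nw (hx : PT x) (hi : PT i) : PT fun a => (x a).nw (i a) := by
  unfold nw; fun_prop
@[fun_prop] lemma pt_T0 (hx : PT x) : PT fun a => (x a).T0 := by unfold T0; fun_prop
@[fun_prop] lemma pt_y0 (hx : PT x) : PT fun a => (x a).y0 := by unfold y0; fun_prop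
@[fun_prop] lemma pt_lift (hx : PT x) {s : α → List ℤ × ℕ} (hs : PT s) :
    PT fun a => (x a).lift (s a) := by unfold lift; fun_prop

lemma Q_pos (x : Inp) : 0 < x.Q := by unfold Q; positivity
lemma B_pos (x : Inp) : 0 < x.B := by have := Q_pos x; unfold B; positivity
lemma hf_pos (x : Inp) (s : ℕ) : 0 < x.hf s := by unfold hf; positivity
lemma C_pos (x : Inp) : 0 < x.C := mul_pos (pow_pos (B_pos x) _) (pow_pos (hf_pos x _) _)

@[fun_prop] lemma pt_trial (hx : PT x) (hi : PT i) : PT fun a => (x a).trial (i a) := by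
  refine pt_lift hx (PT.eat (st := fun a => (x a).step) (by fun_prop) (fun a => B_pos _)
    (by fun_prop) (by fun_prop) (by fun_prop) (by fun_prop)
    (t := fun p => 6 * ((x p.1).m * (x p.1).n) + 1) (by fun_prop) fun a y ω => ?_)
  simp only [step, mv]
  split_ifs
  · rw [prop, sz_mapR]
    have h1 := sz_getD y 0 ((x a).m * (x a).n)
    refine (Nat.add_le_add_right (Finset.sum_le_sum (g := fun e => sz (y.getD e 0) + 3)
      fun e _ => Nat.succ_le_succ (sz_int _ _ (by split_ifs <;> simp))) 1).trans ?_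
    rw [Finset.sum_add_distrib, Finset.sum_const, Finset.card_range, smul_eq_mul]
    rw [show sz (0 : ℤ) = 3 from rfl] at h1
    omega
  · omega

@[fun_prop] lemma pt_keep (hx : PT x) (hl : PT l) (hi : PT i) :
    PT fun a => (x a).keep (l a) (i a) := by unfold keep; fun_prop
@[fun_prop] lemma pt_out (hx : PT x) (hl : PT l) : PT fun a => (x a).out (l a) := by
  unfold out; fun_prop

lemma pt_main (hx : PT x) (hi : PT i) : PT fun a => (x a).main (i a) :=
  pt_out hx (PT.eat (st := fun a => (x a).keep) (by fun_prop) (fun a => C_pos _)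
    (by fun_prop) (by fun_prop) (by fun_prop) (by fun_prop)
    (t := fun p => sz ((x p.1).trial p.2)) (by fun_prop) fun a y ω => by
      simp only [keep]; split_ifs <;> omega).fst

lemma pt_all : PT fun a : Inp × List ℕ => a.1.main (toNum a.2) :=
  pt_main (by fun_prop) (by unfold toNum; fun_prop)

end Vale.Agent.P328
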