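import Vale.Agent.P328.Weight

namespace Vale.Agent.P328

open Finset Real

lemma sum_le_inj {α β : Type*} {s : Finset α} {t : Finset β} (φ : α → β) (hm : ∀ a ∈ s, φ a ∈ t)
    (inj : Set.InjOn φ s) {f : α → ℝ} {g : β → ℝ} (hg : ∀ b ∈ t, 0 ≤ g b)
    (h : ∀ a ∈ s, f a ≤ g (φ a)) : ∑ a ∈ s, f a ≤ ∑ b ∈ t, g b := by
  classical
  refine (Finset.sum_le_sum h).trans ?_
  rw [← Finset.sum_image inj]
  exact Finset.sum_le_sum_of_subset_of_nonneg (fun b hb => by
    obtain ⟨a, ha, rfl⟩ := Finset.mem_image.1 hb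
    exact hm a ha) fun b hb _ => hg b hb

lemma exists_big {J : Type*} [Fintype J] [DecidableEq J] (f : J → ℤ) (u : J) {Q j s : ℤ}
    (hQ : (Fintype.card J : ℤ) ≤ Q) (hj : 1 ≤ j) (hs : s ≤ ∑ v, f v) (h : Q * (j - 1) < s - f u) :
    ∃ v, v ≠ u ∧ j ≤ f v := by
  have a := Finset.add_sum_erase univ f (mem_univ u)
  have b : ∑ _v ∈ univ.erase u, (j - 1) < ∑ v ∈ univ.erase u, f v := by
    rw [Finset.sum_const, nsmul_eq_mul]
    have : (((univ.erase u).card : ℕ) : ℤ) ≤ Q :=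
      le_trans (by exact_mod_cast Finset.card_le_univ _) hQ
    nlinarith
  obtain ⟨v, hv, h⟩ := Finset.exists_lt_of_sum_lt b
  exact ⟨v, (Finset.mem_erase.1 hv).1, by omega⟩

variable {I J : Type*} [Fintype I] [DecidableEq I] [Fintype J] [DecidableEq J]

omit [DecidableEq I] in
lemma Mem.col {js : J} {r : I → ℤ} {cc : J → ℤ} {K T : I × J → ℤ} (hs : ∑ i, r i = ∑ j, cc j)
    (h : Mem js r cc K T) (j : J) : ∑ i, T (i, j) = cc j := by
  by_cases e : j = js
  · subst e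
    have a1 := Finset.add_sum_erase univ (fun j => ∑ i, T (i, j)) (mem_univ j)
    have a2 := Finset.add_sum_erase univ cc (mem_univ j)
    have a3 : ∑ j, ∑ i, T (i, j) = ∑ i, r i := by
      rw [Finset.sum_comm]; exact Finset.sum_congr rfl fun i _ => h.1 i
    have a4 : ∑ j' ∈ univ.erase j, ∑ i, T (i, j') = ∑ j' ∈ univ.erase j, cc j' :=
      Finset.sum_congr rfl fun j' hj' => h.2.1 j' (Finset.mem_erase.1 hj').1
    omega
  · exact h.2.1 j e

omit [Fintype I] in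
lemma single_row (i : I) (u : J) (k : ℤ) (i0 : I) :
    ∑ j, (Pi.single (i, u) k : I × J → ℤ) (i0, j) = if i0 = i then k else 0 := by
  simp only [Pi.single_apply, Prod.mk.injEq]
  by_cases h : i0 = i <;> simp [h]

omit [Fintype J] in
lemma single_col (i : I) (u : J) (k : ℤ) (j0 : J) :
    ∑ i0, (Pi.single (i, u) k : I × J → ℤ) (i0, j0) = if j0 = u then k else 0 := by
  simp only [Pi.single_apply, Prod.mk.injEq]
  by_cases h : j0 = u <;> simp [h]

theorem switch {js : J} {r : I → ℤ} {cc : J → ℤ} {K : I × J → ℤ} (hs : ∑ i, r i = ∑ j, cc j)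
    (hK : ∀ c, 0 ≤ K c) {κ : I × J → ℝ} (hκ : ∀ c, 0 ≤ κ c) {Q : ℕ} (hI : Fintype.card I ≤ Q)
    (hJ : Fintype.card J ≤ Q) (hQ : Fintype.card I * Fintype.card J ≤ Q) (c : I × J)
    (B : Finset (I × J → ℤ)) (hB : B ⊆ St js r cc K) (j0 I0 : ℕ) (hj : 1 ≤ j0)
    (h1 : ∀ T ∈ B, T c ≤ -j0 ∧ (Q : ℤ) * (j0 + I0 - 2) < min (r c.1) (cc c.2) - T c)
    (h2 : ∀ T ∈ B, ∀ T' ∈ B, ∀ k < I0, ∀ k' < I0, T c + k = T' c + k' → k = k') :
    I0 * exp (κ c * j0) * ∑ T ∈ B, om κ T ≤ Q * ∑ T ∈ St js r cc K, om κ T := by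
  obtain ⟨i, u⟩ := c
  have ex : ∀ p : (I × J → ℤ) × ℕ, ∃ q : I × J, p ∈ B ×ˢ range I0 → q.1 ≠ i ∧ q.2 ≠ u ∧
      (j0 + p.2 : ℤ) ≤ p.1 (q.1, u) ∧ (j0 + p.2 : ℤ) ≤ p.1 (i, q.2) := by
    rintro ⟨T, k⟩
    by_cases hp : (T, k) ∈ B ×ˢ range I0
    swap
    · exact ⟨(i, u), fun h => absurd h hp⟩
    simp only [Finset.mem_product, Finset.mem_range] at hp
    have hT := mem_St.1 (hB hp.1)
    have b := (h1 T hp.1).2
    have b2 : (Q : ℤ) * (j0 + k - 1) ≤ Q * (j0 + I0 - 2) :=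
      mul_le_mul_of_nonneg_left (by omega) (by positivity)
    obtain ⟨i', a1, a2⟩ := exists_big (fun i => T (i, u)) i (Q := Q) (j := j0 + k)
      (by exact_mod_cast hI) (by omega) ((min_le_right _ _).trans (hT.col hs u).ge) (b2.trans_lt b)
    obtain ⟨u', a3, a4⟩ := exists_big (fun u => T (i, u)) u (Q := Q) (j := j0 + k)
      (by exact_mod_cast hJ) (by omega) ((min_le_left _ _).trans (hT.1 i).ge) (b2.trans_lt b)
    exact ⟨(i', u'), fun _ => ⟨a1, a3, a2, a4⟩⟩
  choose q hq using ex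
  obtain ⟨σ, hσ⟩ : ∃ σ : ℤ → I × J → I × J → ℤ, ∀ j (q : I × J), σ j q =
    Pi.single (i, u) j + Pi.single q j - Pi.single (i, q.2) j - Pi.single (q.1, u) j :=
    ⟨fun j q => Pi.single (i, u) j + Pi.single q j - Pi.single (i, q.2) j - Pi.single (q.1, u) j,
      fun _ _ => rfl⟩
  have key := sum_le_inj (s := B ×ˢ range I0) (t := St js r cc K ×ˢ (univ : Finset (I × J)))
    (fun p => (p.1 + σ (j0 + p.2) (q p), q p)) (f := fun p => exp (κ (i, u) * j0) * om κ p.1)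
    (g := fun p => om κ p.1) (fun p hp => ?_) (fun p hp p' hp' e => ?_)
    (fun p _ => (om_pos _ _).le) (fun p hp => ?_)
  · simp only [Finset.sum_product, Finset.sum_const, Finset.card_range, nsmul_eq_mul,
      ← Finset.mul_sum, Finset.card_univ, Fintype.card_prod] at key
    rw [mul_assoc]
    have hQ' : ((Fintype.card I * Fintype.card J : ℕ) : ℝ) ≤ Q := by exact_mod_cast hQ
    have := mul_le_mul_of_nonneg_right hQ'
      (Finset.sum_nonneg fun T (_ : T ∈ St js r cc K) => (om_pos κ T).le)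
    refine le_trans (le_of_eq ?_) (key.trans this)
    ring
  · obtain ⟨a1, a2, a3, a4⟩ := hq p hp
    have hT := mem_St.1 (hB (Finset.mem_product.1 hp).1)
    obtain ⟨⟨i', u'⟩, e⟩ : ∃ x, x = q p := ⟨_, rfl⟩
    rw [← e] at a1 a2 a3 a4
    simp only [Finset.mem_product, mem_univ, and_true, ← e, mem_St, hσ]
    refine ⟨fun i0 => ?_, fun j0 hj0 => ?_, fun c hc => ?_⟩
    · simp only [Pi.add_apply, Pi.sub_apply, Finset.sum_add_distrib, Finset.sum_sub_distrib, hT.1,
        single_row]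
      ring
    · simp only [Pi.add_apply, Pi.sub_apply, Finset.sum_add_distrib, Finset.sum_sub_distrib,
        hT.2.1 _ hj0, single_col]
      ring
    · have := hT.2.2 c hc
      have := hK c
      simp only [Pi.add_apply, Pi.sub_apply, Pi.single_apply]
      grind
  · simp only [Prod.mk.injEq] at e
    obtain ⟨a1, a2, -⟩ := hq p hp
    have e1 := congrFun e.1 (i, u)
    rw [← e.2] at e1
    have n1 : (i, u) ≠ q p := fun h => a1 (by rw [← h])
    have n2 : u ≠ (q p).2 := a2.symm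
    have n3 : i ≠ (q p).1 := a1.symm
    simp only [hσ, Pi.add_apply, Pi.sub_apply, Pi.single_apply, Prod.mk.injEq, n1, n2, n3, if_true,
      if_false, and_false, false_and] at e1
    have hp1 := Finset.mem_product.1 (Finset.mem_coe.1 hp)
    have hp2 := Finset.mem_product.1 (Finset.mem_coe.1 hp')
    have e2 := h2 _ hp1.1 _ hp2.1 _ (Finset.mem_range.1 hp1.2) _ (Finset.mem_range.1 hp2.2)
      (by omega)
    have e3 := e.1
    rw [← e.2, ← e2] at e3
    exact Prod.ext (add_right_cancel e3) e2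
  · obtain ⟨a1, a2, a3, a4⟩ := hq p hp
    have a5 := (h1 _ (Finset.mem_product.1 hp).1).1
    obtain ⟨⟨i', u'⟩, e⟩ : ∃ x, x = q p := ⟨_, rfl⟩
    rw [← e] at a1 a2 a3 a4
    simp only [← e, om, ← exp_add, exp_le_exp, pen]
    have : ∀ c, κ c * ((max (-(p.1 + σ (j0 + p.2) (i', u')) c) 0 : ℤ) : ℝ) ≤
        κ c * ((max (-p.1 c) 0 : ℤ) : ℝ) - if c = (i, u) then κ (i, u) * j0 else 0 := by
      intro c
      have b : max (-(p.1 + σ (j0 + p.2) (i', u')) c) 0 ≤
          max (-p.1 c) 0 - if c = (i, u) then j0 else 0 := by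
        simp only [hσ, Pi.add_apply, Pi.sub_apply, Pi.single_apply]
        grind
      have b' := mul_le_mul_of_nonneg_left (Int.cast_le (R := ℝ).2 b) (hκ c)
      split_ifs at b' ⊢ with e
      · subst e; push_cast at b' ⊢; linarith
      · simpa using b'
    have := Finset.sum_le_sum fun c (_ : c ∈ univ) => this c
    rw [Finset.sum_sub_distrib, Finset.sum_ite_eq', if_pos (mem_univ _)] at this
    linarith

end Vale.Agent.P328
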