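import Mathlib

namespace Vale.Agent.P328

open Finset

variable {I U G : Type*} [Fintype I] [DecidableEq I] [Fintype U] [AddCommGroup G]

/-- star graph Laplacian -/
def lap (is : I) (A : I → ℝ) (F : I → ℝ) (i : I) : ℝ :=
  A i * (F i - F is) + if i = is then ∑ r, A r * (F is - F r) else 0

lemma lap_bil (is : I) (A F H : I → ℝ) :
    ∑ i, H i * lap is A F i = ∑ r, A r * ((F r - F is) * (H r - H is)) := by
  simp only [lap, mul_add, Finset.sum_add_distrib, mul_ite, mul_zero, Finset.sum_ite_eq', mem_univ,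
    if_true]
  rw [Finset.mul_sum, ← Finset.sum_add_distrib]
  exact Finset.sum_congr rfl fun r _ => by ring

lemma lap_sub (is : I) (A F H : I → ℝ) (i : I) :
    lap is A (fun r => F r - H r) i = lap is A F i - lap is A H i := by
  unfold lap
  split_ifs
  · have : ∑ r, A r * (F is - H is - (F r - H r)) =
        ∑ r, A r * (F is - F r) - ∑ r, A r * (H is - H r) := by
      rw [← Finset.sum_sub_distrib]; exact Finset.sum_congr rfl fun r _ => by ring
    rw [this]; ring
  · ring

lemma lap_add (is : I) (A F H : I → ℝ) (i : I) :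
    lap is A (fun r => F r + H r) i = lap is A F i + lap is A H i := by
  unfold lap
  split_ifs
  · have : ∑ r, A r * (F is + H is - (F r + H r)) =
        ∑ r, A r * (F is - F r) + ∑ r, A r * (H is - H r) := by
      rw [← Finset.sum_add_distrib]; exact Finset.sum_congr rfl fun r _ => by ring
    rw [this]; ring
  · ring

lemma lap_smul (is : I) (A F : I → ℝ) (c : ℝ) (i : I) :
    lap is A (fun r => c * F r) i = c * lap is A F i := by
  unfold lap
  split_ifs
  · rw [mul_add, Finset.mul_sum]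
    congr 1
    · ring
    · exact Finset.sum_congr rfl fun r _ => by ring
  · ring

lemma lap_lap (is : I) {A B : I → ℝ} (hA : ∀ i, 0 ≤ A i) (hB : ∀ i, 0 ≤ B i) (F : I → I → ℝ) :
    0 ≤ ∑ i, ∑ i', lap is A (fun s => F s i') i * lap is B (fun s => F i s) i' := by
  rw [Finset.sum_comm]
  have : ∀ i', ∑ i, lap is A (fun s => F s i') i * lap is B (fun s => F i s) i' =
      ∑ r, A r * ((F r i' - F is i') * lap is B (fun s => F r s - F is s) i') := by
    intro i'
    simp only [mul_comm (lap is A _ _)]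
    rw [lap_bil is A (fun s => F s i') (fun i => lap is B (fun s => F i s) i')]
    simp only [lap_sub]
  simp only [this]
  rw [Finset.sum_comm]
  refine Finset.sum_nonneg fun r _ => ?_
  rw [← Finset.mul_sum, lap_bil is B (fun s => F r s - F is s) (fun s => F r s - F is s)]
  exact mul_nonneg (hA r) (Finset.sum_nonneg fun s _ => mul_nonneg (hB s) (mul_self_nonneg _))

theorem poincare_abs (is : I) (μ : G → ℝ) (d : I → U → G) (A a : I → U → ℝ) (S0 : Finset G)
    (S1 : U → Finset G) (S2 : U → U → Finset G) (hμ : ∀ x, 0 ≤ μ x) (hμ0 : ∀ x ∈ S0, 0 < μ x)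
    (hA : ∀ i u, 0 ≤ A i u) (ha : ∀ i u, 0 ≤ a i u) (haA : ∀ i u, 1 ≤ a i u * A i u)
    (h1 : ∀ i u (Φ : G → ℝ), ∑ x ∈ S0, μ (x - d i u) * Φ x = ∑ z ∈ S1 u, μ z * Φ (z + d i u))
    (h2 : ∀ i u i' u' (Φ : G → ℝ), ∑ x ∈ S0, μ (x - d i u - d i' u') * Φ x =
      ∑ y ∈ S2 u u', μ y * Φ (y + d i u + d i' u'))
    (rem : ∀ x ∈ S0, ∀ g : I → U → ℝ, ∑ i, ∑ u, a i u * μ (x - d i u) * g i u ^ 2 +
      ∑ i, ∑ u, ∑ i', ∑ u', μ (x - d i u - d i' u') * (g i u * g i' u') ≤
        (∑ i, ∑ u, μ (x - d i u) * g i u) ^ 2 / μ x)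
    (conn : ∀ f : G → ℝ, (∀ u, ∀ z ∈ S1 u, ∀ r, μ z * (A r u * (f (z + d r u) - f (z + d is u)) ^ 2)
      = 0) → ∀ x ∈ S0, ∀ y ∈ S0, f x = f y) (g : G → ℝ) :
    ∃ m, ∑ x ∈ S0, μ x * (g x - m) ^ 2 ≤
      ∑ u, ∑ z ∈ S1 u, μ z * ∑ r, A r u * (g (z + d r u) - g (z + d is u)) ^ 2 := by
  classical
  obtain ⟨E, hE⟩ : ∃ E : (G → ℝ) → (G → ℝ) → ℝ, E = fun f g => ∑ u, ∑ z ∈ S1 u, μ z *
    ∑ r, A r u * ((f (z + d r u) - f (z + d is u)) * (g (z + d r u) - g (z + d is u))) := ⟨_, rfl⟩
  obtain ⟨N, hN⟩ : ∃ N : (G → ℝ) → G → ℝ, N = fun f x => ∑ i, ∑ u, μ (x - d i u) *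
    lap is (fun r => A r u) (fun s => f (x - d i u + d s u)) i := ⟨_, rfl⟩
  have e1 : ∀ f g, ∑ x ∈ S0, g x * N f x = E f g := by
    intro f g
    simp only [hN, hE, Finset.mul_sum]
    rw [Finset.sum_comm]
    simp_rw [Finset.sum_comm (s := S0)]
    rw [Finset.sum_comm]
    refine Finset.sum_congr rfl fun u _ => ?_
    have : ∀ i, ∑ x ∈ S0, g x * (μ (x - d i u) *
        lap is (fun r => A r u) (fun s => f (x - d i u + d s u)) i) =
        ∑ z ∈ S1 u, μ z * (g (z + d i u) * lap is (fun r => A r u) (fun s => f (z + d s u)) i) := by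
      intro i
      have := h1 i u fun x => g x * lap is (fun r => A r u) (fun s => f (x - d i u + d s u)) i
      simp only [add_sub_cancel_right] at this
      rw [← this]
      exact Finset.sum_congr rfl fun x _ => by ring
    simp only [this]
    rw [Finset.sum_comm]
    refine Finset.sum_congr rfl fun z _ => ?_
    rw [← Finset.mul_sum, ← Finset.mul_sum,
      lap_bil is (fun r => A r u) (fun s => f (z + d s u)) (fun s => g (z + d s u))]
  have e2 : ∀ f, E f f ≤ ∑ x ∈ S0, N f x ^ 2 / μ x := by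
    intro f
    have r := Finset.sum_le_sum fun x (hx : x ∈ S0) => rem x hx fun i u =>
      lap is (fun r => A r u) (fun s => f (x - d i u + d s u)) i
    rw [Finset.sum_add_distrib] at r
    simp only [hN]
    refine le_trans ?_ r
    have b1 : 0 ≤ ∑ x ∈ S0, ∑ i, ∑ u, ∑ i', ∑ u', μ (x - d i u - d i' u') *
        (lap is (fun r => A r u) (fun s => f (x - d i u + d s u)) i *
          lap is (fun r => A r u') (fun s => f (x - d i' u' + d s u')) i') := by
      have : ∀ i u i' u', ∑ x ∈ S0, μ (x - d i u - d i' u') *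
        (lap is (fun r => A r u) (fun s => f (x - d i u + d s u)) i *
          lap is (fun r => A r u') (fun s => f (x - d i' u' + d s u')) i') =
          ∑ y ∈ S2 u u', μ y * (lap is (fun r => A r u) (fun s => f (y + d s u + d i' u')) i *
            lap is (fun r => A r u') (fun s => f (y + d i u + d s u')) i') := by
        intro i u i' u'
        rw [h2]
        refine Finset.sum_congr rfl fun y _ => ?_
        have p1 : ∀ s, y + d i u + d i' u' - d i u + d s u = y + d s u + d i' u' := fun s => by abel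
        have p2 : ∀ s, y + d i u + d i' u' - d i' u' + d s u' = y + d i u + d s u' :=
          fun s => by abel
        simp only [p1, p2]
      simp_rw [Finset.sum_comm (s := S0), this]
      rw [Finset.sum_comm]
      refine Finset.sum_nonneg fun u _ => ?_
      simp_rw [Finset.sum_comm (t := (univ : Finset U))]
      refine Finset.sum_nonneg fun u' _ => ?_
      simp_rw [Finset.sum_comm (t := S2 u u'), ← Finset.mul_sum]
      exact Finset.sum_nonneg fun y _ => mul_nonneg (hμ y)
        (by simpa only [← Finset.mul_sum] using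
          lap_lap is (fun r => hA r u) (fun r => hA r u') fun s t => f (y + d s u + d t u'))
    refine le_trans ?_ (le_add_of_nonneg_right b1)
    simp_rw [Finset.sum_comm (s := S0)]
    rw [Finset.sum_comm, hE]
    refine Finset.sum_le_sum fun u _ => ?_
    have : ∀ i, ∑ x ∈ S0, a i u * μ (x - d i u) *
        lap is (fun r => A r u) (fun s => f (x - d i u + d s u)) i ^ 2 =
        ∑ z ∈ S1 u, μ z * (a i u * lap is (fun r => A r u) (fun s => f (z + d s u)) i ^ 2) := by
      intro i
      have := h1 i u fun x => a i u * lap is (fun r => A r u) (fun s => f (x - d i u + d s u)) i ^ 2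
      simp only [add_sub_cancel_right] at this
      rw [← this]
      exact Finset.sum_congr rfl fun x _ => by ring
    simp only [this]
    rw [Finset.sum_comm]
    refine Finset.sum_le_sum fun z _ => ?_
    rw [← Finset.mul_sum]
    refine mul_le_mul_of_nonneg_left (Finset.sum_le_sum fun r _ => ?_) (hμ z)
    by_cases h : r = is
    · rw [h, sub_self, mul_zero, mul_zero]
      exact mul_nonneg (ha _ _) (sq_nonneg _)
    · simp only [lap, h, if_false, add_zero]
      have := mul_le_mul_of_nonneg_right (haA r u) (mul_nonneg (hA r u)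
        (mul_self_nonneg (f (z + d r u) - f (z + d is u))))
      nlinarith
  have e3 : ∀ f c, E f (fun _ => c) = 0 := fun f c => by simp [hE]
  rcases S0.eq_empty_or_nonempty with rfl | hne
  · exact ⟨0, by
      simp only [Finset.sum_empty]
      exact Finset.sum_nonneg fun u _ => Finset.sum_nonneg fun z _ => mul_nonneg (hμ z)
        (Finset.sum_nonneg fun r _ => mul_nonneg (hA r u) (sq_nonneg _))⟩
  have hZ : 0 < ∑ x ∈ S0, μ x := Finset.sum_pos hμ0 hne
  obtain ⟨ext, hext⟩ : ∃ ext : (S0 → ℝ) → G → ℝ,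
    ext = fun f x => if h : x ∈ S0 then f ⟨x, h⟩ else 0 := ⟨_, rfl⟩
  have x1 : ∀ f g x, ext (f + g) x = ext f x + ext g x := fun f g x => by
    simp only [hext]; split_ifs <;> simp
  have x2 : ∀ (c : ℝ) f x, ext (c • f) x = c * ext f x := fun c f x => by
    simp only [hext]; split_ifs <;> simp
  let T : (S0 → ℝ) →ₗ[ℝ] (S0 → ℝ) :=
    { toFun := fun f x => N (ext f) x / μ x + ∑ y ∈ S0, μ y * ext f y
      map_add' := fun f g => by
        funext x
        simp only [hN, x1, lap_add, mul_add, Finset.sum_add_distrib, add_div, Pi.add_apply]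
        ring
      map_smul' := fun c f => by
        funext x
        simp only [hN, x2, lap_smul, Pi.smul_apply, smul_eq_mul, RingHom.id_apply, mul_add,
          mul_left_comm _ c, ← Finset.mul_sum, mul_div_assoc] }
  have t1 : ∀ f (h : G → ℝ), (∀ x : S0, T f x = h x) → ∑ x ∈ S0, μ x * h x = 0 →
      ∑ y ∈ S0, μ y * ext f y = 0 ∧ ∀ x ∈ S0, N (ext f) x = μ x * h x := by
    intro f h hf h0
    have p : ∀ x ∈ S0, N (ext f) x = μ x * h x - μ x * ∑ y ∈ S0, μ y * ext f y := by
      intro x hx
      have := hf ⟨x, hx⟩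
      simp only [T, LinearMap.coe_mk, AddHom.coe_mk] at this
      rw [← this]
      field_simp [(hμ0 x hx).ne']
      ring
    have q := e1 (ext f) fun _ => 1
    rw [e3, Finset.sum_congr rfl fun x hx => by rw [one_mul, p x hx], Finset.sum_sub_distrib, h0,
      ← Finset.sum_mul, zero_sub, neg_eq_zero, mul_eq_zero] at q
    have q' := q.resolve_left hZ.ne'
    exact ⟨q', fun x hx => by rw [p x hx, q', mul_zero, sub_zero]⟩
  have inj : Function.Injective T := by
    rw [← LinearMap.ker_eq_bot, LinearMap.ker_eq_bot']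
    intro f hf
    obtain ⟨p, q⟩ := t1 f (fun _ => 0) (fun x => by rw [hf]; rfl) (by simp)
    have z := e1 (ext f) (ext f)
    rw [Finset.sum_eq_zero fun x hx => by rw [q x hx, mul_zero, mul_zero], hE] at z
    have nn : ∀ u z r, 0 ≤ μ z * (A r u * (ext f (z + d r u) - ext f (z + d is u)) ^ 2) :=
      fun u z r => mul_nonneg (hμ z) (mul_nonneg (hA r u) (sq_nonneg _))
    simp only [Finset.mul_sum, ← sq] at z
    have c := conn (ext f) fun u z' hz r =>
      (Finset.sum_eq_zero_iff_of_nonneg fun r _ => nn u z' r).1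
        ((Finset.sum_eq_zero_iff_of_nonneg fun z _ => Finset.sum_nonneg fun r _ => nn u z r).1
          ((Finset.sum_eq_zero_iff_of_nonneg fun u _ => Finset.sum_nonneg fun z _ =>
            Finset.sum_nonneg fun r _ => nn u z r).1 z.symm u (mem_univ _)) z' hz) r (mem_univ _)
    funext x
    rw [Finset.sum_congr rfl fun y hy => by rw [c y hy x x.2], ← Finset.sum_mul, mul_eq_zero] at p
    simpa [hext] using p.resolve_left hZ.ne'
  obtain ⟨m, hm⟩ : ∃ m, m = (∑ x ∈ S0, μ x * g x) / ∑ x ∈ S0, μ x := ⟨_, rfl⟩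
  obtain ⟨f, hf⟩ := LinearMap.injective_iff_surjective.1 inj fun x => g x - m
  obtain ⟨-, q⟩ := t1 f (fun x => g x - m) (fun x => by rw [hf]) (by
    simp only [mul_sub, Finset.sum_sub_distrib, ← Finset.sum_mul]
    rw [hm]; field_simp; ring)
  refine ⟨m, ?_⟩
  have v1 : ∑ x ∈ S0, μ x * (g x - m) ^ 2 = E (ext f) fun x => g x - m := by
    rw [← e1]
    exact Finset.sum_congr rfl fun x hx => by rw [q x hx]; ring
  have v2 : ∑ x ∈ S0, N (ext f) x ^ 2 / μ x = ∑ x ∈ S0, μ x * (g x - m) ^ 2 :=
    Finset.sum_congr rfl fun x hx => by rw [q x hx]; field_simp [(hμ0 x hx).ne']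
  have v3 := e2 (ext f)
  have v4 : 2 * E (ext f) (fun x => g x - m) ≤ E (ext f) (ext f) +
      ∑ u, ∑ z ∈ S1 u, μ z * ∑ r, A r u * (g (z + d r u) - g (z + d is u)) ^ 2 := by
    simp only [hE, Finset.mul_sum, ← Finset.sum_add_distrib]
    refine Finset.sum_le_sum fun u _ => Finset.sum_le_sum fun z _ => Finset.sum_le_sum fun r _ => ?_
    have := mul_nonneg (mul_nonneg (hμ z) (hA r u)) (sq_nonneg
      (ext f (z + d r u) - ext f (z + d is u) - (g (z + d r u) - g (z + d is u))))
    nlinarith
  linarith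

end Vale.Agent.P328
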