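import Vale.Agent.P328.Par

namespace Vale.Agent.P328

open Finset Real

namespace Par

variable {I J : Type} [Fintype I] [DecidableEq I] [Fintype J] [DecidableEq J] (P : Par I J)

/-- free cells -/
def free (c : I × J) : Prop := c.1 ≠ P.is ∧ c.2 ≠ P.js

instance : DecidablePred P.free := fun c => by unfold free; infer_instance

/-- fill the slack row -/
def t1 (x : I × J → ℤ) (c : I × J) : ℤ :=
  if c.1 = P.is then P.cz c.2 - ∑ i ∈ univ.erase P.is, x (i, c.2) else x c

/-- table with the given free entries -/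
def tab (x : I × J → ℤ) (c : I × J) : ℤ :=
  if c.2 = P.js then P.rz c.1 - ∑ j ∈ univ.erase P.js, P.t1 x (c.1, j) else P.t1 x c

/-- exact margins -/
def Mar (T : I × J → ℤ) : Prop :=
  (∀ i, ∑ j, T (i, j) = P.rz i) ∧ ∀ j, j ≠ P.js → ∑ i, T (i, j) = P.cz j

lemma tab_free (x : I × J → ℤ) {c : I × J} (h : P.free c) : P.tab x c = x c := by
  simp [tab, t1, h.1, h.2]

lemma tab_mar (x : I × J → ℤ) : P.Mar (P.tab x) := by
  constructor
  · intro i
    rw [← Finset.add_sum_erase univ _ (mem_univ P.js), Finset.sum_congr rfl fun j hj =>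
      show P.tab x (i, j) = P.t1 x (i, j) by simp [tab, (Finset.mem_erase.1 hj).1]]
    simp [tab]
  · intro j hj
    simp only [tab, hj, if_false]
    rw [← Finset.add_sum_erase univ _ (mem_univ P.is), Finset.sum_congr rfl fun i hi =>
      show P.t1 x (i, j) = x (i, j) by simp [t1, (Finset.mem_erase.1 hi).1]]
    simp [t1]

lemma Mar.ext {P : Par I J} {T T' : I × J → ℤ} (h : P.Mar T) (h' : P.Mar T')
    (e : ∀ c, P.free c → T c = T' c) : T = T' :=
  Mem.ext (K := -T) (K' := -T') P.is ⟨h.1, h.2, by simp⟩ ⟨h'.1, h'.2, by simp⟩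
    fun c c1 c2 => e c ⟨c1, c2⟩

lemma mem_S {t : ℕ} {T : I × J → ℤ} :
    T ∈ P.S t ↔ P.Mar T ∧ ∀ c, c.2 ≠ P.js → -P.K t c ≤ T c := by
  simp only [S, mem_St, Mem, Mar, and_assoc]

lemma tab_eq {T : I × J → ℤ} (h : P.Mar T) : P.tab T = T :=
  (P.tab_mar T).ext h fun _ hc => P.tab_free T hc

lemma tab_lip {x x' : I × J → ℤ} {β : ℕ → ℤ} (hβ : Monotone β) (hβ0 : ∀ c, 0 ≤ β (P.h c))
    (h : ∀ c, P.free c → |x c - x' c| ≤ β (P.h c)) (c : I × J) :
    |P.tab x c - P.tab x' c| ≤ P.Q * β (P.h c) := by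
  have i0 : (1 : ℤ) ≤ Fintype.card I := by exact_mod_cast Fintype.card_pos_iff.2 ⟨P.is⟩
  have j0 : (1 : ℤ) ≤ Fintype.card J := by exact_mod_cast Fintype.card_pos_iff.2 ⟨P.js⟩
  have q : (Fintype.card I : ℤ) * Fintype.card J ≤ P.Q := by exact_mod_cast P.hQ
  have b := hβ0 c
  have sm : ∀ {α : Type} [Fintype α] (s : Finset α) (f f' : α → ℤ) (B : ℤ), 0 ≤ B →
      (∀ a ∈ s, |f a - f' a| ≤ B) → |∑ a ∈ s, f a - ∑ a ∈ s, f' a| ≤ Fintype.card α * B := by
    intro α _ s f f' B hB hf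
    rw [← Finset.sum_sub_distrib]
    refine (Finset.abs_sum_le_sum_abs _ _).trans ((Finset.sum_le_sum hf).trans ?_)
    rw [Finset.sum_const, nsmul_eq_mul]
    exact mul_le_mul_of_nonneg_right (by exact_mod_cast Finset.card_le_univ _) hB
  have a1 : ∀ j, j ≠ P.js → (j = c.2 ∨ c.2 = P.js) →
      |P.t1 x (c.1, j) - P.t1 x' (c.1, j)| ≤ Fintype.card I * β (P.h c) := by
    intro j hj hc
    have cj : P.cc j ≤ P.cc c.2 := by
      rcases hc with e | e <;> rw [e]
      exact P.c_max j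
    unfold t1
    split_ifs with e
    · rw [sub_sub_sub_cancel_left, abs_sub_comm]
      refine sm _ _ _ _ b fun i hi => (h _ ⟨(Finset.mem_erase.1 hi).1, hj⟩).trans
        (hβ (P.hf_mono (min_le_min ?_ cj)))
      simp only at e
      rw [e]; exact P.r_max i
    · refine ((h _ ⟨e, hj⟩).trans (hβ (P.hf_mono (min_le_min le_rfl cj)))).trans ?_
      exact le_mul_of_one_le_left b i0
  unfold tab
  split_ifs with e
  · rw [sub_sub_sub_cancel_left, abs_sub_comm]
    refine (sm _ _ _ _ (mul_nonneg (by omega) b) fun j hj =>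
      a1 j (Finset.mem_erase.1 hj).1 (Or.inr e)).trans ?_
    nlinarith
  · refine (a1 c.2 e (Or.inl rfl)).trans ?_
    exact mul_le_mul_of_nonneg_right (by nlinarith) b

/-- coarse to fine -/
def up (y : I × J → ℤ) : I × J → ℤ := P.tab fun c => P.h c * y c
/-- coarse point plus offset -/
def lift (y v : I × J → ℤ) : I × J → ℤ := P.tab fun c => P.h c * y c + v c
/-- fine to coarse -/
def q (x : I × J → ℤ) (c : I × J) : ℤ := if P.free c then x c / P.h c else 0
/-- remainder -/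
def rem (x : I × J → ℤ) (c : I × J) : ℤ := if P.free c then x c % P.h c else 0
/-- box dimensions -/
def hh (c : I × J) : ℕ := if P.free c then P.h c else 1
/-- offsets -/
noncomputable def box : Finset (I × J → ℤ) := Fintype.piFinset fun c => Finset.Ico 0 (P.hh c : ℤ)
/-- coarse states -/
noncomputable def Y : Finset (I × J → ℤ) := ((P.S 1).image P.q).filter fun y => P.up y ∈ P.S 1
/-- integer penalty -/
noncomputable def E (y : I × J → ℤ) : ℕ := ⌊pen P.κ2 (P.up y + P.g)⌋₊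
/-- coarse weight -/
noncomputable def ν (y : I × J → ℤ) : ℝ := (1 / 2) ^ P.E y

lemma hz_pos (c : I × J) : (0 : ℤ) < P.h c := by have := P.h_pos c; omega

lemma mem_box {v : I × J → ℤ} : v ∈ P.box ↔ ∀ c, 0 ≤ v c ∧ v c < P.hh c := by
  simp [box, Fintype.mem_piFinset]

lemma box_free {v : I × J → ℤ} (hv : v ∈ P.box) {c : I × J} (h : P.free c) :
    0 ≤ v c ∧ v c < P.h c := by simpa [hh, h] using P.mem_box.1 hv c

lemma box_nfree {v : I × J → ℤ} (hv : v ∈ P.box) {c : I × J} (h : ¬ P.free c) : v c = 0 := by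
  have := P.mem_box.1 hv c
  simp only [hh, h, if_false] at this
  omega

lemma rem_mem (x : I × J → ℤ) : P.rem x ∈ P.box := P.mem_box.2 fun c => by
  unfold rem hh
  split_ifs
  · exact ⟨Int.emod_nonneg _ (P.hz_pos c).ne', Int.emod_lt_of_pos _ (P.hz_pos c)⟩
  · simp

lemma box_pos : (0 : ℝ) < P.box.card := by exact_mod_cast Finset.card_pos.2 ⟨_, P.rem_mem 0⟩

lemma box_slice {c : I × J} (h : P.free c) (a : ℤ) :
    (P.h c : ℝ) * (P.box.filter fun v => v c = a).card ≤ P.box.card := by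
  have : P.h c * (P.box.filter fun v => v c = a).card ≤ P.box.card := by
    have e := Fintype.card_filter_piFinset_eq (fun c => Finset.Ico 0 (P.hh c : ℤ)) c a
    unfold box
    rw [e, Fintype.card_piFinset, ← Finset.mul_prod_erase univ _ (mem_univ c)]
    split_ifs
    · simp [hh, h]
    · simp
  exact_mod_cast this

lemma q_lift {y v : I × J → ℤ} (hy : ∀ c, ¬ P.free c → y c = 0) (hv : v ∈ P.box) :
    P.q (P.lift y v) = y ∧ P.rem (P.lift y v) = v := by
  constructor <;> funext c <;> by_cases h : P.free c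
  · have := P.box_free hv h
    simp only [q, h, if_true, lift, P.tab_free _ h]
    rw [add_comm, Int.add_mul_ediv_left _ _ (P.hz_pos c).ne', Int.ediv_eq_zero_of_lt this.1 this.2,
      zero_add]
  · simp [q, h, hy c h]
  · have := P.box_free hv h
    simp only [rem, h, if_true, lift, P.tab_free _ h]
    rw [add_comm, Int.add_mul_emod_self_left, Int.emod_eq_of_lt this.1 this.2]
  · simp [rem, h, P.box_nfree hv h]

lemma lift_q {T : I × J → ℤ} (h : P.Mar T) : P.lift (P.q T) (P.rem T) = T :=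
  (P.tab_mar _).ext h fun c hc => by
    simp only [lift, P.tab_free _ hc, q, rem, hc, if_true, Int.mul_ediv_add_emod]

lemma mem_Y {y : I × J → ℤ} : y ∈ P.Y ↔ (∀ c, ¬ P.free c → y c = 0) ∧ P.up y ∈ P.S 1 := by
  simp only [Y, Finset.mem_filter, Finset.mem_image]
  constructor
  · rintro ⟨⟨T, -, rfl⟩, h⟩
    exact ⟨fun c hc => by simp [q, hc], h⟩
  · rintro ⟨h1, h2⟩
    refine ⟨⟨_, h2, ?_⟩, h2⟩
    have h0 : (0 : I × J → ℤ) ∈ P.box := P.mem_box.2 fun c => by
      have := P.h_pos c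
      unfold hh; split_ifs <;> simp <;> omega
    simpa [lift, up] using (P.q_lift h1 h0).1

lemma near {T y : I × J → ℤ} (hT : P.Mar T) (h : ∀ c, P.free c → |T c - P.h c * y c| ≤ P.h c - 1)
    (c : I × J) : |T c - P.up y c| ≤ P.g c := by
  have := P.tab_lip (x := T) (x' := fun c => P.h c * y c) (β := fun n => (n : ℤ) - 1)
    (fun a b h => by simp only; omega) (fun c => by have := P.h_pos c; omega) h c
  rwa [P.tab_eq hT] at this

lemma ν_pos (y : I × J → ℤ) : 0 < P.ν y := by unfold ν; positivity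

lemma ν_le_one (y : I × J → ℤ) : P.ν y ≤ 1 := pow_le_one₀ (by norm_num) (by norm_num)

omit [DecidableEq I] [DecidableEq J] in
lemma pen_nonneg (T : I × J → ℤ) : 0 ≤ pen P.κ2 T :=
  Finset.sum_nonneg fun c _ => mul_nonneg (P.κ2_nonneg c) (by positivity)

omit [DecidableEq I] [DecidableEq J] in
lemma om_eq (T : I × J → ℤ) : om P.κ T = exp (-(log 2 * pen P.κ2 T)) := by
  simp only [om, pen, κ, Finset.mul_sum, mul_assoc]

lemma ν_eq (y : I × J → ℤ) : P.ν y = exp (-(log 2 * P.E y)) := by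
  rw [ν, one_div, inv_pow, exp_neg, mul_comm, exp_nat_mul, exp_log two_pos]

lemma om_le_ν {T y : I × J → ℤ} (h : ∀ c, |T c - P.up y c| ≤ P.g c) : om P.κ T ≤ P.ν y := by
  have a := pen_le P.κ2_nonneg (T := T) (T' := P.up y + P.g) 0 (fun c => by
    have := abs_le.1 (h c)
    simp only [Pi.add_apply, Pi.zero_apply]; omega) (fun _ => le_rfl)
  simp only [Pi.zero_apply, Int.cast_zero, mul_zero, Finset.sum_const_zero, add_zero] at a
  have b : (P.E y : ℝ) ≤ _ := Nat.floor_le (P.pen_nonneg _)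
  rw [om_eq, ν_eq, exp_le_exp]
  nlinarith [log_nonneg (one_le_two (α := ℝ))]

lemma ν_le_om {T y : I × J → ℤ} (h : ∀ c, |T c - P.up y c| ≤ P.g c) : P.ν y ≤ 8 * om P.κ T := by
  have a := pen_le P.κ2_nonneg (T := P.up y + P.g) (T' := T) (fun c => 2 * P.g c) (fun c => by
    have := abs_le.1 (h c)
    simp only [Pi.add_apply]; omega) (fun c => by have := P.g_nonneg c; omega)
  have a' : ∑ c, P.κ2 c * ((2 * P.g c : ℤ) : ℝ) = 2 * ∑ c, P.κ2 c * P.g c := by
    rw [Finset.mul_sum]; exact Finset.sum_congr rfl fun _ _ => by push_cast; ring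
  have b : _ < (P.E y : ℝ) + 1 := Nat.lt_floor_add_one _
  have := P.κ2_g
  rw [om_eq, ν_eq, show (8 : ℝ) = exp (log 2 * 3) by
    rw [show log 2 * 3 = ((3 : ℕ) : ℝ) * log 2 by push_cast; ring, exp_nat_mul, exp_log two_pos]
    norm_num, ← exp_add, exp_le_exp]
  nlinarith [log_nonneg (one_le_two (α := ℝ))]

lemma K_succ (t : ℕ) (c : I × J) : P.K (t + 1) c = P.K t c + P.g c := by
  unfold K; push_cast; ring

lemma qY {T v : I × J → ℤ} (hT : T ∈ P.S 0) (hv : v ∈ P.box) :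
    P.q (T + v) ∈ P.Y ∧ om P.κ T ≤ P.ν (P.q (T + v)) := by
  rw [mem_S] at hT
  have := P.near (y := P.q (T + v)) hT.1 fun c hc => by
    have a := P.box_free hv hc
    have b := Int.mul_ediv_add_emod (T c + v c) (P.h c)
    have d := Int.emod_nonneg (T c + v c) (P.hz_pos c).ne'
    have e := Int.emod_lt_of_pos (T c + v c) (P.hz_pos c)
    simp only [q, hc, if_true, Pi.add_apply, abs_le]
    omega
  refine ⟨P.mem_Y.2 ⟨fun c hc => by simp [q, hc], P.mem_S.2 ⟨P.tab_mar _, fun c hc => ?_⟩⟩,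
    P.om_le_ν this⟩
  have a := abs_le.1 (this c)
  have b := hT.2 c hc
  rw [K_succ]; omega

lemma lift_near (y : I × J → ℤ) {v : I × J → ℤ} (hv : v ∈ P.box) (c : I × J) :
    |P.lift y v c - P.up y c| ≤ P.g c :=
  P.near (P.tab_mar _) (fun c hc => by
    have a := P.box_free hv hc
    simp only [lift, P.tab_free _ hc, abs_le]; omega) c

lemma fib {B Y' Bx : Finset (I × J → ℤ)} (j : I × J → ℤ) {f F : (I × J → ℤ) → ℝ}
    (hB : ∀ T ∈ B, P.Mar T) (h1 : ∀ T ∈ B, P.q (T + j) ∈ Y') (h2 : ∀ T ∈ B, P.rem (T + j) ∈ Bx)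
    (hF : ∀ y ∈ Y', 0 ≤ F y) (h3 : ∀ T ∈ B, f T ≤ F (P.q (T + j))) :
    ∑ T ∈ B, f T ≤ Bx.card * ∑ y ∈ Y', F y := by
  have := sum_le_inj (s := B) (t := Y' ×ˢ Bx) (fun T => (P.q (T + j), P.rem (T + j))) (f := f)
    (g := fun p => F p.1) (fun T hT => Finset.mem_product.2 ⟨h1 T hT, h2 T hT⟩)
    (fun T hT T' hT' e => (hB T hT).ext (hB T' hT') fun c hc => by
      simp only [Prod.mk.injEq] at e
      have a := congrFun e.1 c
      have b := congrFun e.2 c
      simp only [q, rem, hc, if_true, Pi.add_apply] at a b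
      have d := Int.mul_ediv_add_emod (T c + j c) (P.h c)
      have d' := Int.mul_ediv_add_emod (T' c + j c) (P.h c)
      rw [a, b] at d
      omega) (fun p hp => hF _ (Finset.mem_product.1 hp).1) h3
  simpa only [Finset.sum_product, Finset.sum_const, nsmul_eq_mul, ← Finset.mul_sum] using this

lemma cover {B Y' : Finset (I × J → ℤ)} {f F : (I × J → ℤ) → ℝ} (hY : Y' ⊆ P.Y)
    (hf : ∀ T ∈ B, 0 ≤ f T)
    (h : ∀ y ∈ Y', ∀ v ∈ P.box, P.lift y v ∈ B ∧ F y ≤ f (P.lift y v)) :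
    P.box.card * ∑ y ∈ Y', F y ≤ ∑ T ∈ B, f T := by
  have := sum_le_inj (s := Y' ×ˢ P.box) (t := B) (fun p => P.lift p.1 p.2) (f := fun p => F p.1)
    (g := f) (fun p hp => (h _ (Finset.mem_product.1 hp).1 _ (Finset.mem_product.1 hp).2).1)
    (fun p hp p' hp' e => by
      have a := Finset.mem_product.1 (Finset.mem_coe.1 hp)
      have b := Finset.mem_product.1 (Finset.mem_coe.1 hp')
      have a' := P.q_lift (P.mem_Y.1 (hY a.1)).1 a.2
      have b' := P.q_lift (P.mem_Y.1 (hY b.1)).1 b.2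
      simp only at e
      rw [e] at a'
      exact Prod.ext (a'.1.symm.trans b'.1) (a'.2.symm.trans b'.2)) hf
    (fun p hp => (h _ (Finset.mem_product.1 hp).1 _ (Finset.mem_product.1 hp).2).2)
  simpa only [Finset.sum_product, Finset.sum_const, nsmul_eq_mul, ← Finset.mul_sum] using this

lemma lift_mem {y v : I × J → ℤ} (hy : y ∈ P.Y) (hv : v ∈ P.box) : P.lift y v ∈ P.S 2 :=
  P.mem_S.2 ⟨P.tab_mar _, fun c hc => by
    have a := abs_le.1 (P.lift_near y hv c)
    have b := (P.mem_S.1 (P.mem_Y.1 hy).2).2 c hc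
    rw [show 2 = 1 + 1 from rfl, K_succ]; omega⟩

lemma Ω_sub (t : ℕ) : P.Ω ⊆ P.S t := fun T hT => by
  rw [mem_Ω] at hT
  exact P.mem_S.2 ⟨⟨hT.1, hT.2.1⟩, fun c _ => by
    have := hT.2.2 c; have := P.K_nonneg t c; omega⟩

lemma Z_upper : P.box.card * ∑ y ∈ P.Y, P.ν y ≤ 16 * P.Ω.card := by
  have := P.cover (B := P.S 2) (Y' := P.Y) (f := fun T => 8 * om P.κ T) (F := P.ν) subset_rfl
    (fun T _ => by have := om_pos P.κ T; positivity)
    fun y hy v hv => ⟨P.lift_mem hy hv, P.ν_le_om (P.lift_near y hv)⟩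
  rw [← Finset.mul_sum] at this
  linarith [P.mass_le 2]

lemma zero_box : (0 : I × J → ℤ) ∈ P.box := P.mem_box.2 fun c => by
  have := P.h_pos c
  unfold hh; split_ifs <;> simp <;> omega

lemma q_valid {T : I × J → ℤ} (hT : T ∈ P.Ω) : P.q T ∈ P.Y ∧ P.ν (P.q T) = 1 := by
  have := P.qY (P.Ω_sub 0 hT) P.zero_box
  rw [add_zero, P.om_valid (P.mem_Ω.1 hT).2.2] at this
  exact ⟨this.1, le_antisymm (P.ν_le_one _) this.2⟩

lemma Z_lower : (P.Ω.card : ℝ) ≤ P.box.card * ∑ y ∈ P.Y, P.ν y := by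
  have := P.fib (B := P.Ω) (Y' := P.Y) (Bx := P.box) 0 (f := fun _ => 1) (F := P.ν)
    (fun T hT => (P.mem_S.1 (P.Ω_sub 0 hT)).1) (fun T hT => by rw [add_zero]; exact (P.q_valid hT).1)
    (fun T _ => P.rem_mem _) (fun y _ => (P.ν_pos y).le)
    (fun T hT => by rw [add_zero, (P.q_valid hT).2])
  simpa using this

/-- the core -/
def core (y : I × J → ℤ) : Prop := ∀ c, -P.K 0 c + P.g c ≤ P.up y c

instance : DecidablePred P.core := fun y => by unfold core; infer_instance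

lemma noncore (hp : 1 ≤ P.p) : 2 ^ P.p * ∑ y ∈ P.Y.filter (fun y => ¬ P.core y), P.ν y ≤
    16 * P.Q ^ 2 * ∑ y ∈ P.Y, P.ν y := by
  have q := P.Q_pos
  have a := P.cover (B := P.S 2) (Y' := P.Y.filter fun y => ¬ P.core y) (F := P.ν)
    (f := fun T => ∑ c, if T c ≤ -((P.Q * (P.Q ^ 2 * P.h c * P.p) : ℕ) : ℤ) then 8 * om P.κ T else 0)
    (Finset.filter_subset _ _) (fun T _ => Finset.sum_nonneg fun c _ => by
      have := om_pos P.κ T; positivity) (fun y hy v hv => by
      rw [Finset.mem_filter] at hy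
      refine ⟨P.lift_mem hy.1 hv, ?_⟩
      obtain ⟨c, hc⟩ := not_forall.1 hy.2
      refine le_trans ?_ (Finset.single_le_sum (fun c _ => by
        have := om_pos P.κ (P.lift y v); positivity) (mem_univ c))
      rw [if_pos]
      · exact P.ν_le_om (P.lift_near y hv)
      · have a := abs_le.1 (P.lift_near y hv c)
        have e : P.K 0 c - 2 * P.g c = (P.Q * (P.Q ^ 2 * P.h c * P.p) : ℕ) + 2 * P.Q := by
          unfold K g PP; push_cast; ring
        omega)
  rw [Finset.sum_comm] at a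
  have b : ∀ c, 2 ^ P.p * ∑ T ∈ P.S 2, (if T c ≤ -((P.Q * (P.Q ^ 2 * P.h c * P.p) : ℕ) : ℤ) then
      8 * om P.κ T else 0) ≤ 8 * (P.Q * (2 * P.Ω.card)) := by
    intro c
    have hp' := P.h_pos c
    have j0 : 1 ≤ P.Q ^ 2 * P.h c * P.p := Nat.succ_le_of_lt (by positivity)
    have := P.tail 2 c _ (P.Q * (P.Q ^ 2 * P.h c * P.p)) P.p j0 (Nat.le_mul_of_pos_left _ q)
      (Nat.mul_lt_mul_of_pos_left (by omega) q) (by
        push_cast
        have : (0 : ℝ) ≤ P.p := by positivity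
        nlinarith [(P.κ2_h c).2])
    rw [← Finset.sum_filter, ← Finset.mul_sum]
    have := mul_le_mul_of_nonneg_left (P.mass_le 2) (Nat.cast_nonneg (α := ℝ) P.Q)
    linarith
  have d := Finset.sum_le_sum fun c (_ : c ∈ univ) => b c
  rw [← Finset.mul_sum, Finset.sum_const, nsmul_eq_mul, Finset.card_univ] at d
  have e := mul_le_mul_of_nonneg_right P.card_le
    (show (0 : ℝ) ≤ 8 * (P.Q * (2 * P.Ω.card)) by positivity)
  have f := mul_le_mul_of_nonneg_left P.Z_lower (show (0 : ℝ) ≤ 16 * P.Q ^ 2 by positivity)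
  have g := mul_le_mul_of_nonneg_left a (show (0 : ℝ) ≤ 2 ^ P.p by positivity)
  refine le_of_mul_le_mul_left ?_ P.box_pos
  nlinarith

end Par

end Vale.Agent.P328
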