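import Vale.Agent.P328.Impl

namespace Vale.Agent.P328

open Finset

lemma amax_spec (l : List ℕ) (h : 0 < l.length) :
    amax l < l.length ∧ ∀ i < l.length, l.getD i 0 ≤ l.getD (amax l) 0 := by
  have : ∀ k, (0 < k → rep k (fun i b => if l.getD b 0 < l.getD i 0 then i else b) 0 < k) ∧ ∀ i < k,
      l.getD i 0 ≤ l.getD (rep k (fun i b => if l.getD b 0 < l.getD i 0 then i else b) 0) 0 := by
    intro k
    induction k with
    | zero => simp
    | succ k ih =>
      rw [rep_succ]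
      rcases Nat.eq_zero_or_pos k with rfl | hk
      · simp [rep_zero]
      have := ih.1 hk
      split_ifs with e
      · refine ⟨fun _ => by omega, fun i hi => ?_⟩
        rcases Nat.lt_succ_iff_lt_or_eq.1 hi with a | rfl
        exacts [(ih.2 i a).trans e.le, le_rfl]
      · refine ⟨fun _ => by omega, fun i hi => ?_⟩
        rcases Nat.lt_succ_iff_lt_or_eq.1 hi with a | rfl
        exacts [ih.2 i a, not_lt.1 e]
  exact ⟨(this _).1 h, (this _).2⟩

lemma sumZ_erase {m : ℕ} (a : Fin m) (f : ℕ → ℤ) :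
    (sumZ m fun i => if i = a then 0 else f i) = ∑ i ∈ univ.erase a, f i := by
  rw [sumZ, Finset.sum_range, ← Finset.filter_ne', Finset.sum_filter]
  exact Finset.sum_congr rfl fun i _ => by simp [Fin.ext_iff]

lemma eat_map {β γ : Type} (φ : β → γ) {st : β → ℕ → β} {st' : γ → ℕ → γ}
    (h : ∀ y ω, φ (st y ω) = st' (φ y) ω) (B t : ℕ) (y : β) (R : ℕ) :
    (eat B st')^[t] (φ y, R) = (φ ((eat B st)^[t] (y, R)).1, ((eat B st)^[t] (y, R)).2) := by
  induction t generalizing y R with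
  | zero => rfl
  | succ t ih => simp only [Function.iterate_succ_apply, eat, ← h, ih]

namespace Inp

/-- admissible inputs -/
structure Good (x : Inp) : Prop where
  m_pos : 0 < x.m
  n_pos : 0 < x.n
  sum_eq : ∑ i : Fin x.m, x.r i = ∑ j : Fin x.n, x.c j

lemma mn_lt (x : Inp) : x.m * x.n < x.Q := Nat.lt_size_self _

lemma w_mono (x : Inp) : Monotone x.w := fun _ _ h =>
  Nat.sub_le_sub_right (Nat.size_le_size (Nat.div_le_div_right h)) 1

lemma D_pos (x : Inp) : 0 < x.D := by have := Q_pos x; unfold D k0; positivity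

variable {x : Inp} (hx : x.Good)

/-- the parameters -/
def par : Par (Fin x.m) (Fin x.n) where
  is := ⟨x.is, (amax_spec _ hx.m_pos).1⟩
  js := ⟨x.js, (amax_spec _ hx.n_pos).1⟩
  r i := x.r i
  cc j := x.c j
  Q := x.Q
  k0 := x.k0
  p := x.p
  hf := x.hf
  sum_eq := hx.sum_eq
  r_max i := (amax_spec _ hx.m_pos).2 i i.2
  c_max j := (amax_spec _ hx.n_pos).2 j j.2
  hI := by simpa using (Nat.le_mul_of_pos_right _ hx.n_pos).trans x.mn_lt.le
  hJ := by simpa using (Nat.le_mul_of_pos_left _ hx.m_pos).trans x.mn_lt.le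
  hQ := by simpa using x.mn_lt.le
  hk := le_of_eq (by unfold Q k0; ring)
  hf_mono _ _ h := Nat.pow_le_pow_right two_pos (x.w_mono h)
  hf_pos := hf_pos x
  hf_le s h := by
    have : x.w s ≠ 0 := fun e => h (by rw [hf, e, pow_zero])
    have a := Nat.lt_size.1 (show x.w s < Nat.size (s / x.D) by unfold w at *; omega)
    exact (Nat.mul_le_mul_left x.D a).trans (Nat.mul_div_le _ _)
  hf_ge s := by
    have a := Nat.lt_size_self (s / x.D)
    have b : 2 ^ Nat.size (s / x.D) ≤ 2 ^ (x.w s + 1) :=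
      Nat.pow_le_pow_right two_pos (by unfold w; omega)
    have d := Nat.lt_mul_div_succ s x.D_pos
    have e := Nat.mul_le_mul_left x.D (a.trans_le b)
    rw [pow_succ] at e
    change s ≤ 3 * x.D * 2 ^ x.w s
    nlinarith

/-- position of a cell -/
def ix (x : Inp) (c : Fin x.m × Fin x.n) : ℕ := c.2 + x.n * c.1

/-- the table held by a list -/
def fn (x : Inp) (l : List ℤ) (c : Fin x.m × Fin x.n) : ℤ := l.getD (x.ix c) 0

lemma ix_div (c : Fin x.m × Fin x.n) : x.ix c / x.n = c.1 := by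
  rw [ix, Nat.add_mul_div_left _ _ c.2.pos, Nat.div_eq_of_lt c.2.2, zero_add]

lemma ix_mod (c : Fin x.m × Fin x.n) : x.ix c % x.n = c.2 := by
  rw [ix, Nat.add_mul_mod_self_left, Nat.mod_eq_of_lt c.2.2]

lemma ix_lt (c : Fin x.m × Fin x.n) : x.ix c < x.m * x.n := (finProdFinEquiv c).2

lemma ix_inj : Function.Injective x.ix := fun _ _ e => finProdFinEquiv.injective (Fin.ext e)

lemma fn_mapR (f : ℕ → ℤ) : x.fn (mapR (x.m * x.n) f) = fun c => f (x.ix c) := by
  funext c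
  simp [fn, mapR, ix_lt c]

lemma allR_iff (p : ℕ → Prop) : allR (x.m * x.n) p ↔ ∀ c, p (x.ix c) :=
  ⟨fun h c => h _ (ix_lt c), fun h e he => by
    have := h (finProdFinEquiv.symm ⟨e, he⟩)
    rwa [show x.ix _ = e from congrArg Fin.val (finProdFinEquiv.apply_symm_apply ⟨e, he⟩)] at this⟩

lemma sumR_eq (f : ℕ → ℕ) : sumR (x.m * x.n) f = ∑ c, f (x.ix c) := by
  rw [sumR, Finset.sum_range, ← Equiv.sum_comp finProdFinEquiv]
  rfl

lemma h_eq (c : Fin x.m × Fin x.n) : x.h (x.ix c) = (par hx).h c := by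
  rw [h, ix_div, ix_mod]; rfl

lemma g_eq (c : Fin x.m × Fin x.n) : x.g (x.ix c) = (par hx).g c := by
  rw [g, h_eq hx]; rfl

lemma is_eq (i : Fin x.m) : (i : ℕ) = x.is ↔ i = (par hx).is := (Fin.ext_iff (b := (par hx).is)).symm

lemma js_eq (j : Fin x.n) : (j : ℕ) = x.js ↔ j = (par hx).js := (Fin.ext_iff (b := (par hx).js)).symm

lemma free_eq (c : Fin x.m × Fin x.n) : x.free (x.ix c) ↔ (par hx).free c := by
  rw [free, ix_div, ix_mod, is_eq hx, js_eq hx]; rfl

lemma t1_eq (l : List ℤ) (i : Fin x.m) (j : Fin x.n) : x.t1 l i j = (par hx).t1 (x.fn l) (i, j) := by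
  exact if_congr (is_eq hx i) (congrArg _
    (sumZ_erase (par hx).is fun i' => l.getD (j + x.n * i') 0)) rfl

lemma tab_eq (l : List ℤ) : x.fn (x.tab l) = (par hx).tab (x.fn l) := by
  rw [tab, fn_mapR]
  funext c
  rw [ix_div, ix_mod, Par.tab, t1_eq hx]
  refine if_congr (js_eq hx _) ?_ rfl
  simp only [← t1_eq hx]
  rw [← sumZ_erase (par hx).js fun j => x.t1 l c.1 j]
  rfl

lemma up_eq (y : List ℤ) : x.fn (x.up y) = (par hx).up (x.fn y) := by
  rw [up, tab_eq hx, fn_mapR]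
  simp only [h_eq hx]; rfl

lemma inY_iff (y : List ℤ) : x.inY y ↔ x.fn y ∈ (par hx).Y := by
  rw [inY, allR_iff, Par.mem_Y, Par.mem_S, forall_and, ← up_eq hx]
  simp only [free_eq hx, h_eq hx, g_eq hx, ix_mod, js_eq hx, or_iff_not_imp_left, Par.K,
    Nat.cast_one, one_mul]
  exact ⟨fun h => ⟨h.1, up_eq hx y ▸ Par.tab_mar _ _, h.2⟩, fun h => ⟨h.1, h.2.2⟩⟩

lemma h_dvd (c : Fin x.m × Fin x.n) : (par hx).h c ∣ x.H :=
  pow_dvd_pow _ (x.w_mono ((min_le_left _ _).trans (Finset.single_le_sum (f := x.r)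
    (fun _ _ => Nat.zero_le _) (Finset.mem_range.2 c.1.2))))

lemma E_eq (y : List ℤ) : x.E y = (par hx).E (x.fn y) := by
  rw [E, Par.E, ← Nat.floor_div_eq_div (K := ℝ), sumR_eq, ← up_eq hx, pen]
  congr 1
  rw [Nat.cast_sum, Finset.sum_div]
  refine Finset.sum_congr rfl fun c _ => ?_
  have q : (0 : ℝ) < x.Q := by exact_mod_cast Q_pos x
  have a : (0 : ℝ) < x.H := by exact_mod_cast hf_pos x _
  have b : (0 : ℝ) < (par hx).h c := by exact_mod_cast (par hx).h_pos c
  rw [Nat.cast_mul, h_eq hx, g_eq hx, ← Int.ofNat_toNat, Int.cast_natCast, mul_div_right_comm]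
  congr 1
  unfold Par.κ2
  rw [show (par hx).Q = x.Q from rfl]
  split_ifs
  · push_cast; field_simp; rfl
  · rw [Nat.cast_div (h_dvd hx c) b.ne']
    push_cast; field_simp

lemma prop_eq (y : List ℤ) (s a : ℕ) : x.fn (x.prop y s a) = Par.prop x.ix (x.fn y) s a := by
  rw [prop, fn_mapR, Par.prop]
  funext c
  split_ifs <;> simp [Par.ev, fn, sub_eq_add_neg, *]

lemma step_eq (y : List ℤ) (ω : ℕ) : x.fn (x.step y ω) = (par hx).step x.ix (x.fn y) ω := by
  rw [step, mv, Par.step, Par.mv, apply_ite x.fn, ← prop_eq, ← E_eq, ← E_eq]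
  exact if_congr (and_congr (inY_iff hx _) Iff.rfl) rfl rfl

lemma T0_mem : x.fn x.T0 ∈ (par hx).Ω := by
  have sm : ∀ (f : ℕ → ℕ) {a b : ℕ}, a ≤ b → sumR a f ≤ sumR b f := fun f a b h =>
    Finset.sum_le_sum_of_subset (Finset.range_mono h)
  have ss : ∀ (f : ℕ → ℕ) (a : ℕ), sumR (a + 1) f = sumR a f + f a := fun f a =>
    Finset.sum_range_succ _ _
  have s0 : ∀ f : ℕ → ℕ, sumR 0 f = 0 := fun _ => rfl
  have e : sumR x.m x.r = sumR x.n x.c := by
    rw [sumR, sumR, Finset.sum_range, Finset.sum_range, hx.sum_eq]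
  rw [T0, fn_mapR, Par.mem_Ω]
  simp only [nw, ix_div, ix_mod]
  refine ⟨fun i => ?_, fun j _ => ?_, fun c => ?_⟩
  · rw [Fin.sum_univ_eq_sum_range (fun j => x.F (i + 1) (j + 1) - x.F i (j + 1) -
      (x.F (i + 1) j - x.F i j)), Finset.sum_range_sub fun j => x.F (i + 1) j - x.F i j]
    have := sm x.r (show i + 1 ≤ x.m from i.2)
    have := ss x.r i
    simp only [F, min_self, Nat.zero_min, s0, Nat.min_zero, min_eq_left i.2.le,
      min_eq_left (show i + 1 ≤ x.m from i.2)]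
    change _ = (x.r i : ℤ)
    omega
  · rw [Fin.sum_univ_eq_sum_range (fun i => x.F (i + 1) (j + 1) - x.F i (j + 1) -
      (x.F (i + 1) j - x.F i j)), Finset.sum_sub_distrib, Finset.sum_range_sub fun i => x.F i (j + 1),
      Finset.sum_range_sub fun i => x.F i j]
    have := sm x.c (show j + 1 ≤ x.n from j.2)
    have := ss x.c j
    simp only [F, min_self, Nat.zero_min, s0, min_eq_left j.2.le,
      min_eq_left (show j + 1 ≤ x.n from j.2)]
    change _ = (x.c j : ℤ)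
    omega
  · have := ss x.r c.1
    have := ss x.c c.2
    simp only [F, min_eq_left c.1.2.le, min_eq_left c.2.2.le,
      min_eq_left (show c.1 + 1 ≤ x.m from c.1.2), min_eq_left (show c.2 + 1 ≤ x.n from c.2.2)]
    omega

lemma y0_eq : x.fn x.y0 = (par hx).q (x.fn x.T0) := by
  have := ((par hx).mem_Ω.1 (T0_mem hx)).2.2
  rw [T0, fn_mapR] at *
  rw [y0, fn_mapR]
  funext c
  refine if_congr (free_eq hx c) ?_ rfl
  rw [Int.natCast_div, Int.toNat_of_nonneg (this c), h_eq hx]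

lemma trial_eq (ω : ℕ) :
    x.fn (x.trial ω) = (par hx).trial x.ix x.H x.t ((par hx).q (x.fn x.T0)) ω := by
  rw [trial, Par.trial, ← y0_eq hx, eat_map x.fn (step_eq hx), lift, tab_eq hx, fn_mapR]
  simp only [h_eq hx, free_eq hx, min_eq_left ((ix_lt _).trans x.mn_lt).le]
  rfl

lemma keep_eq (T : List ℤ) (ω : ℕ) :
    x.fn (x.keep T ω) = (par hx).keep x.ix x.H x.t ((par hx).q (x.fn x.T0)) (x.fn T) ω := by
  rw [keep, Par.keep, apply_ite x.fn, ← trial_eq]
  refine if_congr ?_ rfl rfl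
  rw [allR_iff, Par.mem_Ω, ← and_assoc]
  exact (and_iff_right (trial_eq hx ω ▸ Par.tab_mar _ _)).symm

lemma card_Ω : (par hx).Ω.card ≤ 2 ^ x.lam := by
  refine (Finset.card_le_card (t := Fintype.piFinset fun _ : Fin x.m × Fin x.n =>
    Finset.Ico (0 : ℤ) (2 ^ Nat.size x.N : ℕ))
    fun T hT => Fintype.mem_piFinset.2 fun c => ?_).trans ?_
  · rw [Par.mem_Ω] at hT
    have a := Finset.single_le_sum (f := fun j => T (c.1, j)) (fun j _ => hT.2.2 _) (mem_univ c.2)
    have b : x.r c.1 ≤ x.N := Finset.single_le_sum (f := x.r)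
      (fun _ _ => Nat.zero_le _) (Finset.mem_range.2 c.1.2)
    have d := Nat.lt_size_self x.N
    rw [hT.1] at a
    change T c ≤ (x.r c.1 : ℤ) at a
    exact Finset.mem_Ico.2 ⟨hT.2.2 c, by omega⟩
  · rw [Fintype.card_piFinset, Finset.prod_const, Int.card_Ico, sub_zero, Int.toNat_natCast, lam,
      pow_mul]
    exact Nat.pow_le_pow_right (by positivity) (by simpa using x.mn_lt.le)

lemma C_pow (x : Inp) : x.C ^ (32 * (x.k + 1)) = 2 ^ x.bits := by
  unfold C B H hf bits Q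
  rw [pow_mul 2 (_ + _), pow_add, pow_mul 2 (_ + _), pow_mul 2 (x.w _), pow_add, pow_add,
    show 2 ^ 2 = 4 from rfl]

/-- final state -/
def fin (x : Inp) (R : ℕ) : Fin x.m × Fin x.n → ℤ :=
  x.fn ((eat x.C x.keep)^[32 * (x.k + 1)] (x.T0, R)).1

lemma fin_mem (R : ℕ) : x.fin R ∈ (par hx).Ω := by
  have := (par hx).keep_mem x.ix x.H x.t ((par hx).q (x.fn x.T0)) x.C (32 * (x.k + 1))
    (p := (x.fn x.T0, R)) (T0_mem hx)
  rwa [eat_map x.fn (keep_eq hx)] at this

lemma fin_prob {l : ℕ} (hl : x.bits ≤ l) {A : Finset (Fin x.m × Fin x.n → ℤ)}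
    (hA : A ⊆ (par hx).Ω) : |(∑ R ∈ range (2 ^ l), if x.fin R ∈ A then 1 else 0) / (2 ^ l : ℝ) -
      A.card / (par hx).Ω.card| ≤ (1 / 2) ^ x.k := by
  have := (par hx).sample (H := x.H) (k := x.k) (t := x.t) (X := 2 ^ (l - x.bits)) ix_inj
    (fun c => (ix_lt c).trans x.mn_lt) (hf_pos x x.N) (fun c => by
      unfold Par.hh; split_ifs
      exacts [h_dvd hx c, one_dvd _]) (T0_mem hx) (card_Ω hx)
    (le_of_eq (by change x.Q ^ 2 * _ = 2 ^ x.p; unfold Q p; ring))
    (le_of_eq (by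
      have : 4 ^ x.k0 = 16 * x.Q ^ 4 := by
        rw [show 4 = 2 ^ 2 from rfl, ← pow_mul]; unfold Q k0; ring
      change 4 * x.Q * (_ + 144 * 4 ^ x.k0 * _ * _) * _ = _
      rw [this]; rfl)) (by positivity) hA
  rw [show (par hx).B ^ x.t * x.H ^ (par hx).Q = x.C from rfl] at this
  have e := eat_map x.fn (keep_eq hx) x.C (32 * (x.k + 1)) x.T0
  simp only [e] at this
  rw [C_pow, ← pow_add, Nat.add_sub_cancel' hl] at this
  push_cast at this
  exact this

lemma main_eq (x : Inp) (R : ℕ) :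
    x.main R = List.ofFn fun i => List.ofFn fun j => (x.fin R (i, j)).toNat := by
  simp only [main, out, mapR, List.ofFn_eq_map, fin, fn, ix, ← List.map_coe_finRange_eq_range,
    List.map_map, Function.comp_def]

end Inp

end Vale.Agent.P328
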