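import Vale.Agent.P328.Bochner

namespace Vale.Agent.P328

open Finset

variable {I J : Type*} [Fintype I] [DecidableEq I] [Fintype J] [DecidableEq J]

/-- signed tables with walls outside the slack column -/
def Mem (js : J) (r : I → ℤ) (a : J → ℤ) (K : I × J → ℤ) (T : I × J → ℤ) : Prop :=
  (∀ i, ∑ j, T (i, j) = r i) ∧ (∀ j, j ≠ js → ∑ i, T (i, j) = a j) ∧ ∀ c, c.2 ≠ js → -K c ≤ T c

lemma Mem.ext {js : J} {r : I → ℤ} {a : J → ℤ} {K K' : I × J → ℤ} {T T' : I × J → ℤ} (is : I)
    (h : Mem js r a K T) (h' : Mem js r a K' T')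
    (e : ∀ c : I × J, c.1 ≠ is → c.2 ≠ js → T c = T' c) : T = T' := by
  have e1 : ∀ c : I × J, c.2 ≠ js → T c = T' c := by
    rintro ⟨i, j⟩ hj
    by_cases hi : i = is
    · subst hi
      have a1 := Finset.add_sum_erase univ (fun i => T (i, j)) (mem_univ i)
      have a2 := Finset.add_sum_erase univ (fun i => T' (i, j)) (mem_univ i)
      rw [h.2.1 j hj] at a1
      rw [h'.2.1 j hj, ← Finset.sum_congr rfl fun i' hi' =>
        e (i', j) (Finset.mem_erase.1 hi').1 hj] at a2
      omega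
    · exact e _ hi hj
  funext ⟨i, j⟩
  by_cases hj : j = js
  · subst hj
    have a1 := Finset.add_sum_erase univ (fun j => T (i, j)) (mem_univ j)
    have a2 := Finset.add_sum_erase univ (fun j => T' (i, j)) (mem_univ j)
    rw [h.1] at a1
    rw [h'.1, ← Finset.sum_congr rfl fun j' hj' => e1 (i, j') (Finset.mem_erase.1 hj').1] at a2
    omega
  · exact e1 _ hj

lemma Mem.finite (js : J) (r : I → ℤ) (a : J → ℤ) (K : I × J → ℤ) :
    {T | Mem js r a K T}.Finite := by
  refine Set.Finite.of_injOn (f := fun T c => if c.2 = js then 0 else T c)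
    (t := Set.univ.pi fun c : I × J => Set.Icc (-|K c|) |a c.2 + ∑ i, K (i, c.2) - K c|)
    (fun T hT c _ => ?_) (fun T hT T' hT' e => ?_) (Set.Finite.pi fun c => Set.finite_Icc _ _)
  · by_cases h : c.2 = js
    · simp [h]
    · simp only [h, if_false, Set.mem_Icc]
      have := hT.2.2 c h
      have := le_abs_self (K c)
      refine ⟨by omega, le_trans ?_ (le_abs_self _)⟩
      have h1 := Finset.single_le_sum (f := fun i => T (i, c.2) + K (i, c.2))
        (fun i _ => by have := hT.2.2 (i, c.2) h; omega) (mem_univ c.1)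
      rw [Finset.sum_add_distrib, hT.2.1 _ h] at h1
      change T c + K c ≤ _ at h1
      omega
  · rcases isEmpty_or_nonempty I with h | ⟨⟨i⟩⟩
    · exact funext fun c => h.elim c.1
    · exact hT.ext i hT' fun c _ h => by simpa [h] using congrFun e c

/-- the finite set of signed tables -/
noncomputable def St (js : J) (r : I → ℤ) (a : J → ℤ) (K : I × J → ℤ) : Finset (I × J → ℤ) :=
  (Mem.finite js r a K).toFinset

lemma mem_St {js : J} {r : I → ℤ} {a : J → ℤ} {K T : I × J → ℤ} :
    T ∈ St js r a K ↔ Mem js r a K T := by simp [St]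

/-- elementary move -/
def dv (js : J) (i : I) (u : J) : I × J → ℤ := Pi.single (i, u) 1 - Pi.single (i, js) 1

omit [Fintype I] in
lemma dv_row (js : J) (i : I) (u : J) (i' : I) : ∑ j, dv js i u (i', j) = 0 := by
  simp only [dv, Pi.sub_apply, Finset.sum_sub_distrib, Pi.single_apply, Prod.mk.injEq]
  by_cases h : i' = i <;> simp [h]

omit [Fintype J] in
lemma dv_col {js : J} (i : I) (u : J) {j : J} (h : j ≠ js) :
    ∑ i', dv js i u (i', j) = (Pi.single u 1 : J → ℤ) j := by
  simp only [dv, Pi.sub_apply, Pi.single_apply, Prod.mk.injEq, h, and_false, if_false, sub_zero]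
  by_cases h : j = u <;> simp [h]

omit [Fintype I] [Fintype J] in
lemma dv_nonneg {js : J} (i : I) (u : J) {c : I × J} (h : c.2 ≠ js) : 0 ≤ dv js i u c := by
  have : c ≠ (i, js) := fun e => h (by rw [e])
  simp only [dv, Pi.sub_apply, Pi.single_apply, this, if_false]
  split_ifs <;> simp

omit [DecidableEq I] [DecidableEq J] in
lemma Mem.add {js : J} {r : I → ℤ} {a δ : J → ℤ} {K z e : I × J → ℤ} (hz : Mem js r (a - δ) K z)
    (h1 : ∀ i, ∑ j, e (i, j) = 0) (h2 : ∀ j, j ≠ js → ∑ i, e (i, j) = δ j)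
    (h3 : ∀ c : I × J, c.2 ≠ js → 0 ≤ e c) : Mem js r a K (z + e) :=
  ⟨fun i => by simp [Finset.sum_add_distrib, hz.1, h1],
    fun j hj => by simp [Finset.sum_add_distrib, hz.2.1 j hj, h2 j hj],
    fun c hc => by have := hz.2.2 c hc; have := h3 c hc; simp only [Pi.add_apply]; omega⟩

lemma shift_sum {js : J} {r : I → ℤ} {a δ : J → ℤ} {K e : I × J → ℤ} (μ : (I × J → ℤ) → ℝ)
    (hμ : ∀ T c, c.2 ≠ js → T c < -K c → μ T = 0)
    (h1 : ∀ i, ∑ j, e (i, j) = 0) (h2 : ∀ j, j ≠ js → ∑ i, e (i, j) = δ j)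
    (h3 : ∀ c : I × J, c.2 ≠ js → 0 ≤ e c) (Φ : (I × J → ℤ) → ℝ) :
    ∑ x ∈ St js r a K, μ (x - e) * Φ x = ∑ z ∈ St js r (a - δ) K, μ z * Φ (z + e) := by
  rw [← Finset.sum_subset (s₁ := (St js r (a - δ) K).image (· + e)),
    Finset.sum_image fun _ _ _ _ h => add_right_cancel h]
  · simp
  · intro x hx
    obtain ⟨z, hz, rfl⟩ := Finset.mem_image.1 hx
    exact mem_St.2 ((mem_St.1 hz).add h1 h2 h3)
  · intro x hx hx'
    rw [mem_St] at hx
    by_contra hc
    refine hx' (Finset.mem_image.2 ⟨x - e, mem_St.2 ⟨fun i => ?_, fun j hj => ?_, fun c hj => ?_⟩,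
      by simp⟩)
    · simp [Finset.sum_sub_distrib, hx.1, h1]
    · simp [Finset.sum_sub_distrib, hx.2.1 j hj, h2 j hj]
    · by_contra h
      rw [hμ (x - e) c hj (not_le.1 h), zero_mul] at hc
      exact hc rfl

lemma rem_alg {U : Type*} [Fintype U] [DecidableEq U] (p p2 a g : I → U → ℝ) (φ φ2 : I → ℝ)
    (h1 : ∀ i, φ2 i ≤ φ i ^ 2) (h2 : ∀ i u, a i u * (p i u * φ i) ≤ φ2 i * (p i u ^ 2 - p2 i u)) :
    ∑ i, ∑ u, a i u * (p i u * φ i) * g i u ^ 2 + ∑ i, ∑ u, ∑ i', ∑ u',
      (if i' = i then (if u' = u then p2 i u * φ2 i else p i u * p i u' * φ2 i)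
        else (p i u * φ i) * (p i' u' * φ i')) * (g i u * g i' u') ≤
      (∑ i, ∑ u, (p i u * φ i) * g i u) ^ 2 := by
  have e : ∀ i u i' u', (if i' = i then (if u' = u then p2 i u * φ2 i else p i u * p i u' * φ2 i)
        else (p i u * φ i) * (p i' u' * φ i')) * (g i u * g i' u') =
      (p i u * φ i * g i u) * (p i' u' * φ i' * g i' u') - if i' = i then
        ((φ i ^ 2 - φ2 i) * ((p i u * g i u) * (p i u' * g i u')) +
          if u' = u then φ2 i * (p i u ^ 2 - p2 i u) * g i u ^ 2 else 0) else 0 := by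
    intro i u i' u'
    split_ifs with e1 e2
    · subst e1 e2; ring
    · subst e1; ring
    · ring
  simp only [e, Finset.sum_sub_distrib, Finset.sum_ite_irrel, Finset.sum_const_zero,
    Finset.sum_ite_eq', mem_univ, if_true, Finset.sum_add_distrib, ← Finset.mul_sum,
    ← Finset.sum_mul, ← sq]
  have a1 : 0 ≤ ∑ i, (φ i ^ 2 - φ2 i) * (∑ u, p i u * g i u) ^ 2 :=
    Finset.sum_nonneg fun i _ => mul_nonneg (sub_nonneg.2 (h1 i)) (sq_nonneg _)
  have a2 : ∑ i, ∑ u, a i u * (p i u * φ i) * g i u ^ 2 ≤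
      ∑ i, ∑ u, φ2 i * (p i u ^ 2 - p2 i u) * g i u ^ 2 :=
    Finset.sum_le_sum fun i _ => Finset.sum_le_sum fun u _ =>
      mul_le_mul_of_nonneg_right (h2 i u) (sq_nonneg _)
  linarith

theorem poincare_w (is : I) (js : J) (r : I → ℤ) (cc : J → ℤ) (K : I × J → ℤ)
    (w : I × J → ℤ → ℝ) (A a : I × J → ℝ) (w0 : ∀ c t, c.2 ≠ js → t < -K c → w c t = 0)
    (w1 : ∀ c t, (c.2 ≠ js → -K c ≤ t) → 0 < w c t)
    (w2 : ∀ i t, w (i, js) (t + 2) * w (i, js) t ≤ w (i, js) (t + 1) ^ 2)
    (w3 : ∀ i t, w (i, js) (t + 1) ≤ w (i, js) (t + 2))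
    (w4 : ∀ c t, c.2 ≠ js → a c * (w c (t + -1) * w c t) ≤ w c (t + -1) ^ 2 - w c (t + -2) * w c t)
    (hA : ∀ c, 0 ≤ A c) (ha : ∀ c, 0 ≤ a c) (haA : ∀ c, 1 ≤ a c * A c) (g : (I × J → ℤ) → ℝ) :
    ∃ m, ∑ x ∈ St js r cc K, (∏ c, w c (x c)) * (g x - m) ^ 2 ≤
      ∑ u : {u // u ≠ js}, ∑ z ∈ St js r (cc - Pi.single u.1 1) K, (∏ c, w c (z c)) *
        ∑ i, A (i, u) * (g (z + dv js i u) - g (z + dv js is u)) ^ 2 := by
  have wn : ∀ c t, 0 ≤ w c t := fun c t => by
    by_cases h : c.2 ≠ js ∧ t < -K c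
    · rw [w0 c t h.1 h.2]
    · exact (w1 c t fun e => not_lt.1 fun e' => h ⟨e, e'⟩).le
  have hμ : ∀ (T : I × J → ℤ) c, c.2 ≠ js → T c < -K c → ∏ c, w c (T c) = 0 := fun T c h1 h2 =>
    Finset.prod_eq_zero (mem_univ c) (w0 c _ h1 h2)
  have hpos : ∀ {a : J → ℤ}, ∀ x ∈ St js r a K, 0 < ∏ c, w c (x c) := fun x hx =>
    Finset.prod_pos fun c _ => w1 c _ ((mem_St.1 hx).2.2 c)
  refine poincare_abs is (fun x => ∏ c, w c (x c)) (fun i (u : {u // u ≠ js}) => dv js i u)
    (fun i u => A (i, u)) (fun i u => a (i, u)) _ _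
    (fun u u' => St js r (cc - (Pi.single u.1 1 + Pi.single u'.1 1)) K)
    (fun x => Finset.prod_nonneg fun c _ => wn _ _) hpos (fun _ _ => hA _) (fun _ _ => ha _)
    (fun _ _ => haA _) (fun i u Φ => shift_sum _ hμ (dv_row js i u) (fun j hj => dv_col i u.1 hj)
      (fun c hc => dv_nonneg i u.1 hc) Φ) (fun i u i' u' Φ => ?_) (fun x hx g => ?_) (fun f hf => ?_) g
  · simp only [sub_sub, add_assoc]
    refine shift_sum _ hμ (fun i => by simp [Finset.sum_add_distrib, dv_row])
      (fun j hj => by simp [Finset.sum_add_distrib, dv_col _ _ hj]) (fun c hc => ?_) Φ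
    exact add_nonneg (dv_nonneg _ _ hc) (dv_nonneg _ _ hc)
  · have wp : ∀ c, 0 < w c (x c) := fun c => w1 c _ ((mem_St.1 hx).2.2 c)
    have hx0 := hpos x hx
    obtain ⟨ρ, hρ⟩ : ∃ ρ : I × J → ℤ → ℝ, ρ = fun c k => w c (x c + k) / w c (x c) := ⟨_, rfl⟩
    obtain ⟨R, hR⟩ : ∃ R : (I × J → ℤ) → ℝ, R = fun e => ∏ c, ρ c (e c) := ⟨_, rfl⟩
    have r0 : ∀ c, ρ c 0 = 1 := fun c => by simp [hρ, (wp c).ne']
    have r1 : ∀ e, ∏ c, w c ((x + e) c) = (∏ c, w c (x c)) * R e := fun e => by
      rw [hR, ← Finset.prod_mul_distrib]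
      exact Finset.prod_congr rfl fun c _ => by simp only [hρ, Pi.add_apply]; field_simp [(wp c).ne']
    have r2 : ∀ e e', (∀ c, e c = 0 ∨ e' c = 0) → R (e + e') = R e * R e' := fun e e' h => by
      simp only [hR, ← Finset.prod_mul_distrib]
      exact Finset.prod_congr rfl fun c _ => by rcases h c with h | h <;> simp [h, r0]
    have r3 : ∀ c k, R (Pi.single c k) = ρ c k := fun c k => by
      simp only [hR]
      rw [Finset.prod_eq_single c (fun b _ hb => by simp [hb, r0]) (by simp)]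
      simp
    have s1 : ∀ i (u : {u // u ≠ js}), R (-dv js i u) = ρ (i, u) (-1) * ρ (i, js) 1 := by
      intro i u
      rw [show -dv js i u = Pi.single (i, u.1) (-1) + Pi.single (i, js) 1 by
        simp only [dv, Pi.single_neg]; abel, r2, r3, r3]
      intro c
      have := u.2
      simp only [Pi.single_apply]; grind
    have s2 : ∀ i (u : {u // u ≠ js}) i' (u' : {u // u ≠ js}), R (-dv js i u + -dv js i' u') =
        if i' = i then (if u' = u then ρ (i, u) (-2) * ρ (i, js) 2
          else ρ (i, u) (-1) * ρ (i, u') (-1) * ρ (i, js) 2)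
        else (ρ (i, u) (-1) * ρ (i, js) 1) * (ρ (i', u') (-1) * ρ (i', js) 1) := by
      intro i u i' u'
      have := u.2
      have := u'.2
      split_ifs with e1 e2
      · subst e1 e2
        rw [show -dv js i' u' + -dv js i' u' = Pi.single (i', u'.1) (-2) + Pi.single (i', js) 2 by
          funext c; simp only [dv, Pi.add_apply, Pi.neg_apply, Pi.sub_apply, Pi.single_apply]
          split_ifs <;> simp, r2, r3, r3]
        intro c
        simp only [Pi.single_apply]; grind
      · subst e1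
        have : u'.1 ≠ u.1 := fun e => e2 (Subtype.ext e)
        rw [show -dv js i' u + -dv js i' u' = Pi.single (i', u.1) (-1) + Pi.single (i', u'.1) (-1) +
            Pi.single (i', js) 2 by
          funext c; simp only [dv, Pi.add_apply, Pi.neg_apply, Pi.sub_apply, Pi.single_apply]
          split_ifs <;> simp, r2, r2, r3, r3, r3]
        · intro c
          simp only [Pi.single_apply]; grind
        · intro c
          simp only [Pi.add_apply, Pi.single_apply]; grind
      · rw [r2, s1, s1]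
        intro c
        simp only [dv, Pi.neg_apply, Pi.sub_apply, Pi.single_apply]; grind
    have key := rem_alg (fun i (u : {u // u ≠ js}) => ρ (i, u) (-1)) (fun i u => ρ (i, u) (-2))
      (fun i u => a (i, u)) g (fun i => ρ (i, js) 1) (fun i => ρ (i, js) 2) (fun i => by
        simp only [hρ]
        rw [div_pow, div_le_div_iff₀ (wp _) (pow_pos (wp _) 2)]
        have := mul_le_mul_of_nonneg_right (w2 i (x (i, js))) (wp (i, js)).le
        nlinarith) (fun i u => by
        have b1 : a (i, u) * ρ (i, u) (-1) ≤ ρ (i, u) (-1) ^ 2 - ρ (i, u) (-2) := by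
          simp only [hρ]
          have := div_le_div_of_nonneg_right (w4 (i, u) (x (i, u)) u.2)
            (pow_pos (wp (i, u)) 2).le
          refine le_trans (le_of_eq ?_) (this.trans_eq ?_) <;> field_simp [(wp (i, u)).ne']
        have b2 : ρ (i, js) 1 ≤ ρ (i, js) 2 := by
          simp only [hρ]; exact div_le_div_of_nonneg_right (w3 _ _) (wp _).le
        have b3 : ∀ c k, 0 ≤ ρ c k := fun c k => by
          simp only [hρ]; exact div_nonneg (wn _ _) (wn _ _)
        have b4 := mul_nonneg (ha (i, u)) (b3 (i, u) (-1))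
        calc _ = ρ (i, js) 1 * (a (i, u) * ρ (i, u) (-1)) := by ring
          _ ≤ _ := mul_le_mul b2 b1 b4 (b3 _ _))
    simp only [sub_eq_add_neg, add_assoc, r1, s1, s2]
    rw [le_div_iff₀ hx0]
    refine le_trans (le_of_eq ?_) ((mul_le_mul_of_nonneg_left key (sq_nonneg (∏ c, w c (x c)))).trans_eq
      ?_)
    · generalize ∏ c, w c (x c) = M
      simp only [mul_add, add_mul, Finset.mul_sum, Finset.sum_mul]
      congr 1
      · exact Finset.sum_congr rfl fun _ _ => Finset.sum_congr rfl fun _ _ => by ring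
      · exact Finset.sum_congr rfl fun _ _ => Finset.sum_congr rfl fun _ _ =>
          Finset.sum_congr rfl fun _ _ => Finset.sum_congr rfl fun _ _ => by ring
    · rw [← mul_pow]
      simp only [Finset.mul_sum, mul_assoc]
  · have step : ∀ n : ℕ, ∀ x ∈ St js r cc K,
        ∑ c ∈ univ.filter (fun c : I × J => c.1 ≠ is ∧ c.2 ≠ js), (x c + K c) = n →
        ∃ x0 ∈ St js r cc K, (∀ c : I × J, c.1 ≠ is → c.2 ≠ js → x0 c = -K c) ∧ f x = f x0 := by
      intro n
      induction n with
      | zero =>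
        intro x hx h
        refine ⟨x, hx, fun c c1 c2 => ?_, rfl⟩
        have := (Finset.sum_eq_zero_iff_of_nonneg fun c hc => by
          have := (mem_St.1 hx).2.2 c (Finset.mem_filter.1 hc).2.2; omega).1 h c (by simp [c1, c2])
        omega
      | succ n ih =>
        intro x hx h
        obtain ⟨⟨i, u⟩, hc, hne⟩ := Finset.exists_ne_zero_of_sum_ne_zero (h.trans_ne (by omega))
        simp only [Finset.mem_filter, mem_univ, true_and] at hc
        have hx' := mem_St.1 hx
        have hz : x - dv js i u ∈ St js r (cc - Pi.single u 1) K := by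
          refine mem_St.2 ⟨fun i => by simp [Finset.sum_sub_distrib, hx'.1, dv_row],
            fun j hj => by simp [Finset.sum_sub_distrib, hx'.2.1 j hj, dv_col _ _ hj],
            fun c hj => ?_⟩
          have := hx'.2.2 c hj
          have : c ≠ (i, js) := fun e => hj (by rw [e])
          simp only [dv, Pi.sub_apply, Pi.single_apply, this, if_false]
          split_ifs with e
          · subst e; omega
          · omega
        have e := hf ⟨u, hc.2⟩ _ hz i
        have hA' : A (i, u) ≠ 0 := fun e => by have := haA (i, u); rw [e] at this; linarith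
        simp only [mul_eq_zero, (hpos _ hz).ne', hA', false_or, sub_add_cancel, sub_eq_zero,
          pow_eq_zero_iff two_ne_zero] at e
        rw [e]
        refine ih _ (mem_St.2 ((mem_St.1 hz).add (dv_row js is u) (fun j => dv_col is u)
          (fun c => dv_nonneg is u))) ?_
        have : ∀ c ∈ univ.filter (fun c : I × J => c.1 ≠ is ∧ c.2 ≠ js),
            (x - dv js i u + dv js is u) c + K c = x c + K c - if c = (i, u) then 1 else 0 := by
          intro c hc
          simp only [Finset.mem_filter, mem_univ, true_and] at hc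
          simp only [dv, Pi.sub_apply, Pi.add_apply, Pi.single_apply]; grind
        rw [Finset.sum_congr rfl this, Finset.sum_sub_distrib, h]
        simp [hc]
    intro x hx y hy
    have nn : ∀ x ∈ St js r cc K,
        0 ≤ ∑ c ∈ univ.filter (fun c : I × J => c.1 ≠ is ∧ c.2 ≠ js), (x c + K c) := fun x hx =>
      Finset.sum_nonneg fun c hc => by
        have := (mem_St.1 hx).2.2 c (Finset.mem_filter.1 hc).2.2; omega
    obtain ⟨x0, a1, a2, a3⟩ := step _ x hx (Int.toNat_of_nonneg (nn x hx)).symm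
    obtain ⟨y0, b1, b2, b3⟩ := step _ y hy (Int.toNat_of_nonneg (nn y hy)).symm
    rw [a3, b3, (mem_St.1 a1).ext is (mem_St.1 b1) fun c c1 c2 => by rw [a2 c c1 c2, b2 c c1 c2]]

end Vale.Agent.P328
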