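import Vale.Agent.P328.Smooth

namespace Vale.Agent.P328

open Finset Real

lemma split (B X : ℕ) (F : ℕ → ℕ → ℝ) :
    ∑ R ∈ range (B * X), F (R % B) (R / B) = ∑ a ∈ range B, ∑ b ∈ range X, F a b := by
  induction X with
  | zero => simp
  | succ X ih =>
    rw [Nat.mul_succ, Finset.sum_range_add, ih, ← Finset.sum_add_distrib]
    refine Finset.sum_congr rfl fun a ha => ?_
    rw [Finset.mem_range] at ha
    rw [Finset.sum_range_succ, Nat.mul_add_mod, Nat.mod_eq_of_lt ha, Nat.mul_add_div (by omega),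
      Nat.div_eq_of_lt ha, add_zero]

/-- averaging operator of a random map -/
noncomputable def Av {β : Type} (B : ℕ) (st : β → ℕ → β) (f : β → ℝ) (y : β) : ℝ :=
  (∑ ω ∈ range B, f (st y ω)) / B

lemma Av_abs {β : Type} {B : ℕ} (hB : 0 < B) (st : β → ℕ → β) {f : β → ℝ} (h : ∀ y, |f y| ≤ 1)
    (y : β) : |Av B st f y| ≤ 1 := by
  unfold Av
  rw [abs_div, Nat.abs_cast, div_le_one (by positivity)]
  refine (Finset.abs_sum_le_sum_abs _ _).trans ((Finset.sum_le_sum fun _ _ => h _).trans ?_)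
  simp

lemma Av_sub {β : Type} {B : ℕ} (hB : 0 < B) (st : β → ℕ → β) (a : ℝ) (t : ℕ) (f : β → ℝ) :
    (Av B st)^[t] (fun y => f y - a) = fun y => (Av B st)^[t] f y - a := by
  induction t with
  | zero => rfl
  | succ t ih =>
    funext y
    rw [Function.iterate_succ_apply', Function.iterate_succ_apply', ih]
    simp only [Av, Finset.sum_sub_distrib, Finset.sum_const, Finset.card_range, nsmul_eq_mul]
    field_simp

/-- consume one digit of the random number -/
def eat {β : Type} (B : ℕ) (st : β → ℕ → β) (p : β × ℕ) : β × ℕ := (st p.1 (p.2 % B), p.2 / B)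

lemma eat_sum {β : Type} {B : ℕ} (hB : 0 < B) (st : β → ℕ → β) {X : ℕ} (hX : 0 < X)
    (G : β × ℕ → ℝ) (t : ℕ) (y : β) :
    (∑ R ∈ range (B ^ t * X), G ((eat B st)^[t] (y, R))) / (B ^ t * X : ℕ) =
      (Av B st)^[t] (fun y => (∑ b ∈ range X, G (y, b)) / X) y := by
  induction t generalizing y with
  | zero => simp
  | succ t ih =>
    rw [pow_succ', mul_assoc]
    simp only [Function.iterate_succ_apply (eat B st), eat]
    rw [split B (B ^ t * X) fun a b => G ((eat B st)^[t] (st y a, b)),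
      Function.iterate_succ_apply' (Av B st), Av]
    simp only [← ih, ← Finset.sum_div]
    push_cast
    field_simp

namespace Par

variable {I J : Type} [Fintype I] [DecidableEq I] [Fintype J] [DecidableEq J] (P : Par I J)

/-- number of acceptance bits -/
def W : ℕ := P.Q ^ 2 * P.k0

lemma E_lip {y y' : I × J → ℤ} (h : ∀ c, |y c - y' c| ≤ 1) : P.E y' ≤ P.E y + P.W := by
  have a := P.tab_lip (x := fun c => P.h c * y c) (x' := fun c => P.h c * y' c) (β := fun n => n)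
    (fun a b h => by simp only; omega) (fun c => by positivity) fun c _ => by
      rw [← mul_sub, abs_mul, Nat.abs_cast]
      exact mul_le_of_le_one_right (by positivity) (h c)
  have b := pen_le P.κ2_nonneg (T := P.up y + P.g) (T' := P.up y' + P.g) (fun c => P.Q * P.h c)
    (fun c => by
      have := abs_le.1 (a c)
      simp only [Pi.add_apply, up]; omega) (fun c => by positivity)
  have d : ∑ c, P.κ2 c * ((P.Q * P.h c : ℤ) : ℝ) ≤ P.W := by
    refine (Finset.sum_le_sum (g := fun _ => (P.Q * P.k0 : ℝ)) fun c _ => ?_).trans ?_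
    · push_cast
      rw [mul_left_comm]
      exact mul_le_mul_of_nonneg_left (P.κ2_h c).1 (by positivity)
    · rw [Finset.sum_const, nsmul_eq_mul, Finset.card_univ, W]
      push_cast
      nlinarith [mul_le_mul_of_nonneg_right P.card_le (show (0 : ℝ) ≤ P.Q * P.k0 by positivity)]
  unfold E
  rw [← Nat.floor_add_natCast (P.pen_nonneg _)]
  exact Nat.floor_le_floor (by linarith)

/-- Metropolis filter -/
noncomputable def mv (y y' : I × J → ℤ) (v : ℕ) : I × J → ℤ :=
  if y' ∈ P.Y ∧ v < 2 ^ (P.W - (P.E y' - P.E y)) then y' else y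

/-- acceptance probability -/
noncomputable def acc (y y' : I × J → ℤ) : ℝ :=
  if y' ∈ P.Y then min (P.ν y) (P.ν y') / P.ν y else 0

lemma acc_nonneg (y y' : I × J → ℤ) : 0 ≤ P.acc y y' := by
  unfold acc
  split_ifs
  exacts [div_nonneg (le_min (P.ν_pos _).le (P.ν_pos _).le) (P.ν_pos _).le, le_rfl]

lemma acc_le (y y' : I × J → ℤ) : P.acc y y' ≤ 1 := by
  unfold acc
  split_ifs
  exacts [(div_le_one (P.ν_pos _)).2 (min_le_left _ _), zero_le_one]

lemma mv_sum (f : (I × J → ℤ) → ℝ) {y y' : I × J → ℤ} (h : ∀ c, |y c - y' c| ≤ 1) :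
    ∑ v ∈ range (2 ^ P.W), f (P.mv y y' v) = 2 ^ P.W * (f y + P.acc y y' * (f y' - f y)) := by
  have a := P.E_lip h
  unfold mv acc
  by_cases e : y' ∈ P.Y
  swap
  · simp [e]
  have b : (2 : ℝ) ^ (P.W - (P.E y' - P.E y)) = 2 ^ P.W * (min (P.ν y) (P.ν y') / P.ν y) := by
    unfold ν
    rcases le_total (P.E y') (P.E y) with d | d
    · rw [min_eq_left (pow_le_pow_of_le_one (by norm_num) (by norm_num) d), div_self (by positivity),
        Nat.sub_eq_zero_of_le d, mul_one, Nat.sub_zero]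
    · rw [min_eq_right (pow_le_pow_of_le_one (by norm_num) (by norm_num) d)]
      obtain ⟨k, hk⟩ := Nat.exists_eq_add_of_le d
      obtain ⟨l, hl⟩ := Nat.exists_eq_add_of_le (show k ≤ P.W by omega)
      rw [hk, hl, Nat.add_sub_cancel_left, Nat.add_sub_cancel_left, pow_add, pow_add, one_div,
        inv_pow, inv_pow]
      field_simp
  have d : ∀ v, f (if y' ∈ P.Y ∧ v < 2 ^ (P.W - (P.E y' - P.E y)) then y' else y) =
      f y + if v < 2 ^ (P.W - (P.E y' - P.E y)) then f y' - f y else 0 := fun v => by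
    simp only [e, true_and]; split_ifs <;> simp
  have g : (range (2 ^ P.W)).filter (fun v => v < 2 ^ (P.W - (P.E y' - P.E y))) =
      range (2 ^ (P.W - (P.E y' - P.E y))) := by
    have := Nat.pow_le_pow_right two_pos (Nat.sub_le P.W (P.E y' - P.E y))
    ext v; simp only [Finset.mem_filter, Finset.mem_range]; omega
  simp only [d]
  simp only [Finset.sum_add_distrib, ← Finset.sum_filter, g, Finset.sum_const, Finset.card_range,
    nsmul_eq_mul, e, if_true]
  push_cast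
  rw [b]; ring

/-- direction vector -/
def ev (ix : I × J → ℕ) (a : ℕ) (c : I × J) : ℤ := if ix c = a then 1 else 0

/-- proposal -/
def prop (ix : I × J → ℕ) (y : I × J → ℤ) (s a : ℕ) : I × J → ℤ :=
  if s = 0 then y + ev ix a else if s = 1 then y - ev ix a else y

/-- one step of the chain -/
noncomputable def step (ix : I × J → ℕ) (y : I × J → ℤ) (ω : ℕ) : I × J → ℤ :=
  P.mv y (prop ix y (ω % 4) (ω / 4 % P.Q)) (ω / 4 / P.Q)

/-- range of the random digit -/
def B : ℕ := 4 * (P.Q * 2 ^ P.W)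

omit [DecidableEq I] [DecidableEq J] in
lemma B_pos : 0 < P.B := by have := P.Q_pos; unfold B; positivity

lemma ev_sum {ix : I × J → ℕ} (h1 : Function.Injective ix) (h2 : ∀ c, ix c < P.Q)
    (F : (I × J → ℤ) → ℝ) (h0 : F 0 = 0) :
    ∑ a ∈ range P.Q, F (ev ix a) = ∑ c, F (Pi.single c 1) := by
  rw [← Finset.sum_subset (s₁ := univ.image ix) (fun a ha => by
    obtain ⟨c, -, rfl⟩ := Finset.mem_image.1 ha
    exact Finset.mem_range.2 (h2 c)) (fun a _ ha => ?_), Finset.sum_image fun _ _ _ _ e => h1 e]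
  · refine Finset.sum_congr rfl fun c _ => congrArg F (funext fun c' => ?_)
    simp [ev, h1.eq_iff, Pi.single_apply]
  · rw [← h0]
    congr 1
    funext c
    exact if_neg fun e => ha (Finset.mem_image.2 ⟨c, mem_univ _, e⟩)

lemma Av_eq {ix : I × J → ℕ} (h1 : Function.Injective ix) (h2 : ∀ c, ix c < P.Q)
    (f : (I × J → ℤ) → ℝ) (y : I × J → ℤ) : Av P.B (P.step ix) f y = f y + 1 / (4 * P.Q) *
      ∑ c, (P.acc y (y + Pi.single c 1) * (f (y + Pi.single c 1) - f y) +
        P.acc y (y - Pi.single c 1) * (f (y - Pi.single c 1) - f y)) := by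
  have q : (0 : ℝ) < P.Q := by exact_mod_cast P.Q_pos
  unfold Av step B
  rw [split 4 _ fun s b => f (P.mv y (prop ix y s (b % P.Q)) (b / P.Q))]
  have a : ∀ s, ∑ b ∈ range (P.Q * 2 ^ P.W), f (P.mv y (prop ix y s (b % P.Q)) (b / P.Q)) =
      2 ^ P.W * (P.Q * f y + ∑ a ∈ range P.Q, P.acc y (prop ix y s a) * (f (prop ix y s a) - f y)) := by
    intro s
    rw [split P.Q _ fun a v => f (P.mv y (prop ix y s a) v), Finset.sum_congr rfl fun a _ =>
      P.mv_sum f fun c => by unfold prop ev; split_ifs <;> simp [abs_le] <;> split_ifs <;> simp,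
      ← Finset.mul_sum, Finset.sum_add_distrib]
    simp
  simp only [a]
  simp only [Finset.sum_range_succ, Finset.sum_range_zero, prop]
  have b1 := P.ev_sum h1 h2 (fun e => P.acc y (y + e) * (f (y + e) - f y)) (by simp)
  have b2 := P.ev_sum h1 h2 (fun e => P.acc y (y - e) * (f (y - e) - f y)) (by simp)
  simp only [Finset.sum_add_distrib, ← b1, ← b2]
  simp
  field_simp
  ring

lemma shift (e : I × J → ℤ) (φ : (I × J → ℤ) → (I × J → ℤ) → ℝ) :
    ∑ y ∈ P.Y, P.ν y * (P.acc y (y - e) * φ y (y - e)) =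
      ∑ y ∈ P.Y, P.ν y * (P.acc y (y + e) * φ (y + e) y) := by
  have : ∀ y y' x, P.ν y * (P.acc y y' * x) = if y' ∈ P.Y then min (P.ν y) (P.ν y') * x else 0 := by
    intro y y' x
    have := (P.ν_pos y).ne'
    unfold acc; split_ifs
    · field_simp
    · simp
  simp only [this, ← Finset.sum_filter]
  refine Finset.sum_nbij' (· - e) (· + e) ?_ ?_ ?_ ?_ ?_ <;> simp +contextual [min_comm]

lemma expand (φ : (I × J → ℤ) → (I × J → ℤ) → ℝ) (f : (I × J → ℤ) → ℝ) (η : ℝ) :
    ∑ y ∈ P.Y, P.ν y * (f y + η * ∑ c, (P.acc y (y + Pi.single c 1) * φ y (y + Pi.single c 1) +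
      P.acc y (y - Pi.single c 1) * φ y (y - Pi.single c 1))) = ∑ y ∈ P.Y, P.ν y * f y +
      η * ∑ c, ∑ y ∈ P.Y, P.ν y * (P.acc y (y + Pi.single c 1) *
        (φ y (y + Pi.single c 1) + φ (y + Pi.single c 1) y)) := by
  simp only [mul_add _ (φ _ _), mul_add (P.ν _), Finset.sum_add_distrib, ← P.shift]
  congr 1
  rw [Finset.sum_comm (t := P.Y), Finset.sum_comm (t := P.Y), ← Finset.sum_add_distrib,
    Finset.mul_sum]
  refine Finset.sum_congr rfl fun y _ => ?_
  rw [← Finset.mul_sum, ← Finset.mul_sum]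
  ring

lemma En_eq (f : (I × J → ℤ) → ℝ) (c : I × J) : P.En f c =
    ∑ y ∈ P.Y, P.ν y * (P.acc y (y + Pi.single c 1) * (f (y + Pi.single c 1) - f y) ^ 2) := by
  rw [En, Finset.sum_filter]
  refine Finset.sum_congr rfl fun y _ => ?_
  have := (P.ν_pos y).ne'
  unfold acc; split_ifs
  · field_simp
  · simp

lemma Av_mean {ix : I × J → ℕ} (h1 : Function.Injective ix) (h2 : ∀ c, ix c < P.Q)
    (f : (I × J → ℤ) → ℝ) : ∑ y ∈ P.Y, P.ν y * Av P.B (P.step ix) f y = ∑ y ∈ P.Y, P.ν y * f y := by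
  simp only [P.Av_eq h1 h2]
  rw [P.expand (fun y y' => f y' - f y), Finset.sum_eq_zero (s := univ), mul_zero, add_zero]
  exact fun c _ => Finset.sum_eq_zero fun y _ => by ring

lemma Av_norm {ix : I × J → ℕ} (h1 : Function.Injective ix) (h2 : ∀ c, ix c < P.Q)
    (f : (I × J → ℤ) → ℝ) : ∑ y ∈ P.Y, P.ν y * Av P.B (P.step ix) f y ^ 2 ≤
      ∑ y ∈ P.Y, P.ν y * f y ^ 2 - 1 / (4 * P.Q) * ∑ c, P.En f c := by
  have q : (0 : ℝ) < P.Q := by exact_mod_cast P.Q_pos
  have a : ∀ y, Av P.B (P.step ix) f y ^ 2 ≤ f y ^ 2 + 1 / (4 * P.Q) * ∑ c,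
      (P.acc y (y + Pi.single c 1) * (2 * f y * (f (y + Pi.single c 1) - f y) +
        (f (y + Pi.single c 1) - f y) ^ 2 / 2) +
      P.acc y (y - Pi.single c 1) * (2 * f y * (f (y - Pi.single c 1) - f y) +
        (f (y - Pi.single c 1) - f y) ^ 2 / 2)) := by
    intro y
    rw [P.Av_eq h1 h2]
    have b := sq_sum_le_card_mul_sum_sq (s := univ) (f := fun c : I × J =>
      P.acc y (y + Pi.single c 1) * (f (y + Pi.single c 1) - f y) +
        P.acc y (y - Pi.single c 1) * (f (y - Pi.single c 1) - f y))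
    have d := Finset.sum_le_sum (s := univ) fun (c : I × J) _ =>
      show (P.acc y (y + Pi.single c 1) * (f (y + Pi.single c 1) - f y) +
        P.acc y (y - Pi.single c 1) * (f (y - Pi.single c 1) - f y)) ^ 2 ≤
        4 * (P.acc y (y + Pi.single c 1) * ((f (y + Pi.single c 1) - f y) ^ 2 / 2) +
        P.acc y (y - Pi.single c 1) * ((f (y - Pi.single c 1) - f y) ^ 2 / 2)) by
      have := P.acc_nonneg y (y + Pi.single c 1)
      have := P.acc_nonneg y (y - Pi.single c 1)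
      have := P.acc_le y (y + Pi.single c 1)
      have := P.acc_le y (y - Pi.single c 1)
      generalize P.acc y (y + Pi.single c 1) = a at *
      generalize P.acc y (y - Pi.single c 1) = b at *
      generalize f (y + Pi.single c 1) - f y = u
      generalize f (y - Pi.single c 1) - f y = v
      nlinarith [sq_nonneg (a * u - b * v), mul_nonneg (mul_nonneg ‹0 ≤ a› (sub_nonneg.2 ‹a ≤ 1›))
        (sq_nonneg u), mul_nonneg (mul_nonneg ‹0 ≤ b› (sub_nonneg.2 ‹b ≤ 1›)) (sq_nonneg v)]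
    replace b := b.trans (mul_le_mul P.card_le d (Finset.sum_nonneg fun _ _ => sq_nonneg _) q.le)
    simp only [mul_add, Finset.sum_add_distrib, mul_left_comm _ (2 * f y), ← Finset.mul_sum] at b ⊢
    have := mul_le_mul_of_nonneg_left b (sq_nonneg (1 / (4 * P.Q : ℝ)))
    have e : ∀ x : ℝ, (1 / (4 * P.Q : ℝ)) ^ 2 * (P.Q * (4 * x)) = 1 / (4 * P.Q) * x := fun x => by
      field_simp
    rw [mul_add, e, e] at this
    nlinarith
  refine (Finset.sum_le_sum fun y _ => mul_le_mul_of_nonneg_left (a y) (P.ν_pos y).le).trans_eq ?_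
  rw [P.expand (fun y y' => 2 * f y * (f y' - f y) + (f y' - f y) ^ 2 / 2), sub_eq_add_neg,
    ← mul_neg, ← Finset.sum_neg_distrib]
  congr 2
  refine Finset.sum_congr rfl fun c _ => ?_
  rw [En_eq, ← Finset.sum_neg_distrib]
  exact Finset.sum_congr rfl fun y _ => by ring

theorem mixing (hp : 1 ≤ P.p) {ix : I × J → ℕ} (h1 : Function.Injective ix) (h2 : ∀ c, ix c < P.Q)
    {φ : (I × J → ℤ) → ℝ} (hφ : ∀ y, 0 ≤ φ y ∧ φ y ≤ 1) {y0 : I × J → ℤ} (h0 : y0 ∈ P.Y)
    (h0' : P.ν y0 = 1) (t : ℕ) :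
    ((Av P.B (P.step ix))^[t] φ y0 - (∑ y ∈ P.Y, P.ν y * φ y) / ∑ y ∈ P.Y, P.ν y) ^ 2 ≤
      (∑ y ∈ P.Y, P.ν y) * (64 * P.Q ^ 2 / 2 ^ P.p + (1 - 1 / (4 * P.Q * P.M0)) ^ t) := by
  have q : (1 : ℝ) ≤ P.Q := by exact_mod_cast P.Q_pos
  have m : (1 : ℝ) ≤ P.M0 := by
    have := P.Q_pos
    exact_mod_cast (show 1 ≤ P.M0 by unfold M0; nlinarith [Nat.zero_le (144 * 4 ^ P.k0 * P.Q * P.R ^ 2)])
  obtain ⟨Z, hZ⟩ : ∃ Z, Z = ∑ y ∈ P.Y, P.ν y := ⟨_, rfl⟩
  have z : 0 < Z := hZ ▸ Finset.sum_pos (fun y _ => P.ν_pos y) ⟨_, h0⟩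
  obtain ⟨a, ha⟩ : ∃ a, a = (∑ y ∈ P.Y, P.ν y * φ y) / Z := ⟨_, rfl⟩
  have a0 : 0 ≤ a := ha ▸ div_nonneg (Finset.sum_nonneg fun y _ =>
    mul_nonneg (P.ν_pos y).le (hφ y).1) z.le
  have a1 : a ≤ 1 := ha ▸ (div_le_one z).2 (hZ ▸ Finset.sum_le_sum fun y _ =>
    mul_le_of_le_one_right (P.ν_pos y).le (hφ y).2)
  rw [← hZ, ← ha]
  obtain ⟨δ, hδ⟩ : ∃ δ : ℝ, δ = 64 * P.Q ^ 2 / 2 ^ P.p := ⟨_, rfl⟩
  have d0 : 0 ≤ δ := by rw [hδ]; positivity
  have key : ∀ t, (∀ y, |(Av P.B (P.step ix))^[t] (fun y => φ y - a) y| ≤ 1) ∧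
      ∑ y ∈ P.Y, P.ν y * (Av P.B (P.step ix))^[t] (fun y => φ y - a) y = 0 ∧
      ∑ y ∈ P.Y, P.ν y * (Av P.B (P.step ix))^[t] (fun y => φ y - a) y ^ 2 ≤
        Z * (δ + (1 - 1 / (4 * P.Q * P.M0)) ^ t) := by
    intro t
    induction t with
    | zero =>
      have : ∀ y, |φ y - a| ≤ 1 := fun y => by
        have := hφ y
        rw [abs_le]; constructor <;> linarith
      refine ⟨this, ?_, ?_⟩
      · simp only [Function.iterate_zero, id, mul_sub, Finset.sum_sub_distrib, ← Finset.sum_mul,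
          ← hZ, ha]
        field_simp; simp
      · refine (Finset.sum_le_sum fun y _ => mul_le_of_le_one_right (P.ν_pos y).le
          ((sq_le_one_iff_abs_le_one _).2 (this y))).trans ?_
        rw [← hZ, pow_zero]
        nlinarith
    | succ t ih =>
      rw [Function.iterate_succ_apply']
      generalize (Av P.B (P.step ix))^[t] (fun y => φ y - a) = f at *
      refine ⟨Av_abs P.B_pos _ ih.1, (P.Av_mean h1 h2 f).trans ih.2.1,
        (P.Av_norm h1 h2 f).trans ?_⟩
      obtain ⟨b, hb⟩ := P.weak hp f fun y _ => ih.1 y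
      rw [← hδ, ← hZ] at hb
      have e : ∑ y ∈ P.Y, P.ν y * (f y - b) ^ 2 = ∑ y ∈ P.Y, P.ν y * f y ^ 2 -
          2 * b * ∑ y ∈ P.Y, P.ν y * f y + b ^ 2 * Z := by
        rw [hZ, Finset.mul_sum, Finset.mul_sum, ← Finset.sum_sub_distrib, ← Finset.sum_add_distrib]
        exact Finset.sum_congr rfl fun _ _ => by ring
      rw [e, ih.2.1] at hb
      have l : 1 / (4 * P.Q * P.M0 : ℝ) ≤ 1 := by
        rw [div_le_one (by positivity)]; nlinarith
      have l0 : 0 ≤ 1 / (4 * P.Q * P.M0 : ℝ) := by positivity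
      have e2 : 1 / (4 * P.Q : ℝ) = 1 / (4 * P.Q * P.M0) * P.M0 := by field_simp
      rw [e2, pow_succ]
      generalize 1 / (4 * P.Q * P.M0 : ℝ) = l1 at *
      have g1 := mul_le_mul_of_nonneg_left hb l0
      have g2 := mul_le_mul_of_nonneg_left ih.2.2 (sub_nonneg.2 l)
      nlinarith [mul_nonneg l0 (mul_nonneg (sq_nonneg b) z.le)]
  have := (Finset.single_le_sum (fun y _ => mul_nonneg (P.ν_pos y).le (sq_nonneg _)) h0).trans
    (key t).2.2
  rwa [h0', one_mul, Av_sub P.B_pos, hδ] at this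

end Par

end Vale.Agent.P328
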