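import Mathlib

namespace Vale.Agent.P328

/-- Data: binary trees whose leaves are natural numbers (written in binary). -/
inductive Val where
  | num : ℕ → Val
  | pair : Val → Val → Val

/-- Length of the description of a value: number of bits at the leaves plus number of nodes. -/
def Val.size : Val → ℕ
  | .num n => Nat.size n + 1
  | .pair a b => a.size + b.size + 1

/-- The number held by a leaf. -/
def Val.toNat : Val → ℕ
  | .num n => n
  | .pair _ _ => 0

/-- First component. -/
def Val.fst : Val → Val
  | .num n => .num n
  | .pair a _ => a

/-- Second component. -/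
def Val.snd : Val → Val
  | .num n => .num n
  | .pair _ b => b

/-- `1` on pairs and `0` on leaves. -/
def Val.isPair : Val → ℕ
  | .num _ => 0
  | .pair _ _ => 1

/-- Programs: projections, constants, binary arithmetic, pairing, composition, branching and
counted loops. -/
inductive Prog where
  | id : Prog
  | fst : Prog
  | snd : Prog
  | isPair : Prog
  | const : ℕ → Prog
  | add : Prog
  | sub : Prog
  | mul : Prog
  | div : Prog
  | size : Prog
  | pair : Prog → Prog → Prog
  | comp : Prog → Prog → Prog
  | ite : Prog → Prog → Prog → Prog
  | loop : Prog → Prog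

/-- Output and running time of a program. A basic instruction costs the size of its argument
(its square for multiplication and division); a loop pays for every iteration. -/
def Prog.run : Prog → Val → Val × ℕ
  | .id, v => (v, v.size)
  | .fst, v => (v.fst, v.size)
  | .snd, v => (v.snd, v.size)
  | .isPair, v => (.num v.isPair, v.size + 1)
  | .const n, v => (.num n, v.size + Nat.size n + 1)
  | .add, v => (.num (v.fst.toNat + v.snd.toNat), v.size + 1)
  | .sub, v => (.num (v.fst.toNat - v.snd.toNat), v.size)
  | .mul, v => (.num (v.fst.toNat * v.snd.toNat), 2 * v.size ^ 2)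
  | .div, v => (.num (v.fst.toNat / v.snd.toNat), 2 * v.size ^ 2)
  | .size, v => (.num v.size, v.size + 1)
  | .pair p q, v => (.pair (p.run v).1 (q.run v).1, (p.run v).2 + (q.run v).2 + 1)
  | .comp p q, v => ((p.run (q.run v).1).1, (p.run (q.run v).1).2 + (q.run v).2 + 1)
  | .ite c p q, v =>
      if (c.run v).1.toNat = 0 then ((p.run v).1, (c.run v).2 + (p.run v).2 + 1)
      else ((q.run v).1, (c.run v).2 + (q.run v).2 + 1)
  | .loop p, v =>
      (fun s : Val × ℕ => ((p.run s.1).1, s.2 + (p.run s.1).2 + 1))^[v.fst.toNat] (v.snd, v.size)

/-- A list of values as nested pairs ending in the leaf `0`. -/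
def Val.ofList : List Val → Val
  | [] => .num 0
  | a :: l => .pair a (Val.ofList l)

/-- A list of numbers as a value. -/
def Val.ofNats (l : List ℕ) : Val := Val.ofList (l.map Val.num)

end Vale.Agent.P328
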