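import Vale.Agent.P328.Model

namespace Vale.Agent.P328

/-- encodings -/
class Enc (α : Type) where
  enc : α → Val

open Enc

instance : Enc ℕ := ⟨Val.num⟩
instance {α β : Type} [Enc α] [Enc β] : Enc (α × β) := ⟨fun p => .pair (enc p.1) (enc p.2)⟩
instance {α : Type} [Enc α] : Enc (List α) := ⟨fun l => Val.ofList (l.map enc)⟩
instance : Enc Val := ⟨id⟩

/-- size of an encoded object -/
def sz {α : Type} [Enc α] (a : α) : ℕ := (enc a).size

variable {α β γ : Type} [Enc α] [Enc β] [Enc γ]

lemma sz_nat (n : ℕ) : sz n = Nat.size n + 1 := rfl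
lemma sz_pair (a : α) (b : β) : sz (a, b) = sz a + sz b + 1 := rfl
lemma sz_nil : sz ([] : List α) = 1 := rfl
lemma sz_cons (a : α) (l : List α) : sz (a :: l) = sz a + sz l + 1 := rfl
lemma enc_nat (n : ℕ) : enc n = Val.num n := rfl
lemma enc_pair (a : α) (b : β) : enc (a, b) = Val.pair (enc a) (enc b) := rfl
lemma enc_cons (a : α) (l : List α) : enc (a :: l) = Val.pair (enc a) (enc l) := rfl
lemma enc_nil : enc ([] : List α) = Val.num 0 := rfl

lemma Val.size_pos (v : Val) : 0 < v.size := by cases v <;> simp [Val.size]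

lemma size_toNat (v : Val) : Nat.size v.toNat + 1 ≤ v.size := by
  cases v <;> simp [Val.size, Val.toNat]

lemma size_fst (v : Val) : v.fst.size ≤ v.size := by
  cases v <;> simp [Val.size, Val.fst]; omega

lemma size_snd (v : Val) : v.snd.size ≤ v.size := by
  cases v <;> simp [Val.size, Val.snd]; omega

lemma nsize_mul (a b : ℕ) : Nat.size (a * b) ≤ Nat.size a + Nat.size b := by
  rw [Nat.size_le, pow_add]
  exact Nat.mul_lt_mul'' (Nat.lt_size_self a) (Nat.lt_size_self b)

lemma nsize_add (a b k : ℕ) (ha : Nat.size a ≤ k) (hb : Nat.size b ≤ k) :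
    Nat.size (a + b) ≤ k + 1 := by
  rw [Nat.size_le] at *
  rw [pow_succ]; omega

lemma nsize_le_self (a : ℕ) : Nat.size a ≤ a := Nat.size_le.2 (Nat.lt_two_pow_self)

lemma run_size (p : Prog) (v : Val) : (p.run v).1.size ≤ (p.run v).2 := by
  induction p generalizing v with
  | id => exact le_rfl
  | fst => exact size_fst v
  | snd => exact size_snd v
  | isPair =>
    have := v.size_pos
    cases v <;> simp [Prog.run, Val.size, Val.isPair]
  | const n => simp [Prog.run, Val.size]
  | add =>
    have h1 := (size_toNat v.fst).trans (size_fst v)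
    have h2 := (size_toNat v.snd).trans (size_snd v)
    have := nsize_add v.fst.toNat v.snd.toNat (v.size - 1) (by omega) (by omega)
    simp only [Prog.run, Val.size]; omega
  | sub =>
    have h1 := (size_toNat v.fst).trans (size_fst v)
    have := Nat.size_le_size (Nat.sub_le v.fst.toNat v.snd.toNat)
    simp only [Prog.run, Val.size]; omega
  | mul =>
    have h1 := (size_toNat v.fst).trans (size_fst v)
    have h2 := (size_toNat v.snd).trans (size_snd v)
    have := nsize_mul v.fst.toNat v.snd.toNat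
    simp only [Prog.run, Val.size]; nlinarith
  | div =>
    have h1 := (size_toNat v.fst).trans (size_fst v)
    have := Nat.size_le_size (Nat.div_le_self v.fst.toNat v.snd.toNat)
    simp only [Prog.run, Val.size]; nlinarith
  | size =>
    have := nsize_le_self v.size
    simp only [Prog.run, Val.size]; omega
  | pair p q hp hq =>
    have := hp v
    have := hq v
    simp only [Prog.run, Val.size]; omega
  | comp p q hp hq =>
    have := hp (q.run v).1
    simp only [Prog.run]; omega
  | ite c p q _ hp hq =>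
    have := hp v
    have := hq v
    simp only [Prog.run]; split_ifs <;> simp only <;> omega
  | loop p hp =>
    simp only [Prog.run]
    induction v.fst.toNat with
    | zero => exact size_snd v
    | succ n _ =>
      rw [Function.iterate_succ_apply']
      have := hp ((fun s : Val × ℕ => ((p.run s.1).1, s.2 + (p.run s.1).2 + 1))^[n]
        (v.snd, v.size)).1
      simp only; omega

lemma eval_mono (q : Polynomial ℕ) {a b : ℕ} (h : a ≤ b) : q.eval a ≤ q.eval b := by
  induction q using Polynomial.induction_on' with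
  | add p q hp hq => simp only [Polynomial.eval_add]; omega
  | monomial n c =>
    simp only [Polynomial.eval_monomial]
    exact Nat.mul_le_mul_left _ (Nat.pow_le_pow_left h _)

/-- polynomially bounded in the size of the argument -/
@[fun_prop] def PB {α : Type} [Enc α] (t : α → ℕ) : Prop :=
  ∃ q : Polynomial ℕ, ∀ a, t a ≤ q.eval (sz a)

/-- computable in polynomial time -/
@[fun_prop] def PT {α β : Type} [Enc α] [Enc β] (f : α → β) : Prop :=
  ∃ p : Prog, (∀ a, (p.run (enc a)).1 = enc (f a)) ∧ PB fun a : α => (p.run (enc a)).2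

lemma PB.mono {s t : α → ℕ} (h : PB t) (hst : ∀ a, s a ≤ t a) : PB s :=
  let ⟨q, hq⟩ := h; ⟨q, fun a => (hst a).trans (hq a)⟩

@[fun_prop] lemma PB.const (c : ℕ) : PB fun _ : α => c := ⟨Polynomial.C c, by simp⟩

@[fun_prop] lemma PB.add {s t : α → ℕ} (hs : PB s) (ht : PB t) : PB fun a => s a + t a :=
  let ⟨p, hp⟩ := hs; let ⟨q, hq⟩ := ht
  ⟨p + q, fun a => by rw [Polynomial.eval_add]; exact Nat.add_le_add (hp a) (hq a)⟩

@[fun_prop] lemma PB.mul {s t : α → ℕ} (hs : PB s) (ht : PB t) : PB fun a => s a * t a :=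
  let ⟨p, hp⟩ := hs; let ⟨q, hq⟩ := ht
  ⟨p * q, fun a => by rw [Polynomial.eval_mul]; exact Nat.mul_le_mul (hp a) (hq a)⟩

@[fun_prop] lemma PB.pow {s : α → ℕ} (hs : PB s) (k : ℕ) : PB fun a => s a ^ k :=
  let ⟨p, hp⟩ := hs
  ⟨p ^ k, fun a => by rw [Polynomial.eval_pow]; exact Nat.pow_le_pow_left (hp a) _⟩

lemma PB.sz_id : PB fun a : α => sz a := ⟨Polynomial.X, by simp⟩

@[fun_prop] lemma PB.sz {f : α → β} (hf : PT f) : PB fun a => sz (f a) := by
  obtain ⟨p, h1, h2⟩ := hf
  exact h2.mono fun a => by unfold P328.sz; rw [← h1]; exact run_size _ _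

@[fun_prop] lemma PB.comp {t : β → ℕ} {f : α → β} (ht : PB t) (hf : PT f) :
    PB fun a => t (f a) := by
  obtain ⟨p, hp⟩ := ht
  obtain ⟨q, hq⟩ := PB.sz hf
  exact ⟨p.comp q, fun a => by
    rw [Polynomial.eval_comp]; exact (hp _).trans (eval_mono p (hq a))⟩

@[fun_prop] lemma PB.size {f : α → ℕ} (hf : PT f) : PB fun a => Nat.size (f a) :=
  (PB.sz hf).mono fun a => by rw [sz_nat]; omega

lemma length_le_sz (l : List α) : l.length ≤ sz l := by
  induction l with
  | nil => simp
  | cons a l ih => rw [sz_cons, List.length_cons]; omega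

@[fun_prop] lemma PB.length {f : α → List β} (hf : PT f) : PB fun a => (f a).length :=
  (PB.sz hf).mono fun _ => length_le_sz _

@[fun_prop] lemma PB.sub {s t : α → ℕ} (hs : PB s) : PB fun a => s a - t a :=
  hs.mono fun _ => Nat.sub_le _ _

@[fun_prop] lemma PT.id : PT fun a : α => a := ⟨.id, fun _ => rfl, PB.sz_id⟩

@[fun_prop] lemma PT.comp {g : β → γ} {f : α → β} (hg : PT g) (hf : PT f) :
    PT fun a => g (f a) := by
  obtain ⟨p, h1, h2⟩ := hg
  have hf' := hf
  obtain ⟨q, h3, h4⟩ := hf
  refine ⟨.comp p q, fun a => by simp only [Prog.run, h3, h1], ?_⟩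
  simp only [Prog.run, h3]
  exact ((h2.comp hf').add h4).add (PB.const 1)

@[fun_prop] lemma PT.pair {f : α → β} {g : α → γ} (hf : PT f) (hg : PT g) :
    PT fun a => (f a, g a) := by
  obtain ⟨p, h1, h2⟩ := hf
  obtain ⟨q, h3, h4⟩ := hg
  exact ⟨.pair p q, fun a => by simp only [Prog.run, h3, h1, enc_pair],
    (h2.add h4).add (PB.const 1)⟩

lemma PT.of_enc {f : α → β} {g : α → γ} (hf : PT f) (h : ∀ a, enc (f a) = enc (g a)) : PT g := by
  obtain ⟨p, h1, h2⟩ := hf
  exact ⟨p, fun a => (h1 a).trans (h a), h2⟩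

lemma PT.constVal (v : Val) : PT fun _ : α => v := by
  induction v with
  | num n => exact ⟨.const n, fun _ => rfl, (PB.sz_id.add (PB.const _)).add (PB.const 1)⟩
  | pair a b ha hb => exact (ha.pair hb).of_enc fun _ => rfl

@[fun_prop] lemma PT.const (b : β) : PT fun _ : α => b :=
  (PT.constVal (enc b)).of_enc fun _ => rfl

@[fun_prop] lemma PT.fst {f : α → β × γ} (hf : PT f) : PT fun a => (f a).1 :=
  PT.comp (g := Prod.fst) ⟨.fst, fun _ => rfl, PB.sz_id⟩ hf

@[fun_prop] lemma PT.snd {f : α → β × γ} (hf : PT f) : PT fun a => (f a).2 :=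
  PT.comp (g := Prod.snd) ⟨.snd, fun _ => rfl, PB.sz_id⟩ hf

@[fun_prop] lemma PT.add {f g : α → ℕ} (hf : PT f) (hg : PT g) : PT fun a => f a + g a :=
  PT.comp (g := fun p : ℕ × ℕ => p.1 + p.2) ⟨.add, fun _ => rfl, PB.sz_id.add (PB.const 1)⟩
    (hf.pair hg)

@[fun_prop] lemma PT.sub {f g : α → ℕ} (hf : PT f) (hg : PT g) : PT fun a => f a - g a :=
  PT.comp (g := fun p : ℕ × ℕ => p.1 - p.2) ⟨.sub, fun _ => rfl, PB.sz_id⟩ (hf.pair hg)

@[fun_prop] lemma PT.mul {f g : α → ℕ} (hf : PT f) (hg : PT g) : PT fun a => f a * g a :=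
  PT.comp (g := fun p : ℕ × ℕ => p.1 * p.2)
    ⟨.mul, fun _ => rfl, (PB.const 2).mul (PB.sz_id.pow 2)⟩ (hf.pair hg)

@[fun_prop] lemma PT.div {f g : α → ℕ} (hf : PT f) (hg : PT g) : PT fun a => f a / g a :=
  PT.comp (g := fun p : ℕ × ℕ => p.1 / p.2)
    ⟨.div, fun _ => rfl, (PB.const 2).mul (PB.sz_id.pow 2)⟩ (hf.pair hg)

@[fun_prop] lemma PT.szf {f : α → β} (hf : PT f) : PT fun a => sz (f a) :=
  PT.comp (g := P328.sz) ⟨.size, fun _ => rfl, PB.sz_id.add (PB.const 1)⟩ hf

@[fun_prop] lemma PT.size {f : α → ℕ} (hf : PT f) : PT fun a => Nat.size (f a) :=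
  (hf.szf.sub (PT.const 1)).of_enc fun _ => rfl

@[fun_prop] lemma PT.mod {f g : α → ℕ} (hf : PT f) (hg : PT g) : PT fun a => f a % g a := by
  simp only [Nat.mod_def]; fun_prop

@[fun_prop] lemma PT.min {f g : α → ℕ} (hf : PT f) (hg : PT g) : PT fun a => min (f a) (g a) := by
  have : ∀ a b : ℕ, Min.min a b = a - (a - b) := fun a b => by omega
  simp only [this]; fun_prop

@[fun_prop] lemma PT.max {f g : α → ℕ} (hf : PT f) (hg : PT g) : PT fun a => max (f a) (g a) := by
  have : ∀ a b : ℕ, Max.max a b = a + (b - a) := fun a b => by omega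
  simp only [this]; fun_prop

@[fun_prop] lemma PT.pow {f : α → ℕ} (hf : PT f) (k : ℕ) : PT fun a => f a ^ k := by
  induction k with
  | zero => simp only [pow_zero]; fun_prop
  | succ k ih => simp only [pow_succ]; fun_prop

/-- branching on zero -/
def cnd {β : Type} (n : ℕ) (x y : β) : β := if n = 0 then x else y

@[fun_prop] lemma PT.cnd {c : α → ℕ} {f g : α → β} (hc : PT c) (hf : PT f) (hg : PT g) :
    PT fun a => cnd (c a) (f a) (g a) := by
  obtain ⟨r, h0, h0'⟩ := hc
  obtain ⟨p, h1, h2⟩ := hf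
  obtain ⟨q, h3, h4⟩ := hg
  refine ⟨.ite r p q, fun a => ?_, (((h0'.add h2).add h4).add (PB.const 1)).mono fun a => ?_⟩
  · simp only [Prog.run, h0, enc_nat, Val.toNat, P328.cnd]
    split_ifs <;> simp only [h1, h3]
  · simp only [Prog.run]; split_ifs <;> simp only <;> omega

@[fun_prop] lemma PT.cons {f : α → β} {g : α → List β} (hf : PT f) (hg : PT g) :
    PT fun a => f a :: g a := (hf.pair hg).of_enc fun _ => rfl

@[fun_prop] lemma PT.tail {g : α → List β} (hg : PT g) : PT fun a => (g a).tail :=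
  PT.comp (g := List.tail) ⟨.snd, fun l => by cases l <;> rfl, PB.sz_id⟩ hg

lemma PT.isNil {g : α → List β} (hg : PT g) : PT fun a => Min.min (g a).length 1 :=
  PT.comp (g := fun l : List β => Min.min l.length 1)
    ⟨.isPair, fun l => by cases l <;> simp [Prog.run, enc_nil, enc_cons, enc_nat, Val.isPair],
      PB.sz_id.add (PB.const 1)⟩ hg

@[fun_prop] lemma PT.headD {g : α → List β} {d : α → β} (hg : PT g) (hd : PT d) :
    PT fun a => (g a).headD (d a) := by
  have h1 : PT fun a => (enc (g a)).fst :=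
    PT.comp (g := fun l : List β => (enc l).fst) ⟨.fst, fun _ => rfl, PB.sz_id⟩ hg
  have h2 : PT fun a => enc (d a) := hd.of_enc fun _ => rfl
  refine (PT.cnd hg.isNil h2 h1).of_enc fun a => ?_
  cases g a <;> simp [P328.cnd] <;> rfl

lemma PT.iter0 {n : α → ℕ} {s : α → β} {f : β → β} (hn : PT n) (hn' : PB n) (hs : PT s)
    (hf : PT f) {t : α → ℕ} (ht : PB t) (h : ∀ a, ∀ i ≤ n a, sz (f^[i] (s a)) ≤ t a) :
    PT fun a => f^[n a] (s a) := by
  obtain ⟨p, h1, q, h2⟩ := hf
  have key : ∀ (b : β) (c B k : ℕ), (∀ i ≤ k, sz (f^[i] b) ≤ B) →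
      ((fun s : Val × ℕ => ((p.run s.1).1, s.2 + (p.run s.1).2 + 1))^[k] (enc b, c)).1 =
        enc (f^[k] b) ∧
      ((fun s : Val × ℕ => ((p.run s.1).1, s.2 + (p.run s.1).2 + 1))^[k] (enc b, c)).2 ≤
        c + k * (q.eval B + 1) := by
    intro b c B k hk
    induction k with
    | zero => simp
    | succ k ih =>
      obtain ⟨a1, a2⟩ := ih fun i hi => hk i (by omega)
      rw [Function.iterate_succ_apply', Function.iterate_succ_apply']
      simp only [a1, h1, true_and]
      have : (p.run (enc (f^[k] b))).2 ≤ _ := (h2 (f^[k] b)).trans (eval_mono q (hk k (by omega)))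
      rw [Nat.succ_mul]; omega
  obtain ⟨r, h3, h4⟩ := hn.pair hs
  obtain ⟨q', hq'⟩ := ht
  have hB : PB fun a => q.eval (t a) := ⟨q.comp q', fun a => by
    rw [Polynomial.eval_comp]; exact eval_mono q (hq' a)⟩
  refine ⟨.comp (.loop p) r, fun a => ?_, ((((PB.sz (hn.pair hs)).add
    (hn'.mul (hB.add (PB.const 1)))).add h4).add (PB.const 1)).mono fun a => ?_⟩
  · simp only [Prog.run, h3]
    exact (key (s a) _ (t a) (n a) (h a)).1
  · simp only [Prog.run, h3]
    have := (key (s a) (sz (n a, s a)) (t a) (n a) (h a)).2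
    exact Nat.add_le_add_right (Nat.add_le_add_right this _) _

lemma PT.iter {n : α → ℕ} {s : α → β} {f : α → β → β} (hn : PT n) (hn' : PB n) (hs : PT s)
    (hf : PT fun p : α × β => f p.1 p.2) {t : α → ℕ} (ht : PB t)
    (h : ∀ a b, sz (f a b) ≤ sz b + t a) : PT fun a => (f a)^[n a] (s a) := by
  have e : ∀ a i b, (fun p : α × β => (p.1, f p.1 p.2))^[i] (a, b) = (a, (f a)^[i] b) := by
    intro a i b
    induction i with
    | zero => rfl
    | succ i ih => rw [Function.iterate_succ_apply', Function.iterate_succ_apply', ih]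
  have := PT.iter0 (s := fun a => (a, s a)) (f := fun p : α × β => (p.1, f p.1 p.2)) hn hn'
    (by fun_prop) (by fun_prop) (t := fun a => sz a + sz (s a) + n a * t a + 1)
    (((PB.sz_id.add (PB.sz hs)).add (hn'.mul ht)).add (PB.const 1)) (fun a i hi => by
      rw [e, sz_pair]
      have : ∀ i, sz ((f a)^[i] (s a)) ≤ sz (s a) + i * t a := by
        intro i
        induction i with
        | zero => simp
        | succ i ih =>
          rw [Function.iterate_succ_apply', Nat.succ_mul]
          have := h a ((f a)^[i] (s a))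
          omega
      have h1 := this i
      have h2 := Nat.mul_le_mul_right (t a) hi
      omega)
  simpa only [e] using this.snd

lemma sz_pos (a : α) : 0 < sz a := Val.size_pos _

lemma sz_tail (l : List α) : sz l.tail ≤ sz l := by
  cases l
  · exact le_rfl
  · rw [sz_cons, List.tail_cons]; omega

lemma sz_add (a b : ℕ) : sz (a + b) ≤ sz a + sz b := by
  have := nsize_add a b (Nat.size a + Nat.size b) (by omega) (by omega)
  simp only [sz_nat]; omega

lemma sz_succ (a : ℕ) : sz (a + 1) ≤ sz a + 1 := by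
  by_cases h : a = 0
  · subst h; decide
  have : 0 < Nat.size a := Nat.size_pos.2 (by omega)
  have := nsize_add a 1 (Nat.size a) le_rfl (by simp; omega)
  simp only [sz_nat]; omega

lemma sz_mul (a b : ℕ) : sz (a * b) ≤ sz a + sz b := by
  have := nsize_mul a b
  simp only [sz_nat]; omega

lemma sz_mono {a b : ℕ} (h : a ≤ b) : sz a ≤ sz b := by
  have := Nat.size_le_size h
  simp only [sz_nat]; omega

omit [Enc α] in
lemma tail_iter (l : List α) (i : ℕ) : List.tail^[i] l = l.drop i := by
  induction i with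
  | zero => rfl
  | succ i ih => rw [Function.iterate_succ_apply', ih, List.tail_drop]

@[fun_prop] lemma PT.length {g : α → List β} (hg : PT g) : PT fun a => (g a).length := by
  have e : ∀ (l : List β) i, (fun p : ℕ × List β => (p.1 + Min.min p.2.length 1, p.2.tail))^[i]
      (0, l) = (Min.min l.length i, l.drop i) := by
    intro l i
    induction i with
    | zero => simp
    | succ i ih =>
      rw [Function.iterate_succ_apply', ih]
      simp only [List.tail_drop, List.length_drop, Prod.mk.injEq, and_true]; omega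
  have h0 : PT fun p : α × ℕ × List β => Min.min p.2.2.length 1 := PT.isNil (by fun_prop)
  have := PT.iter (n := fun a => P328.sz (g a)) (s := fun a => ((0 : ℕ), g a))
    (f := fun _ p => (p.1 + Min.min p.2.length 1, p.2.tail)) hg.szf (PB.sz hg) (by fun_prop)
    (PT.pair (PT.add (by fun_prop) h0) (by fun_prop)) (PB.const 1) (fun a b => by
      obtain ⟨x, l⟩ := b
      have := sz_tail l
      have := (sz_mono (show x + Min.min l.length 1 ≤ x + 1 by omega)).trans (sz_succ x)
      simp only [sz_pair]; omega)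
  refine this.fst.of_enc fun a => ?_
  simp only [e, Nat.min_eq_left (length_le_sz _)]

@[fun_prop] lemma PT.getD {g : α → List β} {i : α → ℕ} {d : α → β} (hg : PT g) (hi : PT i)
    (hd : PT d) : PT fun a => (g a).getD (i a) (d a) := by
  have := PT.iter (n := fun a => Min.min (g a).length (i a)) (s := g) (f := fun _ l => l.tail)
    (by fun_prop) ((PB.length hg).mono fun _ => Nat.min_le_left _ _) hg (by fun_prop) (PB.const 0)
    (fun _ l => sz_tail l)
  refine (this.headD hd).of_enc fun a => ?_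
  congr 1
  rw [tail_iter, List.headD_eq_head?_getD, List.head?_drop, List.getD_eq_getElem?_getD]
  rcases le_total (g a).length (i a) with h | h
  · rw [Nat.min_eq_left h, List.getElem?_eq_none le_rfl, List.getElem?_eq_none h]
  · rw [Nat.min_eq_right h]

@[fun_prop] lemma PT.npow {b e : α → ℕ} (hb : PT b) (he : PT e) (he' : PB e) :
    PT fun a => b a ^ e a := by
  have := PT.iter (s := fun _ => (1 : ℕ)) (f := fun a x => x * b a) he he' (by fun_prop)
    (by fun_prop) (PB.sz hb) (fun a x => sz_mul _ _)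
  refine this.of_enc fun a => ?_
  congr 1
  induction e a with
  | zero => simp
  | succ k ih => rw [Function.iterate_succ_apply', ih, pow_succ]

/-- indexed loop -/
def rep {β : Type} (n : ℕ) (f : ℕ → β → β) (s : β) : β := Nat.rec s f n

lemma rep_zero {β : Type} (f : ℕ → β → β) (s : β) : rep 0 f s = s := rfl
lemma rep_succ {β : Type} (n : ℕ) (f : ℕ → β → β) (s : β) : rep (n + 1) f s = f n (rep n f s) := rfl

lemma PT.rep {n : α → ℕ} {s : α → β} {f : α → ℕ → β → β} (hn : PT n) (hn' : PB n) (hs : PT s)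
    (hf : PT fun p : α × ℕ × β => f p.1 p.2.1 p.2.2) {t : α × ℕ → ℕ} (ht : PB t)
    (h : ∀ a i b, P328.sz (f a i b) ≤ P328.sz b + t (a, i)) :
    PT fun a => rep (n a) (f a) (s a) := by
  obtain ⟨q, hq⟩ := ht
  have hB : PB fun a => q.eval (P328.sz (a, n a)) + 1 :=
    (PB.comp (t := fun p : α × ℕ => q.eval (P328.sz p)) ⟨q, fun _ => le_rfl⟩
      (PT.id.pair hn)).add (PB.const 1)
  have h1 : PT fun p : α × ℕ × β => f p.1 (Min.min p.2.1 (n p.1)) p.2.2 :=
    PT.comp (f := fun p : α × ℕ × β => (p.1, Min.min p.2.1 (n p.1), p.2.2)) hf (by fun_prop)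
  have := PT.iter (s := fun a => ((0 : ℕ), s a))
    (f := fun a p => (p.1 + 1, f a (Min.min p.1 (n a)) p.2)) hn hn' (by fun_prop)
    (PT.pair (by fun_prop) h1) hB (fun a b => by
      obtain ⟨i, b⟩ := b
      have h2 := h a (Min.min i (n a)) b
      have h3 := (hq (a, Min.min i (n a))).trans (eval_mono q (show _ ≤ P328.sz (a, n a) by
        have := sz_mono (Nat.min_le_right i (n a))
        simp only [sz_pair]; omega))
      have := sz_succ i
      simp only [sz_pair] at *; omega)
  refine this.snd.of_enc fun a => ?_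
  congr 1
  have : ∀ i ≤ n a, (fun p : ℕ × β => (p.1 + 1, f a (Min.min p.1 (n a)) p.2))^[i] (0, s a) =
      (i, P328.rep i (f a) (s a)) := by
    intro i hi
    induction i with
    | zero => rfl
    | succ i ih =>
      rw [Function.iterate_succ_apply', ih (by omega), rep_succ, Nat.min_eq_left (by omega)]
  rw [this _ le_rfl]

/-- finite sum -/
def sumR (n : ℕ) (f : ℕ → ℕ) : ℕ := ∑ i ∈ Finset.range n, f i

@[fun_prop] lemma PT.sumR {n : α → ℕ} {f : α → ℕ → ℕ} (hn : PT n) (hn' : PB n)
    (hf : PT fun p : α × ℕ => f p.1 p.2) : PT fun a => sumR (n a) (f a) := by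
  have := PT.rep (s := fun _ => (0 : ℕ)) (f := fun a i x => x + f a i) hn hn' (by fun_prop)
    (PT.add (by fun_prop) (PT.comp (f := fun p : α × ℕ × ℕ => (p.1, p.2.1)) hf (by fun_prop)))
    (PB.sz hf) (fun a i x => sz_add _ _)
  refine this.of_enc fun a => ?_
  congr 1
  induction n a with
  | zero => rfl
  | succ k ih => rw [rep_succ, ih, P328.sumR, P328.sumR, Finset.sum_range_succ]

/-- tabulation -/
def mapR {β : Type} (n : ℕ) (f : ℕ → β) : List β := (List.range n).map f

@[fun_prop] lemma PT.mapR {n : α → ℕ} {f : α → ℕ → β} (hn : PT n) (hn' : PB n)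
    (hf : PT fun p : α × ℕ => f p.1 p.2) : PT fun a => mapR (n a) (f a) := by
  have h1 : PT fun p : α × ℕ => f p.1 (n p.1 - 1 - p.2) :=
    PT.comp (f := fun p : α × ℕ => (p.1, n p.1 - 1 - p.2)) hf (by fun_prop)
  have := PT.rep (s := fun _ => ([] : List β)) (f := fun a i l => f a (n a - 1 - i) :: l) hn hn'
    (by fun_prop) (PT.cons (PT.comp (f := fun p : α × ℕ × List β => (p.1, p.2.1)) h1 (by fun_prop))
      (by fun_prop)) ((PB.sz h1).add (PB.const 1)) (fun a i l => by rw [sz_cons]; simp only; omega)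
  refine this.of_enc fun a => ?_
  congr 1
  have : ∀ i ≤ n a, P328.rep i (fun i l => f a (n a - 1 - i) :: l) [] =
      (List.range' (n a - i) i).map (f a) := by
    intro i hi
    induction i with
    | zero => rfl
    | succ i ih =>
      rw [rep_succ, ih (by omega), List.range'_succ, List.map_cons,
        show n a - 1 - i = n a - (i + 1) by omega, show n a - (i + 1) + 1 = n a - i by omega]
  rw [this _ le_rfl, P328.mapR, List.range_eq_range', Nat.sub_self]

end Vale.Agent.P328
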