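import Vale.Agent.P328.PT

namespace Vale.Agent.P328

open Enc

variable {α β γ : Type} [Enc α] [Enc β] [Enc γ]

instance : Enc ℤ := ⟨fun z => .pair (.num z.toNat) (.num (-z).toNat)⟩

@[fun_prop] lemma PT.toNat {f : α → ℤ} (hf : PT f) : PT fun a => (f a).toNat :=
  PT.comp (g := Int.toNat) ⟨.fst, fun _ => rfl, PB.sz_id⟩ hf

lemma PT.negNat {f : α → ℤ} (hf : PT f) : PT fun a => (-f a).toNat :=
  PT.comp (g := fun z : ℤ => (-z).toNat) ⟨.snd, fun _ => rfl, PB.sz_id⟩ hf

lemma PT.ofSub {f g : α → ℕ} (hf : PT f) (hg : PT g) {u : α → ℤ} (h : ∀ a, u a = f a - g a) :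
    PT u := ((hf.sub hg).pair (hg.sub hf)).of_enc fun a => by
  change Val.pair (.num _) (.num _) = Val.pair (.num _) (.num _)
  rw [h]; congr 2 <;> omega

@[fun_prop] lemma PT.cast {f : α → ℕ} (hf : PT f) : PT fun a => (f a : ℤ) :=
  hf.ofSub (PT.const 0) fun _ => by simp

@[fun_prop] lemma PT.neg {f : α → ℤ} (hf : PT f) : PT fun a => -f a :=
  hf.negNat.ofSub hf.toNat fun _ => by omega

@[fun_prop] lemma PT.addZ {f g : α → ℤ} (hf : PT f) (hg : PT g) : PT fun a => f a + g a :=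
  (hf.toNat.add hg.toNat).ofSub (hf.negNat.add hg.negNat) fun _ => by omega

@[fun_prop] lemma PT.subZ {f g : α → ℤ} (hf : PT f) (hg : PT g) : PT fun a => f a - g a :=
  (hf.toNat.add hg.negNat).ofSub (hf.negNat.add hg.toNat) fun _ => by omega

@[fun_prop] lemma PT.mulZ {f g : α → ℤ} (hf : PT f) (hg : PT g) : PT fun a => f a * g a :=
  ((hf.toNat.mul hg.toNat).add (hf.negNat.mul hg.negNat)).ofSub
    ((hf.toNat.mul hg.negNat).add (hf.negNat.mul hg.toNat)) fun a => by
      conv_lhs => rw [← Int.toNat_sub_toNat_neg (f a), ← Int.toNat_sub_toNat_neg (g a)]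
      push_cast; ring

/-- finite integer sum -/
def sumZ (n : ℕ) (f : ℕ → ℤ) : ℤ := ∑ i ∈ Finset.range n, f i

@[fun_prop] lemma PT.sumZ {n : α → ℕ} {f : α → ℕ → ℤ} (hn : PT n) (hn' : PB n)
    (hf : PT fun p : α × ℕ => f p.1 p.2) : PT fun a => sumZ (n a) (f a) :=
  (PT.sumR (f := fun a i => (f a i).toNat) hn hn' hf.toNat).ofSub
    (PT.sumR (f := fun a i => (-f a i).toNat) hn hn' hf.negNat) fun a => by
      simp only [P328.sumZ, P328.sumR]
      push_cast
      rw [← Finset.sum_sub_distrib]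
      exact Finset.sum_congr rfl fun _ _ => by omega

/-- decidable in polynomial time -/
@[fun_prop] def PD {α : Type} [Enc α] (p : α → Prop) : Prop :=
  ∃ f : α → ℕ, PT f ∧ ∀ a, f a = 0 ↔ p a

@[fun_prop] lemma PT.ite {p : α → Prop} [∀ a, Decidable (p a)] {u v : α → β} (hp : PD p)
    (hu : PT u) (hv : PT v) : PT fun a => if p a then u a else v a := by
  obtain ⟨f, h1, h2⟩ := hp
  exact (PT.cnd h1 hu hv).of_enc fun a => by simp only [P328.cnd, h2]

@[fun_prop] lemma PD.comp {p : β → Prop} {f : α → β} (hp : PD p) (hf : PT f) :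
    PD fun a => p (f a) :=
  let ⟨_, h1, h2⟩ := hp; ⟨_, h1.comp hf, fun _ => h2 _⟩

@[fun_prop] lemma PD.le {f g : α → ℕ} (hf : PT f) (hg : PT g) : PD fun a => f a ≤ g a :=
  ⟨_, hf.sub hg, fun _ => by omega⟩

@[fun_prop] lemma PD.lt {f g : α → ℕ} (hf : PT f) (hg : PT g) : PD fun a => f a < g a :=
  ⟨_, (hf.add (PT.const 1)).sub hg, fun _ => by omega⟩

@[fun_prop] lemma PD.eq {f g : α → ℕ} (hf : PT f) (hg : PT g) : PD fun a => f a = g a :=
  ⟨_, (hf.sub hg).add (hg.sub hf), fun _ => by omega⟩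

@[fun_prop] lemma PD.leZ {f g : α → ℤ} (hf : PT f) (hg : PT g) : PD fun a => f a ≤ g a :=
  ⟨_, (hf.subZ hg).toNat, fun _ => by omega⟩

@[fun_prop] lemma PD.eqZ {f g : α → ℤ} (hf : PT f) (hg : PT g) : PD fun a => f a = g a :=
  ⟨_, (hf.subZ hg).toNat.add (hg.subZ hf).toNat, fun _ => by omega⟩

@[fun_prop] lemma PD.and {p q : α → Prop} (hp : PD p) (hq : PD q) : PD fun a => p a ∧ q a :=
  let ⟨_, h1, h2⟩ := hp; let ⟨_, h3, h4⟩ := hq
  ⟨_, h1.add h3, fun a => by simp only [← h2, ← h4]; omega⟩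

@[fun_prop] lemma PD.or {p q : α → Prop} (hp : PD p) (hq : PD q) : PD fun a => p a ∨ q a :=
  let ⟨_, h1, h2⟩ := hp; let ⟨_, h3, h4⟩ := hq
  ⟨_, h1.mul h3, fun a => by simp only [← h2, ← h4, Nat.mul_eq_zero]⟩

@[fun_prop] lemma PD.not {p : α → Prop} (hp : PD p) : PD fun a => ¬ p a :=
  let ⟨_, h1, h2⟩ := hp
  ⟨_, (PT.const 1).sub h1, fun a => by simp only [← h2]; omega⟩

/-- bounded quantifier -/
def allR (n : ℕ) (p : ℕ → Prop) : Prop := ∀ i < n, p i

instance (n : ℕ) (p : ℕ → Prop) [DecidablePred p] : Decidable (allR n p) := by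
  unfold allR; infer_instance

@[fun_prop] lemma PD.allR {n : α → ℕ} {p : α → ℕ → Prop} (hn : PT n) (hn' : PB n)
    (hp : PD fun q : α × ℕ => p q.1 q.2) : PD fun a => allR (n a) (p a) :=
  let ⟨f, h1, h2⟩ := hp
  ⟨_, PT.sumR (f := fun a i => f (a, i)) hn hn' h1, fun a => by
    simp only [sumR, Finset.sum_eq_zero_iff, Finset.mem_range, h2, P328.allR]⟩

lemma sz_int (z e : ℤ) (h : |e| ≤ 1) : sz (z + e) ≤ sz z + 2 := by
  have := abs_le.1 h
  have a := (sz_mono (show (z + e).toNat ≤ z.toNat + 1 by omega)).trans (sz_succ _)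
  have b := (sz_mono (show (-(z + e)).toNat ≤ (-z).toNat + 1 by omega)).trans (sz_succ _)
  change sz (z + e).toNat + sz (-(z + e)).toNat + 1 ≤ sz z.toNat + sz (-z).toNat + 1 + 2
  omega

lemma sz_mapR (n : ℕ) (f : ℕ → β) : sz (mapR n f) = ∑ i ∈ Finset.range n, (sz (f i) + 1) + 1 := by
  induction n generalizing f with
  | zero => rfl
  | succ n ih =>
    have := ih fun i => f (i + 1)
    rw [mapR] at this
    rw [mapR, List.range_succ_eq_map, List.map_cons, List.map_map, sz_cons, Finset.sum_range_succ']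
    simp only [Function.comp_def, Nat.succ_eq_add_one]
    omega

lemma sz_getD (l : List β) (d : β) (n : ℕ) :
    ∑ i ∈ Finset.range n, sz (l.getD i d) ≤ sz l + n * sz d := by
  induction n generalizing l with
  | zero => simp
  | succ n ih =>
    rw [Finset.sum_range_succ', Nat.succ_mul]
    cases l with
    | nil => simp [sz_nil]
    | cons a l =>
      have := ih l
      simp only [List.getD_cons_succ, List.getD_cons_zero, sz_cons]
      omega

end Vale.Agent.P328
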