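import Vale.Agent.P328.Switch

namespace Vale.Agent.P328

open Finset Real

/-- parameters of the sampler -/
structure Par (I J : Type) [Fintype I] [Fintype J] where
  is : I
  js : J
  r : I → ℕ
  cc : J → ℕ
  Q : ℕ
  k0 : ℕ
  p : ℕ
  hf : ℕ → ℕ
  sum_eq : ∑ i, r i = ∑ j, cc j
  r_max : ∀ i, r i ≤ r is
  c_max : ∀ j, cc j ≤ cc js
  hI : Fintype.card I ≤ Q
  hJ : Fintype.card J ≤ Q
  hQ : Fintype.card I * Fintype.card J ≤ Q
  hk : 4 * Q ^ 2 ≤ 2 ^ k0
  hf_mono : Monotone hf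
  hf_pos : ∀ s, 1 ≤ hf s
  hf_le : ∀ s, hf s ≠ 1 → 5 * Q ^ 6 * k0 * hf s ≤ s
  hf_ge : ∀ s, s ≤ 3 * (5 * Q ^ 6 * k0) * hf s

namespace Par

variable {I J : Type} [Fintype I] [DecidableEq I] [Fintype J] [DecidableEq J] (P : Par I J)

/-- row sums -/
def rz (i : I) : ℤ := P.r i
/-- column sums -/
def cz (j : J) : ℤ := P.cc j
/-- mesh -/
def h (c : I × J) : ℕ := P.hf (min (P.r c.1) (P.cc c.2))
/-- wall depth -/
def PP : ℕ := P.Q ^ 3 * P.p + 2 * P.Q
/-- slack -/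
def g (c : I × J) : ℤ := P.Q * (P.h c - 1)
/-- walls -/
def K (t : ℕ) (c : I × J) : ℤ := P.PP * P.h c + t * P.g c
/-- rates in base two -/
noncomputable def κ2 (c : I × J) : ℝ := if P.h c = 1 then P.k0 else 1 / (P.Q ^ 2 * P.h c)
/-- rates -/
noncomputable def κ (c : I × J) : ℝ := log 2 * P.κ2 c
/-- signed tables -/
noncomputable def S (t : ℕ) : Finset (I × J → ℤ) := St P.js P.rz P.cz (P.K t)
/-- valid tables -/
noncomputable def Ω : Finset (I × J → ℤ) := St P.js P.rz P.cz 0 |>.filter fun T => ∀ c, 0 ≤ T c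

omit [DecidableEq I] [DecidableEq J] in
lemma Q_pos : 1 ≤ P.Q := le_trans (Fintype.card_pos_iff.2 ⟨P.is⟩) P.hI

omit [DecidableEq I] [DecidableEq J] in
lemma k0_pos : 1 ≤ P.k0 := by
  by_contra h
  have h1 := P.hk
  have := P.Q_pos
  rw [show P.k0 = 0 by omega] at h1
  nlinarith

omit [DecidableEq I] [DecidableEq J] in
lemma h_pos (c : I × J) : 1 ≤ P.h c := P.hf_pos _

omit [DecidableEq I] [DecidableEq J] in
lemma g_nonneg (c : I × J) : 0 ≤ P.g c := by
  have := P.h_pos c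
  exact mul_nonneg (by positivity) (by omega)

omit [DecidableEq I] [DecidableEq J] in
lemma K_nonneg (t : ℕ) (c : I × J) : 0 ≤ P.K t c := by
  have := P.g_nonneg c
  unfold K; positivity

omit [DecidableEq I] [DecidableEq J] in
lemma κ2_nonneg (c : I × J) : 0 ≤ P.κ2 c := by unfold κ2; split_ifs <;> positivity

omit [DecidableEq I] [DecidableEq J] in
lemma κ_nonneg (c : I × J) : 0 ≤ P.κ c := mul_nonneg (log_nonneg one_le_two) (P.κ2_nonneg c)

omit [DecidableEq I] [DecidableEq J] in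
lemma κ2_h (c : I × J) : P.κ2 c * P.h c ≤ P.k0 ∧ 1 ≤ P.κ2 c * (P.Q ^ 2 * P.h c) := by
  have a : (1 : ℝ) ≤ P.Q := by exact_mod_cast P.Q_pos
  have b : (1 : ℝ) ≤ P.k0 := by exact_mod_cast P.k0_pos
  have d : (1 : ℝ) ≤ P.h c := by exact_mod_cast P.h_pos c
  have e : (1 : ℝ) ≤ P.Q ^ 2 := one_le_pow₀ a
  unfold κ2
  split_ifs with h
  · rw [h, Nat.cast_one, mul_one, mul_one]
    exact ⟨le_rfl, one_le_mul_of_one_le_of_one_le b e⟩
  · constructor
    · rw [div_mul_eq_mul_div, div_le_iff₀ (by positivity), ← mul_assoc]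
      exact mul_le_mul_of_nonneg_right (one_le_mul_of_one_le_of_one_le b e) (by positivity)
    · rw [one_div, inv_mul_cancel₀ (by positivity)]

omit [DecidableEq I] [DecidableEq J] in
lemma κ2_le (c : I × J) : P.κ2 c ≤ P.k0 := by
  have d : (1 : ℝ) ≤ P.h c := by exact_mod_cast P.h_pos c
  nlinarith [(P.κ2_h c).1, P.κ2_nonneg c]

omit [DecidableEq I] [DecidableEq J] in
lemma card_le : (Fintype.card (I × J) : ℝ) ≤ P.Q := by
  rw [Fintype.card_prod]; exact_mod_cast P.hQ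

omit [DecidableEq I] [DecidableEq J] in
lemma κ2_g : ∑ c, P.κ2 c * P.g c ≤ 1 := by
  have a : (1 : ℝ) ≤ P.Q := by exact_mod_cast P.Q_pos
  have : ∀ c, P.κ2 c * P.g c ≤ 1 / P.Q := by
    intro c
    have d : (1 : ℝ) ≤ P.h c := by exact_mod_cast P.h_pos c
    unfold κ2 g
    split_ifs with h
    · simp [h]
    · push_cast
      rw [div_mul_eq_mul_div, div_le_div_iff₀ (by positivity) (by positivity)]
      nlinarith
  refine (Finset.sum_le_sum fun c _ => this c).trans ?_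
  rw [Finset.sum_const, nsmul_eq_mul, Finset.card_univ, mul_one_div, div_le_one (by positivity)]
  exact P.card_le

omit [DecidableEq I] [DecidableEq J] in
lemma sum_z : ∑ i, P.rz i = ∑ j, P.cz j := by
  unfold rz cz; exact_mod_cast P.sum_eq

omit [DecidableEq I] [DecidableEq J] in
lemma exp_κ (c : I × J) {j k : ℕ} (h : (k : ℝ) ≤ P.κ2 c * j) : (2 : ℝ) ^ k ≤ exp (P.κ c * j) := by
  rw [← exp_log two_pos, ← exp_nat_mul, exp_le_exp, κ]
  nlinarith [log_nonneg (one_le_two (α := ℝ))]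

lemma tail (t : ℕ) (c : I × J) (j0 t0 k : ℕ) (h0 : 1 ≤ j0) (h1 : j0 ≤ t0)
    (h2 : P.Q * (j0 - 1) < t0) (hk : (k : ℝ) ≤ P.κ2 c * j0) :
    2 ^ k * ∑ T ∈ (P.S t).filter (fun T => T c ≤ -(t0 : ℤ)), om P.κ T ≤ P.Q * ∑ T ∈ P.S t, om P.κ T := by
  have := switch P.sum_z (P.K_nonneg t) P.κ_nonneg P.hI P.hJ P.hQ c
    ((P.S t).filter (fun T => T c ≤ -(t0 : ℤ))) (Finset.filter_subset _ _) j0 1 h0 (fun T hT => by
      have a := (Finset.mem_filter.1 hT).2
      have b : 0 ≤ min (P.rz c.1) (P.cz c.2) := by unfold rz cz; positivity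
      have d : (P.Q : ℤ) * (j0 - 1) < t0 := by
        have : ((P.Q * (j0 - 1) : ℕ) : ℤ) < t0 := by exact_mod_cast h2
        rwa [Nat.cast_mul, Nat.cast_sub h0] at this
      refine ⟨by omega, ?_⟩
      rw [show (j0 : ℤ) + (1 : ℕ) - 2 = j0 - 1 by push_cast; ring]
      omega) (fun _ _ _ _ k hk k' hk' _ => by omega)
  rw [Nat.cast_one, one_mul] at this
  exact (mul_le_mul_of_nonneg_right (P.exp_κ c hk)
    (Finset.sum_nonneg fun _ _ => (om_pos _ _).le)).trans this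

lemma neg_mass (t : ℕ) (c : I × J) :
    2 * P.Q * ∑ T ∈ (P.S t).filter (fun T => T c < 0), om P.κ T ≤ ∑ T ∈ P.S t, om P.κ T := by
  have a : (1 : ℝ) ≤ P.Q := by exact_mod_cast P.Q_pos
  have hk : (4 * P.Q ^ 2 : ℝ) ≤ 2 ^ P.k0 := by exact_mod_cast P.hk
  have nn : ∀ B : Finset (I × J → ℤ), 0 ≤ ∑ T ∈ B, om P.κ T := fun B =>
    Finset.sum_nonneg fun _ _ => (om_pos _ _).le
  obtain ⟨Z, hZ⟩ : ∃ Z, Z = ∑ T ∈ P.S t, om P.κ T := ⟨_, rfl⟩
  have z0 : 0 ≤ Z := hZ ▸ nn _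
  have fin : ∀ x, 0 ≤ x → 2 ^ P.k0 * x ≤ P.Q * Z → 4 * P.Q * x ≤ Z := fun x hx h => by
    have := mul_le_mul_of_nonneg_right hk hx
    by_contra hc
    nlinarith
  by_cases h : P.h c = 1
  · have := P.tail t c 1 1 P.k0 le_rfl le_rfl (by simp) (by simp [κ2, h])
    rw [← hZ] at this ⊢
    have e : (P.S t).filter (fun T => T c < 0) = (P.S t).filter (fun T => T c ≤ -((1 : ℕ) : ℤ)) :=
      Finset.filter_congr fun T _ => by push_cast; omega
    rw [e]
    have := fin _ (nn _) this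
    nlinarith [nn ((P.S t).filter (fun T => T c ≤ -((1 : ℕ) : ℤ)))]
  have q := P.Q_pos
  have k := P.k0_pos
  have hp := P.h_pos c
  obtain ⟨j1, hj⟩ : ∃ j1, j1 = P.Q ^ 2 * P.h c * P.k0 := ⟨_, rfl⟩
  have j0 : 1 ≤ j1 := by rw [hj]; exact Nat.succ_le_of_lt (by positivity)
  have b1 := P.tail t c j1 (P.Q * j1) P.k0 j0 (Nat.le_mul_of_pos_left _ q)
    (Nat.mul_lt_mul_of_pos_left (by omega) q) (by
      rw [hj]; push_cast
      have : (0 : ℝ) ≤ P.k0 := by positivity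
      nlinarith [(P.κ2_h c).2])
  rw [← hZ] at b1 ⊢
  have b1' := fin _ (nn _) b1
  have b2 : ∀ s ∈ Finset.Icc 1 (P.Q * j1), (4 * P.Q * (P.Q * j1 : ℕ)) *
      ∑ T ∈ (P.S t).filter (fun T => T c = -(s : ℤ)), om P.κ T ≤ Z := by
    intro s hs
    rw [Finset.mem_Icc] at hs
    have := switch P.sum_z (P.K_nonneg t) P.κ_nonneg P.hI P.hJ P.hQ c
      ((P.S t).filter (fun T => T c = -(s : ℤ))) (Finset.filter_subset _ _) s (4 * P.Q ^ 2 * (P.Q * j1))
      hs.1 (fun T hT => by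
        have a := (Finset.mem_filter.1 hT).2
        have b := P.hf_le _ h
        have d : P.Q * (s + 4 * P.Q ^ 2 * (P.Q * j1)) ≤ min (P.r c.1) (P.cc c.2) := by
          refine le_trans ?_ b
          have : P.Q * j1 ≤ P.Q ^ 2 * (P.Q * j1) := Nat.le_mul_of_pos_left _ (by positivity)
          calc _ ≤ P.Q * (5 * P.Q ^ 2 * (P.Q * j1)) := Nat.mul_le_mul_left _ (by nlinarith)
            _ = _ := by rw [hj]; unfold Par.h; ring
        have d' : (P.Q : ℤ) * (s + (4 * P.Q ^ 2 * (P.Q * j1) : ℕ)) ≤ min (P.rz c.1) (P.cz c.2) := by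
          unfold rz cz; exact_mod_cast d
        refine ⟨by omega, ?_⟩
        have : (1 : ℤ) ≤ P.Q := by exact_mod_cast q
        nlinarith) (fun T hT T' hT' k _ k' _ e => by
        rw [(Finset.mem_filter.1 hT).2, (Finset.mem_filter.1 hT').2] at e; omega)
    have e1 : 1 ≤ exp (P.κ c * s) := one_le_exp (mul_nonneg (P.κ_nonneg c) (by positivity))
    have e2 := nn ((P.S t).filter (fun T => T c = -(s : ℤ)))
    change _ ≤ P.Q * ∑ T ∈ P.S t, om P.κ T at this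
    rw [← hZ] at this
    generalize ∑ T ∈ (P.S t).filter (fun T => T c = -(s : ℤ)), om P.κ T = x at *
    push_cast at this ⊢
    have e3 : (0 : ℝ) ≤ 4 * P.Q ^ 2 * (P.Q * j1) * x := by positivity
    by_contra hc
    nlinarith
  have b3 : ∑ T ∈ (P.S t).filter (fun T => T c < 0), om P.κ T ≤
      ∑ T ∈ (P.S t).filter (fun T => T c ≤ -((P.Q * j1 : ℕ) : ℤ)), om P.κ T +
      ∑ s ∈ Finset.Icc 1 (P.Q * j1), ∑ T ∈ (P.S t).filter (fun T => T c = -(s : ℤ)), om P.κ T := by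
    simp only [Finset.sum_filter]
    rw [Finset.sum_comm, ← Finset.sum_add_distrib]
    refine Finset.sum_le_sum fun T _ => ?_
    have o := (om_pos P.κ T).le
    have n2 : 0 ≤ ∑ s ∈ Finset.Icc 1 (P.Q * j1), if T c = -(s : ℤ) then om P.κ T else 0 :=
      Finset.sum_nonneg fun _ _ => by positivity
    split_ifs with h1 h2
    · linarith
    · rw [zero_add]
      refine le_trans (le_of_eq ?_) (Finset.single_le_sum
        (f := fun s : ℕ => if T c = -(s : ℤ) then om P.κ T else 0) (fun _ _ => by positivity)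
        (a := (-T c).toNat) (by rw [Finset.mem_Icc]; omega))
      rw [if_pos (by omega)]
    · linarith
    · linarith
  have b4 := Finset.sum_le_sum b2
  rw [← Finset.mul_sum, Finset.sum_const, Nat.card_Icc, nsmul_eq_mul, Nat.add_sub_cancel] at b4
  have j2 : (0 : ℝ) < (P.Q * j1 : ℕ) := by positivity
  have b5 : 4 * P.Q * ∑ s ∈ Finset.Icc 1 (P.Q * j1),
      ∑ T ∈ (P.S t).filter (fun T => T c = -(s : ℤ)), om P.κ T ≤ Z := by
    by_contra hc
    nlinarith
  nlinarith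

lemma mem_Ω {T : I × J → ℤ} : T ∈ P.Ω ↔
    (∀ i, ∑ j, T (i, j) = P.rz i) ∧ (∀ j, j ≠ P.js → ∑ i, T (i, j) = P.cz j) ∧ ∀ c, 0 ≤ T c := by
  simp only [Ω, Finset.mem_filter, mem_St, Mem]
  exact ⟨fun h => ⟨h.1.1, h.1.2.1, h.2⟩, fun h => ⟨⟨h.1, h.2.1, fun c _ => by
    simpa using h.2.2 c⟩, h.2.2⟩⟩

omit [DecidableEq I] [DecidableEq J] in
lemma om_valid {T : I × J → ℤ} (h : ∀ c, 0 ≤ T c) : om P.κ T = 1 := by
  unfold om pen
  rw [Finset.sum_eq_zero fun c _ => by rw [max_eq_right (by have := h c; omega)]; simp]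
  simp

lemma mass_le (t : ℕ) : ∑ T ∈ P.S t, om P.κ T ≤ 2 * P.Ω.card := by
  have a : (1 : ℝ) ≤ P.Q := by exact_mod_cast P.Q_pos
  have b := Finset.sum_le_sum fun c (_ : c ∈ univ) => P.neg_mass t c
  rw [← Finset.mul_sum, Finset.sum_const, nsmul_eq_mul, Finset.card_univ] at b
  have d : ∑ T ∈ P.S t, om P.κ T ≤ ((P.S t).filter fun T => ∀ c, 0 ≤ T c).card +
      ∑ c, ∑ T ∈ (P.S t).filter (fun T => T c < 0), om P.κ T := by
    simp only [Finset.sum_filter, Finset.card_filter]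
    push_cast
    rw [Finset.sum_comm, ← Finset.sum_add_distrib]
    refine Finset.sum_le_sum fun T _ => ?_
    have o := (om_pos P.κ T).le
    split_ifs with h
    · rw [P.om_valid h]
      exact le_add_of_nonneg_right (Finset.sum_nonneg fun _ _ => by positivity)
    · push Not at h
      obtain ⟨c, hc⟩ := h
      rw [zero_add]
      refine le_trans (le_of_eq ?_) (Finset.single_le_sum
        (f := fun c => if T c < 0 then om P.κ T else 0) (fun _ _ => by positivity) (mem_univ c))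
      rw [if_pos hc]
  have e : (((P.S t).filter fun T => ∀ c, 0 ≤ T c).card : ℝ) ≤ P.Ω.card := by
    exact_mod_cast Finset.card_le_card fun T hT => by
      rw [Finset.mem_filter, S, mem_St] at hT
      exact P.mem_Ω.2 ⟨hT.1.1, hT.1.2.1, hT.2⟩
  have z0 : 0 ≤ ∑ T ∈ P.S t, om P.κ T := Finset.sum_nonneg fun _ _ => (om_pos _ _).le
  have f := mul_le_mul_of_nonneg_right P.card_le z0
  by_contra hc
  nlinarith

end Par

end Vale.Agent.P328
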