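import Vale.Agent.P328.Coarse

namespace Vale.Agent.P328

open Finset Real

namespace Par

variable {I J : Type} [Fintype I] [DecidableEq I] [Fintype J] [DecidableEq J] (P : Par I J)

/-- coarse energy in one direction -/
noncomputable def En (g0 : (I × J → ℤ) → ℝ) (c : I × J) : ℝ :=
  ∑ y ∈ P.Y.filter (fun y => y + Pi.single c 1 ∈ P.Y),
    min (P.ν y) (P.ν (y + Pi.single c 1)) * (g0 (y + Pi.single c 1) - g0 y) ^ 2

lemma En_nonneg (g0 : (I × J → ℤ) → ℝ) (c : I × J) : 0 ≤ P.En g0 c :=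
  Finset.sum_nonneg fun _ _ => mul_nonneg (le_min (P.ν_pos _).le (P.ν_pos _).le) (sq_nonneg _)

lemma edge (g0 : (I × J → ℤ) → ℝ) (c : I × J) {B Bx : Finset (I × J → ℤ)} (j : I × J → ℤ)
    (z w : (I × J → ℤ) → _) (hB : ∀ T ∈ B, P.Mar T ∧ P.q (T + j) ∈ P.Y ∧ z T ∈ P.Y ∧
      w T ≤ P.ν (P.q (T + j)) ∧ w T ≤ P.ν (z T) ∧
      (z T = P.q (T + j) ∨ z T = P.q (T + j) + Pi.single c 1 ∧ P.rem (T + j) ∈ Bx)) :
    ∑ T ∈ B, w T * (g0 (z T) - g0 (P.q (T + j))) ^ 2 ≤ Bx.card * P.En g0 c := by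
  rw [← Finset.sum_filter_of_ne (p := fun T => z T ≠ P.q (T + j)) fun T _ h e => h (by simp [e])]
  have k : ∀ T ∈ B.filter fun T => z T ≠ P.q (T + j),
      z T = P.q (T + j) + Pi.single c 1 ∧ P.rem (T + j) ∈ Bx := fun T hT =>
    (hB T (Finset.mem_filter.1 hT).1).2.2.2.2.2.resolve_left (Finset.mem_filter.1 hT).2
  refine P.fib j (fun T hT => (hB T (Finset.mem_filter.1 hT).1).1) (fun T hT => ?_)
    (fun T hT => (k T hT).2) (fun _ _ => mul_nonneg (le_min (P.ν_pos _).le (P.ν_pos _).le)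
      (sq_nonneg _)) fun T hT => ?_
  · have a := hB T (Finset.mem_filter.1 hT).1
    exact Finset.mem_filter.2 ⟨a.2.1, (k T hT).1 ▸ a.2.2.1⟩
  · have a := hB T (Finset.mem_filter.1 hT).1
    rw [← (k T hT).1]
    exact mul_le_mul_of_nonneg_right (le_min a.2.2.2.1 a.2.2.2.2.1) (sq_nonneg _)

lemma qstep {x x' : I × J → ℤ} (c : I × J) (h : ∀ c', P.free c' → c' ≠ c → x' c' = x c')
    (h1 : x c ≤ x' c) (h2 : x' c ≤ x c + P.h c) :
    P.q x' = P.q x ∨ P.q x' = P.q x + Pi.single c 1 ∧ P.free c ∧ x' c / P.h c ≠ x c / P.h c := by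
  have a1 := Int.ediv_le_ediv (P.hz_pos c) h1
  have a2 := Int.ediv_le_ediv (P.hz_pos c) h2
  rw [Int.add_ediv_of_dvd_right dvd_rfl, Int.ediv_self (P.hz_pos c).ne'] at a2
  by_cases e : P.free c ∧ x' c / P.h c ≠ x c / P.h c
  · refine Or.inr ⟨funext fun c' => ?_, e⟩
    by_cases e' : c' = c
    · subst e'
      simp only [q, e.1, if_true, Pi.add_apply, Pi.single_eq_same]
      have := e.2
      omega
    · simp only [q, Pi.add_apply, Pi.single_eq_of_ne e', add_zero]
      split_ifs with f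
      · rw [h c' f e']
      · rfl
  · refine Or.inl (funext fun c' => ?_)
    simp only [q]
    split_ifs with f
    · by_cases e' : c' = c
      · subst e'
        by_contra g
        exact e ⟨f, g⟩
      · rw [h c' f e']
    · rfl

/-- smoothed function -/
noncomputable def ft (g0 : (I × J → ℤ) → ℝ) (T : I × J → ℤ) : ℝ :=
  (∑ j ∈ P.box, g0 (P.q (T + j))) / P.box.card

lemma stepA (g0 : (I × J → ℤ) → ℝ) (i : I) {u : J} (hu : u ≠ P.js) :
    (P.h (i, u) : ℝ) ^ 2 * ∑ T ∈ (P.S 0).filter (fun T => T + gv P.is P.js i u ∈ P.S 0),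
      min (om P.κ T) (om P.κ (T + gv P.is P.js i u)) *
        (P.ft g0 (T + gv P.is P.js i u) - P.ft g0 T) ^ 2 ≤ P.box.card * P.En g0 (i, u) := by
  have bp := P.box_pos
  by_cases hi : i = P.is
  · simp only [hi, gv, sub_self, add_zero, ne_eq, OfNat.ofNat_ne_zero, not_false_eq_true, zero_pow,
      mul_zero, Finset.sum_const_zero]
    exact mul_nonneg bp.le (P.En_nonneg _ _)
  have fr : P.free (i, u) := ⟨hi, hu⟩
  have hp : (0 : ℝ) < P.h (i, u) := by exact_mod_cast P.h_pos (i, u)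
  obtain ⟨G, hG⟩ : ∃ G, G = gv P.is P.js i u := ⟨_, rfl⟩
  have G1 : G (i, u) = 1 := by
    simp [hG, gv, dv, hu, hi]
  have G2 : ∀ c', P.free c' → c' ≠ (i, u) → G c' = 0 := by
    rintro ⟨a, b⟩ f e
    have f1 : a ≠ P.is := f.1
    have f2 : b ≠ P.js := f.2
    simp [hG, gv, dv, e, f1, f2]
  rw [← hG]
  have qs : ∀ T j : I × J → ℤ, P.q (T + G + j) = P.q (T + j) ∨
      P.q (T + G + j) = P.q (T + j) + Pi.single (i, u) 1 ∧
      (T (i, u) + j (i, u)) % P.h (i, u) = P.h (i, u) - 1 := by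
    intro T j
    have := P.hz_pos (i, u)
    refine (P.qstep (i, u) (fun c' f e => by simp [G2 c' f e]) (by simp [G1]) (by
      simp only [Pi.add_apply, G1]; omega)).imp id fun h => ⟨h.1, ?_⟩
    have a := h.2.2
    simp only [Pi.add_apply, G1] at a
    by_contra hc
    apply a
    have b := Int.emod_nonneg (T (i, u) + j (i, u)) this.ne'
    have d := Int.emod_lt_of_pos (T (i, u) + j (i, u)) this
    have e := Int.mul_ediv_add_emod (T (i, u) + j (i, u)) (P.h (i, u))
    exact ((Int.ediv_emod_unique this (r := (T (i, u) + j (i, u)) % P.h (i, u) + 1)).2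
      ⟨by omega, by omega, by omega⟩).1
  have cs : ∀ T, (P.h (i, u) : ℝ) * (P.ft g0 (T + G) - P.ft g0 T) ^ 2 ≤
      (∑ j ∈ P.box, (g0 (P.q (T + G + j)) - g0 (P.q (T + j))) ^ 2) / P.box.card := by
    intro T
    have sl := P.box_slice fr ((P.h (i, u) - 1 - T (i, u)) % P.h (i, u))
    unfold ft
    rw [← sub_div, ← Finset.sum_sub_distrib, ← Finset.sum_filter_of_ne
      (p := fun j => j (i, u) = (P.h (i, u) - 1 - T (i, u)) % P.h (i, u)) fun j hj h => ?_]
    · have a := sq_sum_le_card_mul_sum_sq (s := P.box.filter fun j =>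
        j (i, u) = (P.h (i, u) - 1 - T (i, u)) % P.h (i, u))
        (f := fun j => g0 (P.q (T + G + j)) - g0 (P.q (T + j)))
      have b := Finset.sum_le_sum_of_subset_of_nonneg (Finset.filter_subset (fun j =>
        j (i, u) = (P.h (i, u) - 1 - T (i, u)) % P.h (i, u)) P.box)
        (f := fun j => (g0 (P.q (T + G + j)) - g0 (P.q (T + j))) ^ 2) fun _ _ _ => sq_nonneg _
      have d : 0 ≤ ∑ j ∈ P.box.filter fun j => j (i, u) = (P.h (i, u) - 1 - T (i, u)) % P.h (i, u),
        (g0 (P.q (T + G + j)) - g0 (P.q (T + j))) ^ 2 := Finset.sum_nonneg fun _ _ => sq_nonneg _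
      rw [div_pow, ← mul_div_assoc, div_le_div_iff₀ (by positivity) bp, sq (P.box.card : ℝ),
        ← mul_assoc]
      refine mul_le_mul_of_nonneg_right ?_ bp.le
      nlinarith [mul_le_mul_of_nonneg_left a hp.le, mul_le_mul_of_nonneg_right sl d]
    · rcases qs T j with e | e
      · exact absurd (by rw [e, sub_self]) h
      · have f := P.box_free hj fr
        rw [← e.2, Int.emod_sub_emod, add_sub_cancel_left, Int.emod_eq_of_lt f.1 f.2]
  have ed : ∀ j ∈ P.box, (P.h (i, u) : ℝ) * ∑ T ∈ (P.S 0).filter (fun T => T + G ∈ P.S 0),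
      min (om P.κ T) (om P.κ (T + G)) * (g0 (P.q (T + G + j)) - g0 (P.q (T + j))) ^ 2 ≤
      P.box.card * P.En g0 (i, u) := by
    intro j hj
    have := P.edge g0 (i, u) (B := (P.S 0).filter (fun T => T + G ∈ P.S 0))
      (Bx := P.box.filter fun v => v (i, u) = P.h (i, u) - 1) j (fun T => P.q (T + G + j))
      (fun T => min (om P.κ T) (om P.κ (T + G))) fun T hT => by
        rw [Finset.mem_filter] at hT
        have a := P.qY hT.1 hj
        have b := P.qY hT.2 hj
        exact ⟨(P.mem_S.1 hT.1).1, a.1, b.1, (min_le_left _ _).trans a.2,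
          (min_le_right _ _).trans b.2, (qs T j).imp id fun h => ⟨h.1, Finset.mem_filter.2
            ⟨P.rem_mem _, by simpa [rem, fr] using h.2⟩⟩⟩
    refine (mul_le_mul_of_nonneg_left this hp.le).trans ?_
    rw [← mul_assoc]
    exact mul_le_mul_of_nonneg_right (P.box_slice fr _) (P.En_nonneg _ _)
  have := Finset.sum_le_sum ed
  rw [← Finset.mul_sum, Finset.sum_const, nsmul_eq_mul, Finset.sum_comm] at this
  rw [← div_le_iff₀' bp, mul_div_assoc] at this
  refine le_trans ?_ this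
  rw [sq, mul_assoc]
  refine mul_le_mul_of_nonneg_left ?_ hp.le
  rw [Finset.mul_sum, Finset.sum_div]
  refine Finset.sum_le_sum fun T _ => ?_
  rw [← Finset.mul_sum, mul_div_assoc, mul_left_comm]
  exact mul_le_mul_of_nonneg_left (cs T) (le_min (om_pos _ _).le (om_pos _ _).le)

lemma stepB0 (g0 : (I × J → ℤ) → ℝ) {j : I × J → ℤ} (hj : j ∈ P.box) (A : Finset (I × J)) :
    ∑ T ∈ P.S 0, om P.κ T * (g0 (P.q (T + fun c => if c ∈ A then j c else 0)) - g0 (P.q T)) ^ 2 ≤
      (A.card : ℝ) ^ 2 * (P.box.card * ∑ c, P.En g0 c) := by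
  have bx : ∀ A : Finset (I × J), (fun c => if c ∈ A then j c else 0) ∈ P.box := fun A =>
    P.mem_box.2 fun c => by
      split_ifs
      exacts [P.mem_box.1 hj c, P.mem_box.1 P.zero_box c]
  induction A using Finset.induction_on with
  | empty => simp [← Pi.zero_def]
  | insert c A hc ih =>
    have := P.edge g0 c (B := P.S 0) (Bx := P.box) (fun c => if c ∈ A then j c else 0)
      (fun T => P.q (T + fun c' => if c' ∈ insert c A then j c' else 0)) (om P.κ) fun T hT => by
        have a := P.qY hT (bx A)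
        have b := P.qY hT (bx (insert c A))
        have d := P.mem_box.1 hj c
        have e : P.hh c ≤ P.h c := by have := P.h_pos c; unfold hh; split_ifs <;> omega
        exact ⟨(P.mem_S.1 hT).1, a.1, b.1, a.2, b.2, (P.qstep c (fun c' _ e => by simp [e])
          (by simp [hc, d.1]) (by simp [hc]; omega)).imp id fun h => ⟨h.1, P.rem_mem _⟩⟩
    replace this := this.trans (mul_le_mul_of_nonneg_left (Finset.single_le_sum
      (fun c _ => P.En_nonneg g0 c) (mem_univ c)) P.box_pos.le)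
    rw [Finset.card_insert_of_notMem hc]
    rcases A.eq_empty_or_nonempty with rfl | hA
    · simpa [← Pi.zero_def] using this
    have k : (0 : ℝ) < A.card := by exact_mod_cast hA.card_pos
    refine le_of_mul_le_mul_left ?_ k
    have a := add_le_add (mul_le_mul_of_nonneg_left ih (show (0 : ℝ) ≤ A.card + 1 by positivity))
      (mul_le_mul_of_nonneg_left this (show (0 : ℝ) ≤ A.card * (A.card + 1) by positivity))
    rw [Finset.mul_sum, Finset.mul_sum, ← Finset.sum_add_distrib] at a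
    rw [Finset.mul_sum]
    refine le_trans (Finset.sum_le_sum fun T _ => ?_) (a.trans_eq (by push_cast; ring))
    have := om_pos P.κ T
    generalize g0 (P.q (T + fun c' => if c' ∈ insert c A then j c' else 0)) = x
    generalize g0 (P.q (T + fun c' => if c' ∈ A then j c' else 0)) = y
    nlinarith [mul_nonneg this.le (sq_nonneg (y - g0 (P.q T) - A.card * (x - y)))]

lemma stepB (g0 : (I × J → ℤ) → ℝ) :
    ∑ T ∈ P.S 0, om P.κ T * (P.ft g0 T - g0 (P.q T)) ^ 2 ≤
      P.Q ^ 2 * (P.box.card * ∑ c, P.En g0 c) := by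
  have bp := P.box_pos
  have a := Finset.sum_le_sum fun j hj => P.stepB0 g0 hj univ
  simp only [mem_univ, if_true, Finset.sum_const, nsmul_eq_mul, Finset.card_univ] at a
  rw [← div_le_iff₀' bp, Finset.sum_comm, Finset.sum_div] at a
  refine le_trans (Finset.sum_le_sum fun T _ => ?_) (a.trans (mul_le_mul_of_nonneg_right
    (pow_le_pow_left₀ (by positivity) P.card_le 2)
    (mul_nonneg bp.le (Finset.sum_nonneg fun c _ => P.En_nonneg g0 c))))
  rw [← Finset.mul_sum, mul_div_assoc]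
  refine mul_le_mul_of_nonneg_left ?_ (om_pos _ _).le
  have b := sq_sum_le_card_mul_sum_sq (s := P.box) (f := fun j => g0 (P.q (T + j)) - g0 (P.q T))
  rw [Finset.sum_sub_distrib, Finset.sum_const, nsmul_eq_mul] at b
  rw [ft, div_sub' bp.ne', div_pow, div_le_div_iff₀ (by positivity) bp]
  nlinarith [mul_le_mul_of_nonneg_right b bp.le]

/-- radius -/
def R : ℕ := 3 * (5 * P.Q ^ 6 * P.k0) + P.Q * P.PP

lemma cell_le {T : I × J → ℤ} (hT : P.Mar T) (h : ∀ c, -P.K 0 c ≤ T c) (c : I × J) :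
    |T c| ≤ P.R * P.h c := by
  have K0 : ∀ c, P.K 0 c = P.PP * P.h c := fun c => by simp [K]
  have q : (1 : ℤ) ≤ P.Q := by exact_mod_cast P.Q_pos
  have hp := P.hz_pos c
  have key : ∀ {α : Type} [Fintype α] (f : α → ℤ) (a : α), Fintype.card α ≤ P.Q →
      (∀ b, -(P.PP * P.h c : ℤ) ≤ f b) → ∑ b, f b = (min (P.r c.1) (P.cc c.2) : ℕ) →
      f a ≤ P.R * P.h c := by
    intro α _ f a hα hf hs
    have h1 := Finset.single_le_sum (f := fun b => f b + P.PP * P.h c)
      (fun b _ => by have := hf b; omega) (mem_univ a)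
    rw [Finset.sum_add_distrib, hs, Finset.sum_const, nsmul_eq_mul, Finset.card_univ] at h1
    have h2 : ((min (P.r c.1) (P.cc c.2) : ℕ) : ℤ) ≤ (3 * (5 * P.Q ^ 6 * P.k0) : ℕ) * P.h c := by
      exact_mod_cast P.hf_ge _
    have h3 : (Fintype.card α : ℤ) * (P.PP * P.h c) ≤ P.Q * (P.PP * P.h c) :=
      mul_le_mul_of_nonneg_right (by exact_mod_cast hα) (by positivity)
    have h4 : (0 : ℤ) ≤ P.PP * P.h c := by positivity
    unfold R
    rw [Nat.cast_add, Nat.cast_mul P.Q]
    linarith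
  rw [abs_le]
  constructor
  · have := h c
    rw [K0] at this
    have h4 : (0 : ℤ) ≤ P.PP * P.h c := by positivity
    have h5 : (0 : ℤ) ≤ (3 * (5 * P.Q ^ 6 * P.k0) : ℕ) * P.h c := by positivity
    unfold R
    rw [Nat.cast_add, Nat.cast_mul P.Q]
    nlinarith
  have mono : ∀ c', P.h c' ≤ P.h c → -(P.PP * P.h c : ℤ) ≤ T c' := fun c' hc => by
    have := h c'
    rw [K0] at this
    have : (P.PP * P.h c' : ℤ) ≤ P.PP * P.h c := by exact_mod_cast Nat.mul_le_mul_left _ hc
    omega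
  rcases le_total (P.r c.1) (P.cc c.2) with e | e
  · refine key (fun j => T (c.1, j)) c.2 P.hJ (fun j => mono _ (P.hf_mono ?_)) ?_
    · rw [min_eq_left e]; exact min_le_left _ _
    · rw [hT.1, min_eq_left e, rz]
  · refine key (fun i => T (i, c.2)) c.1 P.hI (fun j => mono _ (P.hf_mono ?_)) ?_
    · rw [min_eq_right e]; exact min_le_right _ _
    · rw [Mem.col (K := -T) P.sum_z ⟨hT.1, hT.2, by simp⟩, min_eq_right e, cz]

/-- Poincare constant -/
def M0 : ℕ := 16 * P.Q ^ 2 + 144 * 4 ^ P.k0 * P.Q * P.R ^ 2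

theorem weak (hp : 1 ≤ P.p) (g0 : (I × J → ℤ) → ℝ) (hg : ∀ y ∈ P.Y, |g0 y| ≤ 1) :
    ∃ a, ∑ y ∈ P.Y, P.ν y * (g0 y - a) ^ 2 ≤
      P.M0 * ∑ c, P.En g0 c + 64 * P.Q ^ 2 / 2 ^ P.p * ∑ y ∈ P.Y, P.ν y := by
  have bp := P.box_pos
  have q : (1 : ℝ) ≤ P.Q := by exact_mod_cast P.Q_pos
  have hh : ∀ c, (1 : ℝ) ≤ P.h c := fun c => by exact_mod_cast P.h_pos c
  have r1 : (P.PP : ℝ) ≤ P.R := by
    exact_mod_cast (Nat.le_mul_of_pos_left _ P.Q_pos).trans (Nat.le_add_left _ _)
  have r2 : (2 : ℝ) ≤ P.PP := by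
    have := P.Q_pos
    exact_mod_cast (show 2 ≤ P.PP by unfold PP; omega)
  have r3 : ∀ c, 2 * P.PP * (P.h c : ℝ) ≤ P.Q * (P.R * P.h c) ^ 2 := fun c => by
    have := hh c
    calc 2 * P.PP * (P.h c : ℝ) ≤ P.R * P.R * (P.h c * P.h c) := by
          gcongr
          exacts [r2.trans r1, le_mul_of_one_le_right (by positivity) this]
      _ = 1 * (P.R * P.h c) ^ 2 := by ring
      _ ≤ _ := by gcongr
  have r4 : ∀ c, (0 : ℝ) < P.Q * (P.R * P.h c) ^ 2 := fun c => by
    have := hh c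
    exact lt_of_lt_of_le (by positivity) (r3 c)
  obtain ⟨m, hm⟩ := fine P.is P.js P.rz P.cz (P.K 0) P.κ (fun c => 1 / (P.Q * (P.R * P.h c) ^ 2))
    (log 2 * P.k0) P.κ_nonneg (fun c => mul_le_mul_of_nonneg_left (P.κ2_le c) (log_nonneg one_le_two))
    (fun c => one_div_pos.2 (r4 c)) (fun c => one_div_le_one_div_of_le two_pos (by
      nlinarith [r3 c, hh c])) (fun c => by
      rw [mul_one_div, div_mul_eq_mul_div, div_le_one (r4 c)]
      simpa [K, mul_assoc] using r3 c) (P.ft g0)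
  have e3 : exp 1 ≤ 3 := exp_one_lt_three.le
  have e4 : exp (2 * (log 2 * P.k0) + 1) ≤ 3 * 4 ^ P.k0 := by
    rw [exp_add, show 2 * (log 2 * P.k0) = ((2 * P.k0 : ℕ) : ℝ) * log 2 by push_cast; ring,
      exp_nat_mul, exp_log two_pos, pow_mul, mul_comm]
    norm_num [e3]
  have hA : _ ≤ 3 * 4 ^ P.k0 * (P.Q : ℝ) * P.R ^ 2 * (P.box.card * ∑ c, P.En g0 c) := hm.trans (by
    refine le_trans (Finset.sum_le_sum (g := fun u : {u // u ≠ P.js} => ∑ i,
      3 * 4 ^ P.k0 * (P.Q : ℝ) * P.R ^ 2 * (P.box.card * P.En g0 (i, u.1))) fun u _ =>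
      Finset.sum_le_sum fun i _ => ?_) ?_
    · refine le_trans ?_ (mul_le_mul_of_nonneg_left (P.stepA g0 i u.2) (by positivity))
      rw [← mul_assoc _ (_ ^ 2 : ℝ) (Finset.sum _ _)]
      refine mul_le_mul_of_nonneg_right ?_ (Finset.sum_nonneg fun T _ =>
        mul_nonneg (le_min (om_pos P.κ _).le (om_pos P.κ _).le) (sq_nonneg _))
      rw [div_div_eq_mul_div, div_one]
      exact (mul_le_mul_of_nonneg_right e4 (r4 _).le).trans_eq (by ring)
    · simp only [← Finset.mul_sum]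
      gcongr
      rw [Fintype.sum_prod_type_right, ← Finset.sum_subtype (univ.erase P.js) (by simp)
        (fun u => ∑ i, P.En g0 (i, u))]
      exact Finset.sum_le_sum_of_subset_of_nonneg (Finset.subset_univ _) fun _ _ _ =>
        Finset.sum_nonneg fun _ _ => P.En_nonneg _ _)
  have hB := P.stepB g0
  have hC := P.cover (B := P.S 0) (Y' := P.Y.filter P.core) (F := fun y => P.ν y * (g0 y - m) ^ 2)
    (f := fun T => 16 * (om P.κ T * (P.ft g0 T - g0 (P.q T)) ^ 2) + 48 * (om P.κ T *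
      exp (-∑ c, if c.2 = P.js then 0 else 1 / (P.Q * (P.R * P.h c) ^ 2) * (T c : ℝ) ^ 2) *
      (P.ft g0 T - m) ^ 2)) (Finset.filter_subset _ _)
    (fun T _ => by have := om_pos P.κ T; positivity) fun y hy v hv => by
      rw [Finset.mem_filter] at hy
      have a1 : ∀ c, -P.K 0 c ≤ P.lift y v c := fun c => by
        have := abs_le.1 (P.lift_near y hv c)
        have := hy.2 c
        omega
      refine ⟨P.mem_S.2 ⟨P.tab_mar _, fun c _ => a1 c⟩, ?_⟩
      simp only [(P.q_lift (P.mem_Y.1 hy.1).1 hv).1]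
      have a2 := P.ν_le_om (P.lift_near y hv)
      have a3 : 1 ≤ 3 * exp (-∑ c, if c.2 = P.js then 0 else
          1 / (P.Q * (P.R * P.h c) ^ 2) * (P.lift y v c : ℝ) ^ 2) := by
        have : ∑ c, (if c.2 = P.js then 0 else
            1 / (P.Q * (P.R * P.h c) ^ 2) * (P.lift y v c : ℝ) ^ 2) ≤ ∑ _c : I × J, (1 / P.Q : ℝ) := by
          refine Finset.sum_le_sum fun c _ => ?_
          split_ifs
          · positivity
          have b : |(P.lift y v c : ℝ)| ≤ P.R * P.h c := by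
            exact_mod_cast P.cell_le (P.tab_mar _) a1 c
          rw [one_div_mul_eq_div, div_le_div_iff₀ (r4 c) (by positivity), one_mul, mul_comm]
          exact mul_le_mul_of_nonneg_left (sq_le_sq' (abs_le.1 b).1 (abs_le.1 b).2) (by positivity)
        rw [Finset.sum_const, nsmul_eq_mul, Finset.card_univ, mul_one_div] at this
        replace this := this.trans ((div_le_one (by positivity)).2 P.card_le)
        calc (1 : ℝ) = exp 1 * exp (-1) := by rw [← exp_add]; simp
          _ ≤ _ := by gcongr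
      have o := om_pos P.κ (P.lift y v)
      generalize om P.κ (P.lift y v) = w at *
      generalize P.ft g0 (P.lift y v) = x at *
      generalize exp (-∑ c, if c.2 = P.js then 0 else
          1 / (P.Q * (P.R * P.h c) ^ 2) * (P.lift y v c : ℝ) ^ 2) = G at *
      have b1 := mul_le_mul_of_nonneg_right a2 (sq_nonneg (g0 y - m))
      have b2 := mul_le_mul_of_nonneg_left a3 (mul_nonneg o.le (sq_nonneg (x - m)))
      nlinarith [mul_nonneg o.le (sq_nonneg (g0 y - x - (x - m)))]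
  rw [Finset.sum_add_distrib, ← Finset.mul_sum, ← Finset.mul_sum] at hC
  have hD : ∑ y ∈ P.Y.filter P.core, P.ν y * (g0 y - m) ^ 2 ≤ P.M0 * ∑ c, P.En g0 c := by
    refine le_of_mul_le_mul_left (hC.trans ?_) bp
    unfold M0
    push_cast
    unfold S at hB ⊢
    linarith
  refine ⟨max (-1) (min 1 m), ?_⟩
  rw [← Finset.sum_filter_add_sum_filter_not _ P.core]
  refine add_le_add (le_trans (Finset.sum_le_sum fun y hy => mul_le_mul_of_nonneg_left ?_
    (P.ν_pos y).le) hD) ?_
  · have := abs_le.1 (hg y (Finset.mem_filter.1 hy).1)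
    rw [sq_le_sq]
    grind
  · refine le_trans (Finset.sum_le_sum (g := fun y => 4 * P.ν y) fun y hy => ?_) ?_
    · have := abs_le.1 (hg y (Finset.mem_filter.1 hy).1)
      rw [mul_comm]
      refine mul_le_mul_of_nonneg_right ((sq_le_sq' (b := 2) ?_ ?_).trans_eq (by norm_num))
        (P.ν_pos y).le <;> grind
    · rw [← Finset.mul_sum, div_mul_eq_mul_div, le_div_iff₀ (by positivity)]
      nlinarith [P.noncore hp]

end Par

end Vale.Agent.P328
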