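import Vale.Agent.P328.Fine

namespace Vale.Agent.P328

open Finset Real

variable {I J : Type*} [Fintype I] [DecidableEq I] [Fintype J] [DecidableEq J]

/-- penalty exponent -/
noncomputable def pen (κ : I × J → ℝ) (T : I × J → ℤ) : ℝ := ∑ c, κ c * ((max (-T c) 0 : ℤ) : ℝ)

/-- soft wall weight -/
noncomputable def om (κ : I × J → ℝ) (T : I × J → ℤ) : ℝ := exp (-pen κ T)

/-- unit move in a free coordinate -/
def gv (is : I) (js : J) (i : I) (u : J) : I × J → ℤ := dv js i u - dv js is u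

omit [DecidableEq I] [DecidableEq J] in
lemma om_pos (κ : I × J → ℝ) (T : I × J → ℤ) : 0 < om κ T := exp_pos _

omit [DecidableEq I] [DecidableEq J] in
lemma pen_le {κ : I × J → ℝ} (hκ : ∀ c, 0 ≤ κ c) {T T' : I × J → ℤ} (b : I × J → ℤ)
    (h : ∀ c, T c - b c ≤ T' c) (hb : ∀ c, 0 ≤ b c) : pen κ T' ≤ pen κ T + ∑ c, κ c * b c := by
  unfold pen
  rw [← Finset.sum_add_distrib]
  refine Finset.sum_le_sum fun c _ => ?_
  rw [← mul_add]
  refine mul_le_mul_of_nonneg_left ?_ (hκ c)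
  have := h c
  have := hb c
  exact_mod_cast (by omega : max (-T' c) 0 ≤ max (-T c) 0 + b c)

lemma om_dv {κ : I × J → ℝ} {km : ℝ} (hκ : ∀ c, 0 ≤ κ c) (hκ' : ∀ c, κ c ≤ km) (js : J) (i : I)
    (u : J) (z : I × J → ℤ) : om κ z ≤ exp km * om κ (z + dv js i u) := by
  have := pen_le hκ (T := z) (T' := z + dv js i u) (Pi.single (i, js) 1) (fun c => by
    simp only [dv, Pi.add_apply, Pi.sub_apply, Pi.single_apply]; split_ifs <;> omega)
    (fun c => by simp only [Pi.single_apply]; split_ifs <;> omega)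
  rw [Finset.sum_eq_single (i, js) (fun b _ hb => by simp [hb]) (by simp)] at this
  simp only [Pi.single_eq_same, Int.cast_one, mul_one] at this
  unfold om
  rw [← exp_add, exp_le_exp]
  linarith [hκ' (i, js)]

theorem fine (is : I) (js : J) (r : I → ℤ) (cc : J → ℤ) (K : I × J → ℤ) (κ ε : I × J → ℝ)
    (km : ℝ) (hκ : ∀ c, 0 ≤ κ c) (hκ' : ∀ c, κ c ≤ km) (hε : ∀ c, 0 < ε c)
    (hε' : ∀ c, ε c ≤ 1 / 2) (hεK : ∀ c, 2 * ε c * K c ≤ 1) (g : (I × J → ℤ) → ℝ) :
    ∃ m, ∑ T ∈ St js r cc K,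
        om κ T * exp (-∑ c, if c.2 = js then 0 else ε c * (T c) ^ 2) * (g T - m) ^ 2 ≤
      ∑ u : {u // u ≠ js}, ∑ i, exp (2 * km + 1) / ε (i, u) *
        ∑ T ∈ (St js r cc K).filter (fun T => T + gv is js i u ∈ St js r cc K),
          min (om κ T) (om κ (T + gv is js i u)) * (g (T + gv is js i u) - g T) ^ 2 := by
  obtain ⟨V, hV⟩ : ∃ V : I × J → ℤ → ℝ, V = fun c t => κ c * ((max (-t) 0 : ℤ) : ℝ) +
    if c.2 = js then 0 else ε c * (t : ℝ) ^ 2 := ⟨_, rfl⟩
  obtain ⟨w, hw⟩ : ∃ w : I × J → ℤ → ℝ, w = fun c t =>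
    if c.2 ≠ js ∧ t < -K c then 0 else exp (-V c t) := ⟨_, rfl⟩
  have wle : ∀ c t, w c t ≤ exp (-V c t) := fun c t => by
    simp only [hw]; split_ifs
    exacts [(exp_pos _).le, le_rfl]
  have weq : ∀ c t, (c.2 ≠ js → -K c ≤ t) → w c t = exp (-V c t) := fun c t h => by
    simp only [hw]; rw [if_neg fun e => not_lt.2 (h e.1) e.2]
  have w0 : ∀ c t, c.2 ≠ js → t < -K c → w c t = 0 := fun c t h1 h2 => by simp [hw, h1, h2]
  have peq : ∀ {a : J → ℤ}, ∀ T ∈ St js r a K, ∏ c, w c (T c) =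
      om κ T * exp (-∑ c, if c.2 = js then 0 else ε c * (T c) ^ 2) := by
    intro a T hT
    rw [Finset.prod_congr rfl fun c _ => weq c _ ((mem_St.1 hT).2.2 c), ← exp_sum, om, ← exp_add,
      pen, ← neg_add, ← Finset.sum_add_distrib, ← Finset.sum_neg_distrib, hV]
  obtain ⟨m, hm⟩ := poincare_w is js r cc K w (fun c => exp (km + 1) / ε c)
    (fun c => ε c * exp (-(km + 1))) w0 (fun c t h => by rw [weq c t h]; exact exp_pos _)
    (fun i t => by
      rw [weq _ _ (by simp), weq _ _ (by simp), weq _ _ (by simp), sq, ← exp_add, ← exp_add,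
        exp_le_exp]
      simp only [hV, if_true, add_zero]
      have : (2 * (max (-(t + 1)) 0 : ℤ) : ℝ) ≤ (max (-(t + 2)) 0 : ℤ) + (max (-t) 0 : ℤ) := by
        exact_mod_cast (by omega : 2 * max (-(t + 1)) 0 ≤ max (-(t + 2)) 0 + max (-t) 0)
      nlinarith [hκ (i, js)])
    (fun i t => by
      rw [weq _ _ (by simp), weq _ _ (by simp), exp_le_exp]
      simp only [hV, if_true, add_zero]
      have : ((max (-(t + 2)) 0 : ℤ) : ℝ) ≤ (max (-(t + 1)) 0 : ℤ) := by
        exact_mod_cast (by omega : max (-(t + 2)) 0 ≤ max (-(t + 1)) 0)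
      nlinarith [hκ (i, js)])
    (fun c t hc => by
      by_cases h : t + -1 < -K c
      · rw [w0 c _ hc h, w0 c (t + -2) hc (by omega)]; simp
      rw [weq c (t + -1) (fun _ => by omega), weq c t (fun _ => by omega)]
      have a1 := mul_le_mul_of_nonneg_right (wle c (t + -2)) (exp_pos (-V c t)).le
      have b1 : (2 * (max (-(t + -1)) 0 : ℤ) : ℝ) ≤ (max (-(t + -2)) 0 : ℤ) + (max (-t) 0 : ℤ) := by
        exact_mod_cast (by omega : 2 * max (-(t + -1)) 0 ≤ max (-(t + -2)) 0 + max (-t) 0)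
      have b2 : ((max (-(t + -1)) 0 : ℤ) : ℝ) ≤ (max (-t) 0 : ℤ) + 1 := by
        exact_mod_cast (by omega : max (-(t + -1)) 0 ≤ max (-t) 0 + 1)
      have b3 : (-K c : ℝ) + 1 ≤ t := by exact_mod_cast (by omega : -K c + 1 ≤ t)
      have a2 : exp (-V c (t + -2)) * exp (-V c t) ≤ exp (-V c (t + -1)) ^ 2 * exp (-(2 * ε c)) := by
        rw [sq, ← exp_add, ← exp_add, ← exp_add, exp_le_exp]
        simp only [hV, hc, if_false]
        push_cast at *
        nlinarith [hκ c]
      have a3 : exp (-(2 * ε c)) ≤ 1 - ε c := by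
        rw [exp_neg, inv_le_comm₀ (exp_pos _) (by linarith [hε' c])]
        refine le_trans ?_ (add_one_le_exp _)
        rw [inv_le_iff_one_le_mul₀ (by linarith [hε' c])]
        nlinarith [hε c, hε' c]
      have a4 : exp (-(km + 1)) * (exp (-V c (t + -1)) * exp (-V c t)) ≤ exp (-V c (t + -1)) ^ 2 := by
        rw [sq, ← exp_add, ← exp_add, ← exp_add, exp_le_exp]
        simp only [hV, hc, if_false]
        push_cast at *
        nlinarith [hκ c, hκ' c, hε c, hεK c]
      have a5 := mul_le_mul_of_nonneg_left a3 (sq_nonneg (exp (-V c (t + -1))))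
      have a6 := mul_le_mul_of_nonneg_left a4 (hε c).le
      nlinarith)
    (fun c => (div_pos (exp_pos _) (hε c)).le) (fun c => (mul_pos (hε c) (exp_pos _)).le)
    (fun c => by rw [exp_neg]; field_simp [(hε c).ne']; exact le_rfl) g
  refine ⟨m, (Finset.sum_congr rfl fun T hT => by rw [peq T hT]).symm.trans_le (hm.trans ?_)⟩
  refine Finset.sum_le_sum fun u _ => ?_
  simp only [Finset.mul_sum]
  rw [Finset.sum_comm]
  refine Finset.sum_le_sum fun i _ => ?_
  have mem : ∀ i, ∀ z ∈ St js r (cc - Pi.single u.1 1) K, z + dv js i u ∈ St js r cc K :=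
    fun i z hz => mem_St.2 ((mem_St.1 hz).add (dv_row js i u) (fun j => dv_col i u.1)
      (fun c => dv_nonneg i u.1))
  have e : ∀ z, z + dv js is u + gv is js i u = z + dv js i u := fun z => by unfold gv; abel
  refine le_trans ?_ (Finset.sum_le_sum_of_subset_of_nonneg
    (s := (St js r (cc - Pi.single u.1 1) K).image (· + dv js is u)) (fun T hT => ?_)
    (fun T _ _ => mul_nonneg (div_pos (exp_pos _) (hε _)).le
      (mul_nonneg (le_min (om_pos _ _).le (om_pos _ _).le) (sq_nonneg _))))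
  · rw [Finset.sum_image fun _ _ _ _ h => add_right_cancel h]
    refine Finset.sum_le_sum fun z hz => ?_
    rw [e, peq z hz]
    have a1 : exp (-∑ c, if c.2 = js then 0 else ε c * (z c : ℝ) ^ 2) ≤ 1 := by
      rw [exp_le_one_iff, neg_nonpos]
      refine Finset.sum_nonneg fun c _ => ?_
      split_ifs
      exacts [le_rfl, mul_nonneg (hε c).le (sq_nonneg _)]
    have a2 : om κ z ≤ exp km * min (om κ (z + dv js is u)) (om κ (z + dv js i u)) := by
      rw [mul_min_of_nonneg _ _ (exp_pos _).le]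
      exact le_min (om_dv hκ hκ' _ _ _ _) (om_dv hκ hκ' _ _ _ _)
    have a3 := (mul_le_of_le_one_right (om_pos κ z).le a1).trans a2
    refine (mul_le_mul_of_nonneg_right a3 (mul_nonneg (div_pos (exp_pos _) (hε _)).le
      (sq_nonneg _))).trans_eq ?_
    rw [show 2 * km + 1 = km + (km + 1) by ring, exp_add km (km + 1)]
    ring
  · obtain ⟨z, hz, rfl⟩ := Finset.mem_image.1 hT
    exact Finset.mem_filter.2 ⟨mem _ z hz, e z ▸ mem _ z hz⟩

end Vale.Agent.P328
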